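import Vale.Agent.P356.Loc

/-!
Word calculus. `cost_expand`: by induction on the word, a word with `j` letters from `𝒢'` is a
sum of at most `n^j` words with `r j` letters from `𝒢` (`SumOf.mul`); then `Cost.sumOf`.
`cost_split`: by induction a word with `j` letters from `𝒢₁ ∪ 𝒢₂` is, for some
`j₁ + j₂ ≤ j`, both a word on `I₁` with `j₁` letters from `𝒢₁` and a word on `I₂` with `j₂`
letters from `𝒢₂`; one of `j₁, j₂` is at most `j/2`.
`trunc_count`: `TR U W e 0 = U^e` and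
`TR U W e (τ+1) = U^e + ∑_{a<e} U^a * W * TR U W (e-a-1) τ`; `U^a = (L+R)^a` is a sum of
`a+1` free terms (`Commute.add_pow`); with `β = 2/(1-x)^2 ≥ 1` use
`∑ (a+1) x^a ≤ 1/(1-x)^2`, so `e+1 ≤ x⁻¹^e/(1-x)^2`.
-/

namespace Vale.Agent.P356

open Finset

variable {ι : Type} [Fintype ι] [DecidableEq ι] {q G : ℕ} {γ : ℝ}

theorem Free.one (Y : ℕ → Finset ι) (I : Finset ℕ) : Free Y I (1 : Op ι q) :=
  fun _ _ => RK.one _

theorem Free.mul {Y : ℕ → Finset ι} {I : Finset ℕ} {A B : Op ι q} (h : Free Y I A)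
    (h' : Free Y I B) : Free Y I (A * B) :=
  fun c hc => ((h c hc).mul (h' c hc)).mono (one_mul 1).le

theorem Free.smul {Y : ℕ → Finset ι} {I : Finset ℕ} {A : Op ι q} (h : Free Y I A) (c : ℂ) :
    Free Y I (c • A) :=
  fun k hk => (h k hk).smul c

theorem Wd.mono {Y : ℕ → Finset ι} {I : Finset ℕ} {𝒢 : Set (Op ι q)} {j j' : ℕ} {M : Op ι q}
    (h : Wd (Free Y I) 𝒢 j M) (hj : j ≤ j') : Wd (Free Y I) 𝒢 j' M := by
  obtain ⟨k, rfl⟩ := Nat.exists_eq_add_of_le hj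
  have h1 := Wd.mul h (Wd.free (j := k) (Free.one Y I))
  rwa [mul_one] at h1

theorem Wd.smul {Y : ℕ → Finset ι} {I : Finset ℕ} {𝒢 : Set (Op ι q)} {j : ℕ} {M : Op ι q}
    (h : Wd (Free Y I) 𝒢 j M) (c : ℂ) : Wd (Free Y I) 𝒢 j (c • M) := by
  have h1 := Wd.mul (Wd.free (j := 0) ((Free.one Y I).smul c)) h
  rwa [zero_add, smul_mul_assoc, one_mul] at h1

theorem MR.mono {Y : ℕ → Finset ι} {I I' : Finset ℕ} {M : Op ι q} {D D' : ℝ} (h : MR Y I M D)
    (hI : I ⊆ I') (hD : D ≤ D') (h0 : 0 ≤ D') : MR Y I' M D' := by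
  obtain ⟨Ms, rfl, hM⟩ := h
  refine ⟨fun c => if c ∈ I then Ms c else 0, ?_, fun c _ => ?_⟩
  · rw [Finset.sum_ite_mem, Finset.inter_eq_right.2 hI]
  · by_cases hc : c ∈ I
    · simp only [hc, if_true]
      exact (hM c hc).mono hD
    · simp only [hc, if_false]
      exact RK.zero _ h0

theorem MR.zero (Y : ℕ → Finset ι) (I : Finset ℕ) {D : ℝ} (h0 : 0 ≤ D) :
    MR Y I (0 : Op ι q) D :=
  ⟨fun _ => 0, by simp, fun _ _ => RK.zero _ h0⟩

theorem MR.add {Y : ℕ → Finset ι} {I : Finset ℕ} {M M' : Op ι q} {D D' : ℝ} (h : MR Y I M D)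
    (h' : MR Y I M' D') : MR Y I (M + M') (D + D') := by
  obtain ⟨Ms, rfl, hM⟩ := h
  obtain ⟨Ms', rfl, hM'⟩ := h'
  exact ⟨fun c => Ms c + Ms' c, Finset.sum_add_distrib.symm, fun c hc => (hM c hc).add (hM' c hc)⟩

theorem MR.smul {Y : ℕ → Finset ι} {I : Finset ℕ} {M : Op ι q} {D : ℝ} (h : MR Y I M D)
    (c : ℂ) : MR Y I (c • M) D := by
  obtain ⟨Ms, rfl, hM⟩ := h
  exact ⟨fun k => c • Ms k, Finset.smul_sum, fun k hk => (hM k hk).smul c⟩

theorem MR.sum {κ : Type} {Y : ℕ → Finset ι} {I : Finset ℕ} (s : Finset κ) {M : κ → Op ι q}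
    {D : ℝ} (h : ∀ i ∈ s, MR Y I (M i) D) : MR Y I (∑ i ∈ s, M i) (s.card * D) := by
  classical
  induction s using Finset.induction_on with
  | empty =>
    rw [Finset.sum_empty]
    exact MR.zero Y I (by simp)
  | insert a s ha ih =>
    have e : ((insert a s).card : ℝ) * D = D + s.card * D := by
      rw [Finset.card_insert_of_notMem ha]
      push_cast
      ring
    rw [Finset.sum_insert ha, e]
    exact (h a (Finset.mem_insert_self a s)).add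
      (ih fun i hi => h i (Finset.mem_insert_of_mem hi))

theorem Cost.mono {Y : ℕ → Finset ι} {I : Finset ℕ} {𝒢 : Set (Op ι q)} {F F' : ℕ → ℝ}
    (h : Cost Y I 𝒢 F) (hF : ∀ j, F j ≤ F' j) (h0 : ∀ j, 0 ≤ F' j) : Cost Y I 𝒢 F' :=
  fun j M hM => (h j M hM).mono subset_rfl (hF j) (h0 j)

theorem Cost.sumOf {Y : ℕ → Finset ι} {I : Finset ℕ} {𝒢 : Set (Op ι q)} {F : ℕ → ℝ}
    (h : Cost Y I 𝒢 F) {j : ℕ} (h0 : 0 ≤ F j) {N : ℝ} {M : Op ι q}
    (hM : SumOf (Wd (Free Y I) 𝒢 j) N M) : MR Y I M (N * F j) := by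
  have hN0 := hM.nonneg
  obtain ⟨l, hl, hN, rfl⟩ := hM
  have key : ∀ l : List (Op ι q), (∀ y ∈ l, Wd (Free Y I) 𝒢 j y) →
      MR Y I l.sum (l.length * F j) := by
    intro l
    induction l with
    | nil => exact fun _ => MR.zero Y I (by simp)
    | cons a l ih =>
      intro hl
      have e : ((a :: l).length : ℝ) * F j = F j + l.length * F j := by
        rw [List.length_cons]
        push_cast
        ring
      rw [List.sum_cons, e]
      exact (h j a (hl a List.mem_cons_self)).add (ih fun y hy => hl y (List.mem_cons_of_mem a hy))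
  exact (key l hl).mono subset_rfl (mul_le_mul_of_nonneg_right hN h0) (mul_nonneg hN0 h0)

theorem cost_base {Y : ℕ → Finset ι} {c : ℕ} {𝒢 : Set (Op ι q)} {ρ : ℝ} (hρ : 1 ≤ ρ)
    (h : ∀ M ∈ 𝒢, RK (Y c) M ρ) : Cost Y {c} 𝒢 fun j => ρ ^ j := by
  intro j M hM
  have key : RK (Y c) M (ρ ^ j) := by
    induction hM with
    | free hA => exact (hA c (Finset.mem_singleton_self c)).mono (one_le_pow₀ hρ)
    | letter hA =>
      rw [pow_one]
      exact h _ hA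
    | mul _ _ ih ih' =>
      rw [pow_add]
      exact ih.mul ih'
  refine ⟨fun _ => M, by simp, fun c' hc' => ?_⟩
  rw [Finset.mem_singleton.1 hc']
  exact key

theorem cost_expand {Y : ℕ → Finset ι} {I : Finset ℕ} {𝒢 𝒢' : Set (Op ι q)} {F : ℕ → ℝ}
    (h : Cost Y I 𝒢 F) (h0 : ∀ j, 0 ≤ F j) {n : ℝ} (hn : 1 ≤ n) {r : ℕ}
    (h' : ∀ M ∈ 𝒢', SumOf (Wd (Free Y I) 𝒢 r) n M) :
    Cost Y I 𝒢' fun j => n ^ j * F (r * j) := by
  intro j M hM
  have key : SumOf (Wd (Free Y I) 𝒢 (r * j)) (n ^ j) M := by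
    induction hM with
    | free hA => exact (SumOf.single (Wd.free hA)).mono (fun _ hy => hy) (one_le_pow₀ hn)
    | letter hA =>
      rw [pow_one, mul_one]
      exact h' _ hA
    | mul _ _ ih ih' =>
      rw [pow_add, mul_add]
      exact ih.mul ih' fun _ _ ha hb => ha.mul hb
  exact h.sumOf (h0 _) key

theorem cost_split {Y : ℕ → Finset ι} {I₁ I₂ : Finset ℕ} {𝒢₁ 𝒢₂ : Set (Op ι q)} {F : ℕ → ℝ}
    (h₁ : Cost Y I₁ 𝒢₁ F) (h₂ : Cost Y I₂ 𝒢₂ F) (h0 : ∀ j, 0 ≤ F j)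
    (f₁ : ∀ M ∈ 𝒢₁, Free Y I₂ M) (f₂ : ∀ M ∈ 𝒢₂, Free Y I₁ M) :
    Cost Y (I₁ ∪ I₂) (𝒢₁ ∪ 𝒢₂) fun j => F (j / 2) := by
  intro j M hM
  have key : ∃ j₁ j₂, j₁ + j₂ ≤ j ∧ Wd (Free Y I₁) 𝒢₁ j₁ M ∧ Wd (Free Y I₂) 𝒢₂ j₂ M := by
    induction hM with
    | free hA =>
      exact ⟨0, 0, Nat.zero_le _, Wd.free fun c hc => hA c (Finset.mem_union_left _ hc),
        Wd.free fun c hc => hA c (Finset.mem_union_right _ hc)⟩
    | letter hA =>
      rcases hA with hA | hA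
      · exact ⟨1, 0, le_rfl, Wd.letter hA, Wd.free (f₁ _ hA)⟩
      · exact ⟨0, 1, le_rfl, Wd.free (f₂ _ hA), Wd.letter hA⟩
    | mul _ _ ih ih' =>
      obtain ⟨a, b, k, u, v⟩ := ih
      obtain ⟨a', b', k', u', v'⟩ := ih'
      exact ⟨a + a', b + b', by omega, u.mul u', v.mul v'⟩
  obtain ⟨a, b, k, u, v⟩ := key
  by_cases ha : a ≤ j / 2
  · exact (h₁ _ _ (u.mono ha)).mono Finset.subset_union_left le_rfl (h0 _)
  · exact (h₂ _ _ (v.mono (by omega))).mono Finset.subset_union_right le_rfl (h0 _)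

end Vale.Agent.P356
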