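import Vale.Agent.P356.Sym
import Vale.Agent.P356.Words

/-!
Gadgets for a column and for an annulus.
`column`: let `P n θ ρ` say that every `Z ⊆ zone c (c+1)` with at most `n` terms has a gadget
with parameter `θ`, `Zn c (c+1)` and rank `ρ` across `Y c`. `P 1 1 (q^(2G))` (`gad_or`,
`orOp_loc`, `Loc.rk`, `orOp_zn`; `Z ∩ cls g` has at most one element). `P n θ ρ → P (2n) (2θ) (2ρ)`
(split `Z` in two parts, `Gad.avg`), `P n θ ρ → P n (θ/4+3/4) (2ρ^2)` for `θ, ρ ≥ 1` (`Gad.amp`).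
Three averages and one amplification: `θ ↦ 2θ+3/4`, `ρ ↦ 128 ρ^2`; induct with
`ρ_k = (128 ρ_0)^(2^k)/128`.
`Lvl w θ F` below is the analogous property for `w` consecutive columns. `lvl_avg`: the new family
consists of the averages `(1/2)•M₁ + (1/2)•M₂`; `cost_split` (freeness by `Zn.free`) then
`cost_expand` with `n = 2`, `r = 1`. `lvl_amp`: `cost_expand` with `n = 2`, `r = 2`.
`annulus`: pick `k₁` with `2A ≤ 8^k₁`; columns `c < 2·8^k` have at most `8^(k+k₁)` terms; start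
from `Lvl 1 (2^(k+k₁+1)) (ρ^j)` (`column`, `cost_base`), one level = three `lvl_avg` and two
`lvl_amp`: `w ↦ 8w`, `θ ↦ θ/2+1`, `F ↦ 2^(11 j) F (j/2)`; so after `i` levels
`θ_i ≤ 2^(k+k₁+1-i)+2`, `F_i j ≤ 2^(22 j) ρ^(j/2^i)`; at `i = k`, `ρ^(j/2^k) ≤ (128 q^(2G))^(2^k₁ j)`.
Finally average with `orOp (zone (2·8^k) (8^(k+1)) ∩ cls g)` (free on the annulus) and sum
over colours: `cost_expand` with `n = 2G+1`, `r = 1`.
-/

namespace Vale.Agent.P356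

open Finset

variable {ι : Type} [Fintype ι] [DecidableEq ι] {q G : ℕ} {γ : ℝ}

/-- Gadget families for blocks of `w` consecutive columns below `bd`. -/
def Lvl (S : Sys ι q G γ) {A : ℕ} (cu : Cuts S A) (bd w : ℕ) (θ : ℝ) (F : ℕ → ℝ) : Prop :=
  ∀ a, a + w ≤ bd → ∃ 𝒢 : Set (Op ι q), Cost cu.Y (Ico a (a + w)) 𝒢 F ∧
    (∀ M ∈ 𝒢, Zn cu.Y a (a + w) M) ∧ ∀ g, ∃ M ∈ 𝒢, S.Gad g (cu.zone a (a + w)) θ M

private theorem sum2_lv {α : Type} [AddMonoid α] {P : α → Prop} {x y : α} (hx : P x) (hy : P y) :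
    SumOf P 2 (x + y) := by
  refine ⟨[x, y], fun z hz => ?_, by norm_num, by simp⟩
  simp only [List.mem_cons, List.not_mem_nil, or_false] at hz
  rcases hz with rfl | rfl
  · exact hx
  · exact hy

theorem lvl_avg {S : Sys ι q G γ} {A : ℕ} {cu : Cuts S A} {bd w : ℕ} {θ : ℝ} {F : ℕ → ℝ}
    (h : Lvl S cu bd w θ F) (h0 : ∀ j, 0 ≤ F j) :
    Lvl S cu bd (2 * w) (2 * θ) fun j => 2 ^ j * F (j / 2) := by
  intro a ha
  obtain ⟨𝒢₁, c₁, z₁, g₁⟩ := h a (by omega)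
  obtain ⟨𝒢₂, c₂, z₂, g₂⟩ := h (a + w) (by omega)
  have hs := cost_split c₁ c₂ h0
    (fun M hM => (z₁ M hM).free fun c hc => Or.inr (mem_Ico.1 hc).1)
    (fun M hM => (z₂ M hM).free fun c hc => Or.inl (mem_Ico.1 hc).2)
  have he : a + w + w = a + 2 * w := by omega
  rw [Ico_union_Ico_eq_Ico (by omega) (by omega), he] at hs
  refine ⟨{M | ∃ M₁ ∈ 𝒢₁, ∃ M₂ ∈ 𝒢₂, M = (1 / 2 : ℂ) • M₁ + (1 / 2 : ℂ) • M₂}, ?_, ?_, fun g => ?_⟩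
  · have h1 := cost_expand (𝒢' := {M | ∃ M₁ ∈ 𝒢₁, ∃ M₂ ∈ 𝒢₂,
      M = (1 / 2 : ℂ) • M₁ + (1 / 2 : ℂ) • M₂}) (n := 2) (r := 1) hs (fun j => h0 _) one_le_two (by
        rintro M ⟨M₁, h₁, M₂, h₂, rfl⟩
        exact sum2_lv ((Wd.letter (Set.mem_union_left 𝒢₂ h₁)).smul _)
          ((Wd.letter (Set.mem_union_right 𝒢₁ h₂)).smul _))
    simpa only [one_mul] using h1
  · rintro M ⟨M₁, h₁, M₂, h₂, rfl⟩
    exact (((z₁ M₁ h₁).mono le_rfl (by omega)).smul _).add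
      (((z₂ M₂ h₂).mono (by omega) (by omega)).smul _)
  · obtain ⟨M₁, h₁, k₁⟩ := g₁ g
    obtain ⟨M₂, h₂, k₂⟩ := g₂ g
    refine ⟨_, ⟨M₁, h₁, M₂, h₂, rfl⟩, ?_⟩
    have hz : cu.zone a (a + 2 * w) = cu.zone a (a + w) ∪ cu.zone (a + w) (a + w + w) := by
      ext t
      simp only [Cuts.zone, mem_union, mem_filter, mem_univ, true_and]
      omega
    rw [hz]
    exact k₁.avg k₂

theorem lvl_amp {S : Sys ι q G γ} {A : ℕ} {cu : Cuts S A} {bd w : ℕ} {θ : ℝ} {F : ℕ → ℝ}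
    (h : Lvl S cu bd w θ F) (h0 : ∀ j, 0 ≤ F j) (hθ : 1 ≤ θ) :
    Lvl S cu bd w (θ / 4 + 3 / 4) fun j => 2 ^ j * F (2 * j) := by
  intro a ha
  obtain ⟨𝒢, c₁, z₁, g₁⟩ := h a ha
  refine ⟨{M | ∃ M₁ ∈ 𝒢, M = ((4 / (1 + 1 / θ) : ℝ) : ℂ) • M₁ +
    ((-(4 / (1 + 1 / θ) ^ 2) : ℝ) : ℂ) • (M₁ * M₁)}, ?_, ?_, fun g => ?_⟩
  · refine cost_expand (n := 2) (r := 2) c₁ h0 one_le_two ?_
    rintro M ⟨M₁, h₁, rfl⟩
    exact sum2_lv (((Wd.letter h₁).mono one_le_two).smul _)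
      ((Wd.mul (Wd.letter h₁) (Wd.letter h₁)).smul _)
  · rintro M ⟨M₁, h₁, rfl⟩
    exact ((z₁ M₁ h₁).smul _).add (((z₁ M₁ h₁).mul (z₁ M₁ h₁)).smul _)
  · obtain ⟨M₁, h₁, k₁⟩ := g₁ g
    exact ⟨_, ⟨M₁, h₁, rfl⟩, k₁.amp hθ⟩

end Vale.Agent.P356
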