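import Vale.Agent.P356.Column
import Vale.Agent.P356.Level

/-!
Gadgets for a column and for an annulus.
`column`: let `P n θ ρ` say that every `Z ⊆ zone c (c+1)` with at most `n` terms has a gadget
with parameter `θ`, `Zn c (c+1)` and rank `ρ` across `Y c`. `P 1 1 (q^(2G))` (`gad_or`,
`orOp_loc`, `Loc.rk`, `orOp_zn`; `Z ∩ cls g` has at most one element). `P n θ ρ → P (2n) (2θ) (2ρ)`
(split `Z` in two parts, `Gad.avg`), `P n θ ρ → P n (θ/4+3/4) (2ρ^2)` for `θ, ρ ≥ 1` (`Gad.amp`).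
Three averages and one amplification: `θ ↦ 2θ+3/4`, `ρ ↦ 128 ρ^2`; induct with
`ρ_k = (128 ρ_0)^(2^k)/128`.
`Lvl w θ F` below is the analogous property for `w` consecutive columns. `lvl_avg`: the new family
consists of the averages `(1/2)•M₁ + (1/2)•M₂`; `cost_split` (freeness by `Zn.free`) then
`cost_expand` with `n = 2`, `r = 1`. `lvl_amp`: `cost_expand` with `n = 2`, `r = 2`.
`annulus`: pick `k₁` with `2A ≤ 8^k₁`; columns `c < 2·8^k` have at most `8^(k+k₁)` terms; start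
from `Lvl 1 (2^(k+k₁+1)) (ρ^j)` (`column`, `cost_base`), one level = three `lvl_avg` and two
`lvl_amp`: `w ↦ 8w`, `θ ↦ θ/2+1`, `F ↦ 2^(11 j) F (j/2)`; so after `i` levels
`θ_i ≤ 2^(k+k₁+1-i)+2`, `F_i j ≤ 2^(22 j) ρ^(j/2^i)`; at `i = k`, `ρ^(j/2^k) ≤ (128 q^(2G))^(2^k₁ j)`.
Finally average with `orOp (zone (2·8^k) (8^(k+1)) ∩ cls g)` (free on the annulus) and sum
over colours: `cost_expand` with `n = 2G+1`, `r = 1`.
-/

namespace Vale.Agent.P356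

open Finset

variable {ι : Type} [Fintype ι] [DecidableEq ι] {q G : ℕ} {γ : ℝ}

section

variable {S : Sys ι q G γ} {A : ℕ} {cu : Cuts S A} {bd w : ℕ} {θ θ' : ℝ} {F F' : ℕ → ℝ}

theorem ann_mono (h : Lvl S cu bd w θ F) (h0 : 0 < θ) (hθ : θ ≤ θ') (hF : ∀ j, F j ≤ F' j)
    (h1 : ∀ j, 0 ≤ F' j) : Lvl S cu bd w θ' F' := fun a ha => by
  obtain ⟨𝒢, c1, c2, c3⟩ := h a ha
  refine ⟨𝒢, c1.mono hF h1, c2, fun g => ?_⟩
  obtain ⟨M, m1, m2⟩ := c3 g
  exact ⟨M, m1, m2.mono h0 hθ⟩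

theorem ann_step (h : Lvl S cu bd w θ F) (h0 : ∀ j, 0 ≤ F j) (hθ : 1 ≤ θ) :
    Lvl S cu bd (w * 8) (θ / 2 + 1) fun j => 2 ^ (10 * j) * F (j / 2) := by
  have p : ∀ {F : ℕ → ℝ}, (∀ j, 0 ≤ F j) → ∀ (r : ℕ → ℕ) j, 0 ≤ 2 ^ j * F (r j) :=
    fun h r j => mul_nonneg (by positivity) (h _)
  have p1 := p h0 (· / 2)
  have p2 := p p1 (· / 2)
  have p3 := p p2 (· / 2)
  have h5 := lvl_amp (lvl_amp (lvl_avg (lvl_avg (lvl_avg h h0) p1) p2) p3 (by linarith))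
    (p p3 (2 * ·)) (by linarith)
  rw [show 2 * (2 * (2 * w)) = w * 8 by ring] at h5
  refine ann_mono h5 (by linarith) (by linarith) (fun j => le_of_eq ?_)
    fun j => mul_nonneg (by positivity) (h0 _)
  rw [show 2 * (2 * j) / 2 = 2 * j by omega, show 2 * j / 2 = j by omega]
  ring

theorem ann_iter {T ρ : ℝ} (hT : 0 ≤ T) (hρ : 1 ≤ ρ) (h : Lvl S cu bd 1 (T + 2) fun j => ρ ^ j)
    (i : ℕ) : Lvl S cu bd (8 ^ i) (T / 2 ^ i + 2) fun j => 2 ^ (20 * j) * ρ ^ (j / 2 ^ i) := by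
  have ρ0 : 0 ≤ ρ := zero_le_one.trans hρ
  induction i with
  | zero =>
    refine ann_mono h (by linarith) (by simp) (fun j => ?_) fun j => by positivity
    rw [pow_zero, Nat.div_one]
    exact le_mul_of_one_le_left (by positivity) (one_le_pow₀ one_le_two)
  | succ i ih =>
    have t0 : 0 ≤ T / 2 ^ i := by positivity
    refine ann_mono (ann_step ih (fun j => by positivity) (by linarith)) (by linarith)
      (le_of_eq (by ring)) (fun j => ?_) fun j => by positivity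
    rw [← mul_assoc, ← pow_add, Nat.div_div_eq_div_mul, ← pow_succ']
    exact mul_le_mul_of_nonneg_right (pow_le_pow_right₀ one_le_two (by omega)) (by positivity)

theorem ann_base (S : Sys ι q G γ) (cu : Cuts S A) {K : ℕ} (hK : A * bd ≤ 8 ^ K) :
    Lvl S cu bd 1 (2 ^ (K + 1) + 2) fun j => ((128 * (q : ℝ) ^ (2 * G)) ^ (2 ^ K)) ^ j := by
  intro a ha
  have hc : (cu.zone a (a + 1)).card ≤ 8 ^ K := by
    refine le_trans (card_le_card fun t ht => ?_)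
      ((cu.size a).trans ((Nat.mul_le_mul_left A ha).trans hK))
    simp only [Cuts.zone, mem_filter, mem_univ, true_and] at ht ⊢
    omega
  choose M m1 m2 m3 using fun g => column S cu a g K _ subset_rfl hc
  have q1 : (1 : ℝ) ≤ (q : ℝ) ^ (2 * G) := one_le_pow₀ (Nat.one_le_cast.2 S.qpos)
  have t1 : (2 : ℝ) ≤ 2 ^ (K + 1) := le_self_pow₀ one_le_two K.succ_ne_zero
  refine ⟨Set.range M, ?_, ?_, fun g => ⟨M g, ⟨g, rfl⟩, (m1 g).mono (by linarith) (by linarith)⟩⟩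
  · rw [Nat.Ico_succ_singleton]
    refine cost_base (one_le_pow₀ (by linarith)) ?_
    rintro _ ⟨g, rfl⟩
    exact m3 g
  · rintro _ ⟨g, rfl⟩
    exact m2 g

end

theorem annulus (q G A : ℕ) : ∃ θ Λ : ℝ, 1 ≤ θ ∧ 1 ≤ Λ ∧
    ∀ (ι : Type) [Fintype ι] [DecidableEq ι] (γ : ℝ) (S : Sys ι q G γ) (cu : Cuts S A) (k : ℕ),
      ∃ M : ℕ → Op ι q, (∀ g, S.Gad g (cu.zone (8 ^ k) (8 ^ (k + 1))) θ (M g)) ∧
        (∀ g, Zn cu.Y (8 ^ k) (8 ^ (k + 1)) (M g)) ∧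
        Cost cu.Y (Ico (8 ^ k) (2 * 8 ^ k)) {∑ g ∈ range G, M g} fun j => Λ ^ j := by
  obtain ⟨k₁, hk₁⟩ : ∃ k₁, A * 2 ≤ 8 ^ k₁ := ⟨A * 2, (Nat.lt_pow_self (by norm_num)).le⟩
  have B0 : 0 ≤ 128 * (q : ℝ) ^ (2 * G) := by positivity
  have T0 : (0 : ℝ) < 2 ^ (k₁ + 1) := by positivity
  have L0 : 0 ≤ (2 * G + 1 : ℝ) * (2 ^ 20 * (128 * (q : ℝ) ^ (2 * G)) ^ 2 ^ k₁) := by positivity
  refine ⟨2 * (2 ^ (k₁ + 1) + 2), 1 + (2 * G + 1) * (2 ^ 20 * (128 * (q : ℝ) ^ (2 * G)) ^ 2 ^ k₁),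
    by linarith, by linarith, fun ι _ _ γ S cu k => ?_⟩
  have B1 : 1 ≤ 128 * (q : ℝ) ^ (2 * G) := by
    linarith [one_le_pow₀ (n := 2 * G) (Nat.one_le_cast (α := ℝ).2 S.qpos)]
  have h := ann_iter (by positivity) (one_le_pow₀ B1) (ann_base (bd := 2 * 8 ^ k) S cu (K := k + k₁)
    (by rw [← mul_assoc, pow_add, mul_comm (8 ^ k)]; exact Nat.mul_le_mul_right _ hk₁)) k
  rw [add_assoc, pow_add, mul_div_cancel_left₀ _ (by positivity)] at h
  obtain ⟨𝒢, c1, c2, c3⟩ := h (8 ^ k) (two_mul _).ge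
  rw [← two_mul] at c1 c2 c3
  choose M m1 m2 using c3
  have e1 : 8 ^ k ≤ 2 * 8 ^ k := by omega
  have e2 : 2 * 8 ^ k ≤ 8 ^ (k + 1) := by
    rw [pow_succ]
    omega
  have hz : ∀ g, Zn cu.Y (2 * 8 ^ k) (8 ^ (k + 1))
      (S.orOp (cu.zone (2 * 8 ^ k) (8 ^ (k + 1)) ∩ S.cls g)) := fun g =>
    cu.orOp_zn inter_subset_left
  refine ⟨fun g => (1 / 2 : ℂ) • M g +
    (1 / 2 : ℂ) • S.orOp (cu.zone (2 * 8 ^ k) (8 ^ (k + 1)) ∩ S.cls g), fun g => ?_, fun g =>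
      (((c2 _ (m1 g)).mono le_rfl e2).smul _).add (((hz g).mono e1 le_rfl).smul _), ?_⟩
  · have e : cu.zone (8 ^ k) (8 ^ (k + 1)) =
        cu.zone (8 ^ k) (2 * 8 ^ k) ∪ cu.zone (2 * 8 ^ k) (8 ^ (k + 1)) := by
      ext t
      simp only [Cuts.zone, mem_filter, mem_univ, true_and, mem_union]
      omega
    rw [e]
    exact (m2 g).avg ((S.gad_or g _).mono one_pos (by linarith))
  · refine (cost_expand c1 (fun j => by positivity) (n := 2 * G + 1) (r := 1)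
      (by linarith [Nat.cast_nonneg (α := ℝ) G]) ?_).mono (fun j => ?_) fun j => by positivity
    · rintro _ rfl
      refine (SumOf.sum (range G) (N := fun _ => 1 + 1) fun g _ =>
        (SumOf.single ((Wd.letter (m1 g)).smul _)).add (SumOf.single (Wd.free
          (((hz g).free fun c hc => Or.inl (mem_Ico.1 hc).2).smul _)))).mono (fun _ h => h) ?_
      rw [sum_const, card_range, nsmul_eq_mul]
      linarith
    · refine le_trans ?_ (pow_le_pow_left₀ L0 (le_add_of_nonneg_left zero_le_one) j)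
      generalize 128 * (q : ℝ) ^ (2 * G) = B at B0 B1 ⊢
      rw [one_mul, mul_pow, mul_pow, ← pow_mul, ← pow_mul, ← pow_mul]
      refine mul_le_mul_of_nonneg_left (mul_le_mul_of_nonneg_left (pow_le_pow_right₀ B1 ?_)
        (by positivity)) (by positivity)
      rw [pow_add, mul_comm (2 ^ k), mul_assoc]
      exact Nat.mul_le_mul_left _ (Nat.mul_div_le _ _)

end Vale.Agent.P356
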