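import Vale.Agent.P356.DL

/-!
Detectability lemma. For a list `l` (applied from the right end) put `w = dl l v`. Prove by
induction on a list `l` without duplicates, with `loss t` the squared norm removed by the factor
`1 - p t`: (a) `∑_{t ∈ l} loss t = ‖v‖^2 - ‖dl l v‖^2` (`norm_sq_split`); (b) for `t ∈ l`,
`‖p t (dl l v)‖ ≤ ∑_{t' ∈ l, X t' meets X t} sqrt (loss t')`: a new factor `1 - p t'` either
commutes with `p t` (disjoint supports, `Loc.commute`, and it is a contraction) or changes the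
vector by `p t' w`, of norm `sqrt (loss t')`; for the head itself `p t (1 - p t) = 0`.
A convenient form: there is `r : ι → ℝ`, `r ≥ 0`, with `∑_{t ∈ l} r t ^2 = ‖v‖^2 - ‖dl l v‖^2`
and (b) with `r`. Cauchy-Schwarz and double counting (`nbr`, symmetric) give
`γ ‖w‖^2 ≤ ∑ ‖p t w‖^2 ≤ G^2 (‖v‖^2 - ‖w‖^2)`; `w ⊥ Ω` as each factor is symmetric and fixes `Ω`.
`dl_converse`: take `l` the concatenation of the lists `(cls g).toList`, `g < G`; then
`dl l` is the product of the contractions `P_g = 1 - orOp (cls g)`, and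
`‖v - dl l v‖ ≤ ∑ ‖orOp (cls g) v‖` (telescoping), `‖v - dl l v‖ ≥ (1-δ)‖v‖`; Cauchy-Schwarz.
`boost`: choose `n0` with `δ^n0 ≤ 1/2`, `K = (dl univ.toList)^(n0 (u+w))`; `dl` has rank
`(q^(2G))^cross` (`dl_rk`), `B = q^(2 G n0)` (use `max`/`qpos`), and the approximant is
`(inner Ω χ)⁻¹ • K χ` (`Shr.close`).
-/

namespace Vale.Agent.P356

open Finset

variable {ι : Type} [Fintype ι] [DecidableEq ι] {q G : ℕ} {γ : ℝ}

private theorem bo_append (S : Sys ι q G γ) (l l' : List ι) :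
    S.dl (l ++ l') = S.dl l * S.dl l' := by
  simp [Sys.dl]

private theorem bo_tele (S : Sys ι q G γ) (v : St ι q) (n : ℕ) : ∃ l : List ι, l.Nodup ∧
    (∀ t, t ∈ l ↔ S.clr t < n) ∧ ‖v - S.dl l v‖ ≤ ∑ g ∈ range n, ‖S.orOp (S.cls g) v‖ := by
  induction n with
  | zero => exact ⟨[], List.nodup_nil, by simp, by simp [Sys.dl]⟩
  | succ n ih =>
    obtain ⟨l, h1, h2, h3⟩ := ih
    have hm : ∀ t, t ∈ (S.cls n).toList ↔ S.clr t = n := fun t => by simp [Sys.cls]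
    refine ⟨l ++ (S.cls n).toList, List.Nodup.append h1 (nodup_toList _) fun t ht ht' => ?_,
      fun t => ?_, ?_⟩
    · have := (h2 t).1 ht
      have := (hm t).1 ht'
      omega
    · rw [List.mem_append, h2, hm]
      omega
    · have e : v - S.dl (l ++ (S.cls n).toList) v =
          (v - S.dl l v) + S.dl l (S.orOp (S.cls n) v) := by
        rw [bo_append]
        simp [Sys.orOp]
      rw [e, sum_range_succ]
      exact (norm_add_le _ _).trans (add_le_add h3 (S.dl_norm_le _ _))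

private theorem bo_rk (S : Sys ι q G γ) (Y : Finset ι) (l : List ι) :
    RK Y (S.dl l) (l.map fun t =>
      if ¬ S.X t ⊆ Y ∧ ¬ Disjoint (S.X t) Y then (q : ℝ) ^ (2 * G) else 1).prod := by
  induction l with
  | nil => simpa [Sys.dl] using RK.one Y
  | cons t l ih =>
    have hl : Loc (S.X t) (1 - S.p t) := (Loc.one _).sub (S.loc t)
    have e : S.dl (t :: l) = (1 - S.p t) * S.dl l := by simp [Sys.dl]
    rw [e, List.map_cons, List.prod_cons]
    refine RK.mul ?_ ih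
    split_ifs with h
    · refine (hl.rk Y).mono (pow_le_pow_right₀ ?_ ?_)
      · exact_mod_cast S.qpos
      · exact Nat.mul_le_mul_left _ (S.card t)
    · by_cases h1 : S.X t ⊆ Y
      · exact (hl.mono h1).rk_one
      · have h2 : Disjoint (S.X t) Y := by
          by_contra h2
          exact h ⟨h1, h2⟩
        exact (hl.mono (subset_compl_iff_disjoint_right.2 h2)).rk_one_compl

theorem dl_converse (G : ℕ) {γ : ℝ} (hγ : 0 < γ) : ∃ c : ℝ, 0 < c ∧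
    ∀ (ι : Type) [Fintype ι] [DecidableEq ι] (q : ℕ) (S : Sys ι q G γ) (v : St ι q),
      inner ℂ S.Ω v = 0 → c * ‖v‖ ^ 2 ≤ ∑ g ∈ range G, ‖S.orOp (S.cls g) v‖ ^ 2 := by
  obtain ⟨δ, h0, h1, hδ⟩ := dl_shr G hγ
  have h2 : 0 < 1 - δ := sub_pos.2 h1
  refine ⟨(1 - δ) ^ 2 / (G + 1), by positivity, fun ι _ _ q S v hv => ?_⟩
  obtain ⟨l, hl, hm, ht⟩ := bo_tele S v G
  have h3 := ((hδ ι q S l hl fun t => (hm t).2 (S.clr_lt t)).2 v hv).2
  have h4 : (1 - δ) * ‖v‖ ≤ ∑ g ∈ range G, ‖S.orOp (S.cls g) v‖ := by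
    have := norm_sub_norm_le v (S.dl l v)
    linarith
  have h5 := sq_sum_le_card_mul_sum_sq (s := range G) (f := fun g => ‖S.orOp (S.cls g) v‖)
  rw [card_range] at h5
  have h6 := pow_le_pow_left₀ (by positivity) h4 2
  have h7 : 0 ≤ ∑ g ∈ range G, ‖S.orOp (S.cls g) v‖ ^ 2 := sum_nonneg fun _ _ => sq_nonneg _
  rw [div_mul_eq_mul_div, div_le_iff₀ (by positivity), ← mul_pow]
  nlinarith

theorem Sys.dl_rk (S : Sys ι q G γ) (Y : Finset ι) :
    RK Y (S.dl (univ : Finset ι).toList) (((q : ℝ) ^ (2 * G)) ^ S.cross Y) := by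
  have h := bo_rk S Y (univ : Finset ι).toList
  rwa [prod_map_toList, ← prod_filter, prod_const] at h

theorem boost (q G : ℕ) {γ : ℝ} (hγ : 0 < γ) : ∃ B : ℝ, 1 ≤ B ∧
    ∀ (ι : Type) [Fintype ι] [DecidableEq ι] (S : Sys ι q G γ) (Y : Finset ι) (χ : St ι q)
      (d : ℝ) (w u : ℕ), SR Y χ d → χ ≠ 0 → (1 / 2) ^ w * ‖χ‖ ≤ ‖inner ℂ S.Ω χ‖ →
      Apx S.Ω Y (d * B ^ (S.cross Y * (u + w))) ((1 / 2) ^ u) := by
  obtain ⟨δ, h0, h1, hδ⟩ := dl_shr G hγ
  obtain ⟨n0, hn⟩ := exists_pow_lt_of_lt_one (show (0 : ℝ) < 1 / 2 by norm_num) h1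
  refine ⟨(max 1 ((q : ℝ) ^ (2 * G))) ^ n0, one_le_pow₀ (le_max_left _ _),
    fun ι _ _ S Y χ d w u hχ hne hw => ?_⟩
  have hq : (1 : ℝ) ≤ (q : ℝ) ^ (2 * G) := one_le_pow₀ (by exact_mod_cast S.qpos)
  have hK := (hδ ι q S _ (nodup_toList univ) fun t => mem_toList.2 (mem_univ t)).pow h0
    (n0 * (u + w))
  have hc := hK.close (pow_nonneg h0 _) S.unit χ
  have hp : δ ^ (n0 * (u + w)) ≤ (1 / 2) ^ u * (1 / 2) ^ w := by
    rw [pow_mul, ← pow_add]
    exact pow_le_pow_left₀ (pow_nonneg h0 _) hn.le _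
  have ha : 0 < ‖inner ℂ S.Ω χ‖ :=
    lt_of_lt_of_le (mul_pos (by positivity) (norm_pos_iff.2 hne)) hw
  have ha' : inner ℂ S.Ω χ ≠ 0 := norm_pos_iff.1 ha
  refine ⟨(inner ℂ S.Ω χ)⁻¹ • (S.dl (univ : Finset ι).toList ^ (n0 * (u + w))) χ,
    ((hχ.apply ((S.dl_rk Y).pow (n0 * (u + w)))).smul _).mono (le_of_eq ?_), ?_⟩
  · rw [max_eq_right hq]
    simp only [← pow_mul]
    congr 2
    ring
  · have e : S.Ω - (inner ℂ S.Ω χ)⁻¹ • (S.dl (univ : Finset ι).toList ^ (n0 * (u + w))) χ =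
        (-(inner ℂ S.Ω χ)⁻¹) • ((S.dl (univ : Finset ι).toList ^ (n0 * (u + w))) χ -
          inner ℂ S.Ω χ • S.Ω) := by
      rw [neg_smul, smul_sub, smul_smul, inv_mul_cancel₀ ha', one_smul, neg_sub]
    rw [e, norm_smul, norm_neg, norm_inv, inv_mul_le_iff₀ ha]
    refine hc.trans ((mul_le_mul_of_nonneg_right hp (norm_nonneg _)).trans ?_)
    rw [mul_assoc, mul_comm]
    exact mul_le_mul_of_nonneg_right hw (by positivity)

/-- An approximation within `1/2` has overlap at least `1/4` of its norm. -/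
theorem Apx.overlap {Ω : St ι q} (hΩ : ‖Ω‖ = 1) {Y : Finset ι} {d : ℝ}
    (h : Apx Ω Y d (1 / 2)) :
    ∃ χ, SR Y χ d ∧ χ ≠ 0 ∧ (1 / 2) ^ 2 * ‖χ‖ ≤ ‖inner ℂ Ω χ‖ := by
  obtain ⟨χ, h1, h2⟩ := h
  have h3 : ‖χ‖ ≤ 3 / 2 := by
    have := norm_sub_norm_le χ Ω
    rw [norm_sub_rev] at this
    linarith
  have h4 : ‖inner ℂ Ω (Ω - χ)‖ ≤ 1 / 2 := by
    have := norm_inner_le_norm (𝕜 := ℂ) Ω (Ω - χ)
    rw [hΩ, one_mul] at this
    exact this.trans h2
  have h5 : ‖inner ℂ Ω Ω‖ = 1 := by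
    rw [inner_self_eq_norm_sq_to_K, hΩ]
    simp
  have h6 := norm_sub_norm_le (inner ℂ Ω Ω) (inner ℂ Ω χ)
  rw [← inner_sub_right] at h6
  refine ⟨χ, h1, fun h0 => ?_, by linarith⟩
  rw [h0, sub_zero, hΩ] at h2
  norm_num at h2

end Vale.Agent.P356
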