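import Vale.Agent.P356.Basic

/-!
Decomposition of a power by the first letter that occurs few times. Let letters be
`Option (Fin T)` (`X none = V`, `X (some a) = W a`). Define recursively
`WS 0 φ = φ 0 • 1`, `WS (e+1) φ = V * WS e φ + ∑ a, W a * WS e (fun n => φ (n + Pi.single a 1))`
for `φ : (Fin T → ℕ) → ℂ` (sum over words of length `e` weighted by `φ` of the letter counts).
By induction on `e`: `WS e` is linear in `φ`; it depends only on the values of `φ` at `n` with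
`∑ n ≤ e`; `WS e 1 = (V + ∑ W)^e`; and
`WS e (fun n => (∏_{b ≠ a} z b ^ n b) * if n a ≤ τ then 1 else 0) = TR (V + ∑_{b ≠ a} z b • W b) (W a) e τ`.
For `∑ n ≤ e < T (τ+1)` some `n a ≤ τ`, so `1 = ∑_a φ_a n` with
`φ_a n = [∀ b < a, τ < n b] [n a ≤ τ]`. By `interp` (Vandermonde) each factor `t_b (n b)`
(`[τ < n]` for `b < a`, `1` for `b > a`) equals `∑_k λ_b k * k ^ (n b)` for `n b ≤ e`; for `b = a`
use weights summing to one; expand the product with `Finset.prod_univ_sum`.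
-/

namespace Vale.Agent.P356

open Finset

theorem numer_idx {Λ : ℝ} (hΛ : 1 ≤ Λ) (J : ℕ) :
    ∃ i : ℕ, (6 * ((4 ^ i : ℝ) + 1) ^ 2 * Λ) ^ J ≤ (3 / 2) ^ 2 ^ i := by
  have hc : 0 < (24 * Λ) ^ J := by positivity
  have ht := tendsto_pow_const_div_const_pow_of_one_lt (4 * J) (r := (3 / 2 : ℝ)) (by norm_num)
  obtain ⟨N, hN⟩ := Filter.eventually_atTop.mp (ht.eventually (gt_mem_nhds (inv_pos.mpr hc)))
  refine ⟨N, ?_⟩
  have h1 := hN (2 ^ N) Nat.lt_two_pow_self.le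
  rw [div_lt_iff₀ (by positivity), inv_mul_eq_div, lt_div_iff₀ hc] at h1
  refine le_trans ?_ h1.le
  rw [pow_mul, ← mul_pow]
  refine pow_le_pow_left₀ (by positivity) ?_ J
  have h2 : (4 : ℝ) ^ N = (2 ^ N) ^ 2 := by
    rw [← pow_mul, mul_comm, pow_mul]
    norm_num
  have h3 : (1 : ℝ) ≤ 4 ^ N := one_le_pow₀ (by norm_num)
  have h4 : ((4 : ℝ) ^ N + 1) ^ 2 ≤ 4 * (4 ^ N) ^ 2 := by nlinarith
  have h5 : (((2 ^ N : ℕ) : ℝ)) ^ 4 = (4 ^ N) ^ 2 := by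
    rw [h2]
    push_cast
    ring
  rw [h5]
  nlinarith

theorem numer_poly (k : ℕ) : ∃ B : ℝ, 1 ≤ B ∧ ∀ s : ℕ, ((s : ℝ) + 1) ^ k ≤ B * (4 / 3) ^ s := by
  have ht := tendsto_pow_const_div_const_pow_of_one_lt k (r := (4 / 3 : ℝ)) (by norm_num)
  obtain ⟨B, hB⟩ := ht.bddAbove_range
  refine ⟨max 1 (B * (4 / 3)), le_max_left _ _, fun s => ?_⟩
  have h1 : (((s + 1 : ℕ) : ℝ)) ^ k / (4 / 3) ^ (s + 1) ≤ B := hB ⟨s + 1, rfl⟩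
  rw [div_le_iff₀ (by positivity), pow_succ] at h1
  push_cast at h1
  calc ((s : ℝ) + 1) ^ k ≤ B * (4 / 3) * (4 / 3) ^ s := by linarith
    _ ≤ _ := mul_le_mul_of_nonneg_right (le_max_right _ _) (by positivity)

theorem numer_pow {Q : ℝ} (hQ : 1 ≤ Q) {i j s : ℕ} (h : Q ^ 2 ^ j ≤ (3 / 2) ^ 2 ^ i) :
    Q ^ (2 ^ (i + j) * s / 4 ^ i) ≤ (3 / 2) ^ s := by
  have h1 : 2 ^ (i + j) * s / 4 ^ i * 2 ^ i ≤ 2 ^ j * s := by
    have h2 := Nat.div_mul_le_self (2 ^ (i + j) * s) (4 ^ i)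
    have h3 : (4 : ℕ) ^ i = 2 ^ i * 2 ^ i := mul_pow 2 2 i
    refine Nat.le_of_mul_le_mul_right (c := 2 ^ i) ?_ (by positivity)
    calc 2 ^ (i + j) * s / 4 ^ i * 2 ^ i * 2 ^ i = 2 ^ (i + j) * s / 4 ^ i * 4 ^ i := by
          rw [mul_assoc, ← h3]
      _ ≤ 2 ^ (i + j) * s := h2
      _ = 2 ^ j * s * 2 ^ i := by ring
  refine le_of_pow_le_pow_left₀ (n := 2 ^ i) (by positivity) (by positivity) ?_
  calc (Q ^ (2 ^ (i + j) * s / 4 ^ i)) ^ 2 ^ i = Q ^ (2 ^ (i + j) * s / 4 ^ i * 2 ^ i) := by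
        rw [← pow_mul]
    _ ≤ Q ^ (2 ^ j * s) := pow_le_pow_right₀ hQ h1
    _ = (Q ^ 2 ^ j) ^ s := pow_mul _ _ _
    _ ≤ ((3 / 2) ^ 2 ^ i) ^ s := pow_le_pow_left₀ (by positivity) h s
    _ = ((3 / 2) ^ s) ^ 2 ^ i := by rw [← pow_mul, ← pow_mul, mul_comm]

theorem agsp_numerics {Λ : ℝ} (hΛ : 1 ≤ Λ) (j₀ : ℕ) : ∃ (i : ℕ) (C : ℝ), 1 ≤ C ∧ ∀ s : ℕ,
    (((2 ^ (i + j₀) * s : ℕ) : ℝ) + 1) * ((4 ^ i : ℝ) * (((2 ^ (i + j₀) * s : ℕ) : ℝ) + 1) ^ (4 ^ i) *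
      (6 * ((4 ^ i : ℝ) + 1) ^ 2 * Λ) ^ (2 ^ (i + j₀) * s / 4 ^ i + 1)) ≤ C * 2 ^ s := by
  obtain ⟨i, hi⟩ := numer_idx hΛ (2 ^ j₀)
  obtain ⟨B, hB1, hB⟩ := numer_poly (4 ^ i + 1)
  obtain ⟨Q, hQ⟩ : ∃ Q : ℝ, Q = 6 * ((4 ^ i : ℝ) + 1) ^ 2 * Λ := ⟨_, rfl⟩
  have h4 : (1 : ℝ) ≤ 4 ^ i := one_le_pow₀ (by norm_num)
  have hQ1 : 1 ≤ Q := by
    rw [hQ]
    nlinarith
  have hA : (1 : ℝ) ≤ 2 ^ (i + j₀) := one_le_pow₀ (by norm_num)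
  refine ⟨i, 4 ^ i * Q * (2 ^ (i + j₀)) ^ (4 ^ i + 1) * B, ?_, fun s => ?_⟩
  · exact one_le_mul_of_one_le_of_one_le (one_le_mul_of_one_le_of_one_le
      (one_le_mul_of_one_le_of_one_le h4 hQ1) (one_le_pow₀ hA)) hB1
  · rw [← hQ] at hi ⊢
    have e1 := numer_pow (s := s) hQ1 hi
    have hs : (0 : ℝ) ≤ s := Nat.cast_nonneg s
    have e2 : ((2 ^ (i + j₀) * s : ℕ) : ℝ) + 1 ≤ 2 ^ (i + j₀) * ((s : ℝ) + 1) := by
      push_cast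
      linarith
    have e3 : (((2 ^ (i + j₀) * s : ℕ) : ℝ) + 1) ^ (4 ^ i + 1) ≤
        (2 ^ (i + j₀)) ^ (4 ^ i + 1) * (B * (4 / 3) ^ s) := by
      refine (pow_le_pow_left₀ (by positivity) e2 _).trans ?_
      rw [mul_pow]
      exact mul_le_mul_of_nonneg_left (hB s) (by positivity)
    have e4 : (2 : ℝ) ^ s = (4 / 3) ^ s * (3 / 2) ^ s := by
      rw [← mul_pow]
      norm_num
    calc _ = 4 ^ i * Q * ((((2 ^ (i + j₀) * s : ℕ) : ℝ) + 1) ^ (4 ^ i + 1) *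
          Q ^ (2 ^ (i + j₀) * s / 4 ^ i)) := by
          rw [pow_succ, pow_succ]
          ring
      _ ≤ 4 ^ i * Q * ((2 ^ (i + j₀)) ^ (4 ^ i + 1) * (B * (4 / 3) ^ s) * (3 / 2) ^ s) :=
          mul_le_mul_of_nonneg_left (mul_le_mul e3 e1 (by positivity) (by positivity))
            (by positivity)
      _ = _ := by
          rw [e4]
          ring

end Vale.Agent.P356
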