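import Vale.Agent.P356.Loc

/-!
The projector onto the range of a positive local operator is local, being a polynomial in it.
Either use an orthonormal eigenbasis of `A` (`LinearMap.IsSymmetric.eigenvectorBasis`) and a
Lagrange polynomial `f` with `f 0 = 0`, `f = 1` at the nonzero eigenvalues, `P = aeval A f`;
or the minimal polynomial. In the eigenbasis `re ⟨v, A v⟩ = ∑ λ_i |v_i|^2 ≤ c ∑_{λ_i ≠ 0} |v_i|^2`.
`agsp_poly`: there is a real polynomial `Q` of degree at most `2^i` with `Q 0 = 0`,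
`0 ≤ Q ≤ 1` on `[0,1]` and `Q ≥ 1/θ_i` on `[1/θ, 1]`, `θ_i = 1 + (θ-1)/4^i ≤ 2`: iterate
`y ↦ 4 y (1+η-y)/(1+η)^2` with `η = 1/θ`, which sends `θ` to `θ/4 + 3/4`
(`4θ/(θ+1)^2 ≥ 4/(θ+3)` for `θ ≥ 1`). Take `P = (1-Q)^s`. In the eigenbasis of `Y`: eigenvalues
lie in `[0,1]`; an eigenvector with nonzero eigenvalue is orthogonal to `Ω`, so the eigenvalue is
at least `1/θ`; an eigenvector with eigenvalue zero is a multiple of `Ω`.
-/

namespace Vale.Agent.P356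

open Finset

variable {ι : Type} [Fintype ι] [DecidableEq ι] {q G : ℕ} {γ : ℝ}

theorem amp_scalar {θ y : ℝ} (hθ : 1 ≤ θ) (h0 : 0 ≤ y) (h1 : y ≤ 1) :
    0 ≤ 4 / (1 + 1 / θ) * y - 4 / (1 + 1 / θ) ^ 2 * (y * y) ∧
    4 / (1 + 1 / θ) * y - 4 / (1 + 1 / θ) ^ 2 * (y * y) ≤ 1 ∧
    (1 / θ ≤ y → 1 / (θ / 4 + 3 / 4) ≤ 4 / (1 + 1 / θ) * y - 4 / (1 + 1 / θ) ^ 2 * (y * y)) := by
  have hθ0 : 0 < θ := by linarith
  have hη0 : 0 < 1 / θ := by positivity
  have hη1 : 1 / θ ≤ 1 := (div_le_one hθ0).2 hθ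
  have e0 : 1 / (θ / 4 + 3 / 4) = 4 * (1 / θ) / (1 + 3 * (1 / θ)) := by
    field_simp
  rw [e0]
  generalize 1 / θ = η at *
  have e : 4 / (1 + η) * y - 4 / (1 + η) ^ 2 * (y * y) = 4 * (y * (1 + η - y)) / (1 + η) ^ 2 := by
    field_simp
  rw [e]
  have hp : 0 < (1 + η) ^ 2 := by positivity
  refine ⟨div_nonneg (by nlinarith) hp.le,
    (div_le_one hp).2 (by nlinarith [sq_nonneg (1 + η - 2 * y)]), fun h => ?_⟩
  rw [div_le_div_iff₀ (by positivity) hp]
  have h2 : η ≤ y * (1 + η - y) := by nlinarith [mul_nonneg (sub_nonneg.2 h) (sub_nonneg.2 h1)]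
  have h3 : (1 + η) ^ 2 ≤ 1 + 3 * η := by nlinarith
  calc 4 * η * (1 + η) ^ 2 ≤ 4 * η * (1 + 3 * η) := by gcongr
    _ ≤ 4 * (y * (1 + η - y)) * (1 + 3 * η) := by gcongr

theorem amp_poly {θ : ℝ} (hθ : 1 ≤ θ) (i : ℕ) : ∃ Q : Polynomial ℝ, Q.natDegree ≤ 2 ^ i ∧
    Q.eval 0 = 0 ∧ ∀ y, 0 ≤ y → y ≤ 1 → 0 ≤ Q.eval y ∧ Q.eval y ≤ 1 ∧
      (1 / θ ≤ y → 1 / (1 + (θ - 1) / 4 ^ i) ≤ Q.eval y) := by
  induction i with
  | zero =>
    refine ⟨Polynomial.X, by simp, by simp, fun y h0 h1 => ?_⟩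
    simp only [Polynomial.eval_X, pow_zero, div_one, add_sub_cancel]
    exact ⟨h0, h1, id⟩
  | succ i ih =>
    obtain ⟨Q, hd, hz, hQ⟩ := ih
    have ht : 1 ≤ 1 + (θ - 1) / 4 ^ i :=
      le_add_of_nonneg_right (div_nonneg (by linarith) (by positivity))
    have e : 1 + (θ - 1) / 4 ^ (i + 1) = (1 + (θ - 1) / 4 ^ i) / 4 + 3 / 4 := by
      rw [pow_succ, ← div_div]
      ring
    rw [e]
    generalize 1 + (θ - 1) / 4 ^ i = t at *
    refine ⟨Polynomial.C (4 / (1 + 1 / t)) * Q - Polynomial.C (4 / (1 + 1 / t) ^ 2) * (Q * Q),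
      ?_, by simp [hz], fun y h0 h1 => ?_⟩
    · refine (Polynomial.natDegree_sub_le _ _).trans (max_le ?_ ?_)
      · refine (Polynomial.natDegree_C_mul_le _ _).trans (hd.trans ?_)
        exact Nat.pow_le_pow_right (by norm_num) (by omega)
      · refine (Polynomial.natDegree_C_mul_le _ _).trans (Polynomial.natDegree_mul_le.trans ?_)
        rw [pow_succ]
        omega
    · obtain ⟨a0, a1, a2⟩ := hQ y h0 h1
      obtain ⟨b0, b1, b2⟩ := amp_scalar ht a0 a1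
      simp only [Polynomial.eval_sub, Polynomial.eval_mul, Polynomial.eval_C]
      exact ⟨b0, b1, fun h => b2 (a2 h)⟩

omit [DecidableEq ι] in
theorem aeval_eig_poly {Y : Op ι q} {v : St ι q} {c : ℝ} (h : Y v = (c : ℂ) • v) (R : Polynomial ℝ) :
    Polynomial.aeval Y (R.map (algebraMap ℝ ℂ)) v = ((R.eval c : ℝ) : ℂ) • v := by
  rw [Module.End.aeval_apply_of_mem_apply_eq_smul h]
  have : (c : ℂ) = algebraMap ℝ ℂ c := rfl
  rw [this, Polynomial.eval_map_algebraMap, Polynomial.aeval_algebraMap_apply,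
    Polynomial.coe_aeval_eq_eval]
  rfl

theorem agsp_poly {Y : Op ι q} {Ω : St ι q} {θ : ℝ} (hs : Y.IsSymmetric) (hΩ : ‖Ω‖ = 1)
    (hY : Y Ω = 0) (h0 : ∀ v, 0 ≤ (inner ℂ v (Y v)).re)
    (h1 : ∀ v, (inner ℂ v (Y v)).re ≤ ‖v‖ ^ 2)
    (hg : ∀ v, inner ℂ Ω v = 0 → ‖v‖ ^ 2 / θ ≤ (inner ℂ v (Y v)).re) (hθ : 1 ≤ θ) {i : ℕ}
    (hi : θ ≤ 4 ^ i) (s : ℕ) :
    ∃ P : Polynomial ℂ, P.natDegree ≤ 2 ^ i * s ∧
      Shr Ω (Polynomial.aeval Y P) ((1 / 2) ^ s) := by
  obtain ⟨Q, hd, hz, hQ⟩ := amp_poly hθ i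
  have hθ0 : 0 < θ := by linarith
  have h4 : (0 : ℝ) < 4 ^ i := by positivity
  have hhalf : (1 : ℝ) / 2 ≤ 1 / (1 + (θ - 1) / 4 ^ i) := by
    refine one_div_le_one_div_of_le (add_pos_of_pos_of_nonneg one_pos (div_nonneg (by linarith) h4.le)) ?_
    have : (θ - 1) / 4 ^ i ≤ 1 := (div_le_one h4).2 (by linarith)
    linarith
  let b := hs.eigenvectorBasis rfl
  let l := hs.eigenvalues rfl
  have hb : ∀ k, Y (b k) = (l k : ℂ) • b k := fun k => hs.apply_eigenvectorBasis rfl k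
  have hn : ∀ k, ‖b k‖ = 1 := fun k => b.orthonormal.1 k
  have hre : ∀ k, (inner ℂ (b k) (Y (b k))).re = l k := fun k => by
    rw [hb, inner_smul_right, inner_self_eq_norm_sq_to_K, hn]
    simp
  have hΩΩ : inner ℂ Ω Ω = 1 := by
    rw [inner_self_eq_norm_sq_to_K, hΩ]
    simp
  have hA : ∀ k, l k ≠ 0 → inner ℂ Ω (b k) = 0 := fun k hk => by
    have h2 := hs Ω (b k)
    rw [hY, inner_zero_left, hb, inner_smul_right] at h2
    exact (mul_eq_zero.1 h2.symm).resolve_left (by exact_mod_cast hk)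
  have hB : ∀ k, l k = 0 → ∀ v, inner ℂ Ω v = 0 → inner ℂ (b k) v = 0 := fun k hk v hv => by
    have h2 := hg (b k - inner ℂ Ω (b k) • Ω) (by
      rw [inner_sub_right, inner_smul_right, hΩΩ, mul_one, sub_self])
    rw [map_sub, map_smul, hY, hb, hk, smul_zero, sub_zero, Complex.ofReal_zero, zero_smul,
      inner_zero_right, Complex.zero_re, div_le_iff₀ hθ0, zero_mul] at h2
    have h3 : b k - inner ℂ Ω (b k) • Ω = 0 :=
      norm_eq_zero.1 ((pow_eq_zero_iff two_ne_zero).1 (le_antisymm h2 (sq_nonneg _)))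
    rw [sub_eq_zero.1 h3, inner_smul_left, hv, mul_zero]
  refine ⟨((1 - Q) ^ s).map (algebraMap ℝ ℂ), ?_, ?_, fun v hv => ?_⟩
  · refine Polynomial.natDegree_map_le.trans (Polynomial.natDegree_pow_le.trans ?_)
    rw [mul_comm]
    refine Nat.mul_le_mul_right _ ((Polynomial.natDegree_sub_le _ _).trans (max_le ?_ hd))
    simp
  · rw [aeval_eig_poly (c := 0) (by simp [hY])]
    simp [hz]
  · have hK : Polynomial.aeval Y (((1 - Q) ^ s).map (algebraMap ℝ ℂ)) v =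
        ∑ k, (inner ℂ (b k) v * ((((1 - Q) ^ s).eval (l k) : ℝ) : ℂ)) • b k := by
      conv_lhs => rw [← b.sum_repr' v]
      rw [map_sum]
      refine sum_congr rfl fun k _ => ?_
      rw [map_smul, aeval_eig_poly (hb k), smul_smul]
    rw [hK]
    refine ⟨?_, ?_⟩
    · rw [inner_sum]
      refine sum_eq_zero fun k _ => ?_
      rw [inner_smul_right]
      by_cases hk : l k = 0
      · rw [hB k hk v hv, zero_mul, zero_mul]
      · rw [hA k hk, mul_zero]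
    · refine (sq_le_sq₀ (norm_nonneg _) (by positivity)).1 ?_
      rw [mul_pow, ← b.sum_sq_norm_inner_right v, ← b.sum_sq_norm_inner_right, mul_sum]
      refine sum_le_sum fun k _ => ?_
      rw [b.orthonormal.inner_right_fintype, norm_mul, mul_pow, mul_comm]
      by_cases hk : l k = 0
      · rw [hB k hk v hv]
        simp
      · refine mul_le_mul_of_nonneg_right ?_ (sq_nonneg _)
        have a0 := h0 (b k)
        have a1 := h1 (b k)
        have a2 := hg (b k) (hA k hk)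
        rw [hre] at a0 a1 a2
        rw [hn, one_pow] at a1 a2
        obtain ⟨c0, c1, c2⟩ := hQ _ a0 a1
        have c3 := hhalf.trans (c2 a2)
        rw [Complex.norm_real, Polynomial.eval_pow, Polynomial.eval_sub, Polynomial.eval_one,
          Real.norm_eq_abs, abs_pow, abs_of_nonneg (by linarith)]
        exact pow_le_pow_left₀ (pow_nonneg (by linarith) _)
          (pow_le_pow_left₀ (by linarith) (by linarith) _) _

end Vale.Agent.P356
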