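import Vale.Agent.P356.PowCost
import Vale.Agent.P356.Annulus
import Vale.Agent.P356.Numer
import Vale.Agent.P356.Boost
import Vale.Agent.P356.Poly

/-!
The multi-cut approximate ground state projector.
`pow_cost`: `pow_decomp` with `V = V₀ + V₁`; for each `a, k` write
`V + ∑_{b ≠ a} z b • W b = L + R` with `L = V₀ + ∑_{b<a}`, `R = V₁ + ∑_{b>a}`; `L` is
`Loc (Y c)`, `R` is `Loc (Y c)ᶜ` for all `c ∈ I a` (so free; they commute, using one `c`);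
`trunc_count` with `x = T/(T+1)`: `x⁻¹^e ≤ (1+1/T)^(T(τ+1)) ≤ 3^(τ+1)`, `2/(1-x)^2 = 2(T+1)^2`;
`Cost.sumOf`, `MR.smul`, `MR.mono`, `MR.sum`.
`agsp`: take `θ, Λ` from `annulus`, `c` from `dl_converse`, `j₀` with `3 G θ / c + 1 ≤ 4^j₀`,
`i, C` from `agsp_numerics`, `T = 4^i`. Letters `W a = ∑_g M_{k₀+a} g`,
`V₀ = ∑_g orOp (zone 0 (8^k₀) ∩ cls g)`, `V₁ = ∑_g orOp ({t | 8^(k₀+T) ≤ col t} ∩ cls g)`,
`H = V₀ + V₁ + ∑ W a`, `Y = (G (T+2) + 1)⁻¹ • H` (symmetric, kills `Ω`, form in `[0,1]` by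
`Gad.form`); `gad_cover` for each colour over the `T+2` zones (raise `θ = 1` to `θ` by
`Gad.mono`) and `dl_converse` give the gap `c / (θ (G (T+2)+1))`, whose inverse is at most
`4^(i+j₀)` after replacing `c` by `min c 1` and choosing `j₀` with `(3G+1) θ / c ≤ 4^j₀`.
`agsp_poly` gives `P` of degree `ℓ ≤ 2^(i+j₀) s`; `aeval Y P` is a sum of `ℓ+1` multiples of
powers `H^e`, `e ≤ ℓ < T (ℓ/T+1)` (`Polynomial.aeval_eq_sum_range'`); `pow_cost` with `τ = ℓ/T`.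
-/

namespace Vale.Agent.P356

open Finset

variable {ι : Type} [Fintype ι] [DecidableEq ι] {q G : ℕ} {γ : ℝ}

theorem agsp_cover (k x : ℕ) (h : 8 ^ k ≤ x) :
    ∀ T, x < 8 ^ (k + T) → ∃ a < T, 8 ^ (k + a) ≤ x ∧ x < 8 ^ (k + a + 1) := by
  intro T
  induction T with
  | zero => intro h'; exact absurd h' (not_lt.2 h)
  | succ T ih =>
    intro h'
    by_cases hx : x < 8 ^ (k + T)
    · obtain ⟨a, ha, h1⟩ := ih hx
      exact ⟨a, by omega, h1⟩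
    · exact ⟨T, by omega, not_lt.1 hx, h'⟩

theorem agsp_ham (S : Sys ι q G γ) {κ : Type} [Fintype κ] (Z : κ → Finset ι)
    (M : κ → ℕ → Op ι q) {θ c N Θ : ℝ} (hθ : 0 < θ) (hN : 0 < N) (hΘ : 0 < Θ)
    (hM : ∀ a g, S.Gad g (Z a) θ (M a g)) (hcov : ∀ t, ∃ a, t ∈ Z a)
    (hc : ∀ v, inner ℂ S.Ω v = 0 → c * ‖v‖ ^ 2 ≤ ∑ g ∈ range G, ‖S.orOp (S.cls g) v‖ ^ 2)
    (hcard : (Fintype.card κ : ℝ) * G ≤ N) (hgap : θ * N ≤ c * Θ) {Y : Op ι q}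
    (hY : Y = ((N⁻¹ : ℝ) : ℂ) • ∑ a, ∑ g ∈ range G, M a g) :
    Y.IsSymmetric ∧ Y S.Ω = 0 ∧ (∀ v, 0 ≤ (inner ℂ v (Y v)).re) ∧
      (∀ v, (inner ℂ v (Y v)).re ≤ ‖v‖ ^ 2) ∧
      ∀ v, inner ℂ S.Ω v = 0 → ‖v‖ ^ 2 / Θ ≤ (inner ℂ v (Y v)).re := by
  have hf : ∀ v, (inner ℂ v (Y v)).re = N⁻¹ * ∑ a, ∑ g ∈ range G, (inner ℂ v (M a g v)).re := by
    intro v
    rw [hY, LinearMap.smul_apply, inner_smul_right, Complex.re_ofReal_mul]
    simp only [LinearMap.sum_apply, inner_sum, Complex.re_sum]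
  have hN' : 0 ≤ N⁻¹ := (inv_pos.2 hN).le
  refine ⟨?_, ?_, fun v => ?_, fun v => ?_, fun v hv => ?_⟩
  · intro x y
    rw [hY, LinearMap.smul_apply, LinearMap.smul_apply, inner_smul_left, inner_smul_right,
      Complex.conj_ofReal]
    simp only [LinearMap.sum_apply, inner_sum, sum_inner, fun a g => (hM a g).form.1 x y]
  · rw [hY, LinearMap.smul_apply]
    simp only [LinearMap.sum_apply, fun a g => (hM a g).form.2.1, sum_const_zero, smul_zero]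
  · rw [hf]
    exact mul_nonneg hN' (sum_nonneg fun a _ => sum_nonneg fun g _ => ((hM a g).form.2.2 v).1)
  · rw [hf, inv_mul_le_iff₀ hN]
    calc ∑ a, ∑ g ∈ range G, (inner ℂ v (M a g v)).re ≤ ∑ _a : κ, ∑ _g ∈ range G, ‖v‖ ^ 2 :=
          sum_le_sum fun a _ => sum_le_sum fun g _ => ((hM a g).form.2.2 v).2
      _ = (Fintype.card κ : ℝ) * G * ‖v‖ ^ 2 := by
          simp only [sum_const, card_range, card_univ, nsmul_eq_mul, mul_assoc]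
      _ ≤ N * ‖v‖ ^ 2 := mul_le_mul_of_nonneg_right hcard (sq_nonneg _)
  · rw [hf, sum_comm]
    have h1 : ∑ g ∈ range G, ‖S.orOp (S.cls g) v‖ ^ 2 / θ ≤
        ∑ g ∈ range G, ∑ a, (inner ℂ v (M a g v)).re :=
      sum_le_sum fun g _ => S.gad_cover g univ Z (fun a => M a g) hθ (fun a _ => hM a g)
        (fun t => (hcov t).imp fun a ha => ⟨mem_univ a, ha⟩) v
    rw [← sum_div] at h1
    have h2 := div_le_div_of_nonneg_right (hc v hv) hθ.le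
    refine le_trans ?_ (mul_le_mul_of_nonneg_left (h2.trans h1) hN')
    rw [div_le_iff₀ hΘ]
    have h3 : N⁻¹ * (c * ‖v‖ ^ 2 / θ) * Θ = c * Θ / (θ * N) * ‖v‖ ^ 2 := by field_simp
    rw [h3]
    exact le_mul_of_one_le_left (sq_nonneg _) ((one_le_div (mul_pos hθ hN)).2 hgap)

theorem agsp_mr {Y : ℕ → Finset ι} {I : Finset ℕ} {H : Op ι q} (z : ℂ) (P : Polynomial ℂ) {l : ℕ}
    (hP : P.natDegree ≤ l) {D : ℝ} (h : ∀ e ≤ l, MR Y I (H ^ e) D) :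
    MR Y I (Polynomial.aeval (z • H) P) (((l : ℝ) + 1) * D) := by
  rw [Polynomial.aeval_eq_sum_range' (Nat.lt_succ_of_le hP)]
  have h1 := MR.sum (Y := Y) (I := I) (range (l + 1)) (M := fun e => P.coeff e • (z • H) ^ e)
    (D := D) fun e he => by
      rw [_root_.smul_pow]
      exact ((h e (Nat.lt_succ_iff.1 (mem_range.1 he))).smul _).smul _
  rw [card_range] at h1
  exact_mod_cast h1

theorem agsp_pow {S : Sys ι q G γ} {A : ℕ} (cu : Cuts S A) (k₀ : ℕ) {T : ℕ} (hT : 1 ≤ T)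
    (M : ℕ → ℕ → Op ι q) {Λ : ℝ} (hΛ : 1 ≤ Λ)
    (hZ : ∀ k g, Zn cu.Y (8 ^ k) (8 ^ (k + 1)) (M k g))
    (hC : ∀ k, Cost cu.Y (Ico (8 ^ k) (2 * 8 ^ k)) {∑ g ∈ range G, M k g} fun j => Λ ^ j)
    (l e : ℕ) (he : e ≤ l) :
    MR cu.Y (Ico (8 ^ k₀) (8 ^ (k₀ + T)))
      ((∑ g ∈ range G, S.orOp (cu.zone 0 (8 ^ k₀) ∩ S.cls g) +
        ∑ g ∈ range G, S.orOp ((univ.filter fun t => 8 ^ (k₀ + T) ≤ cu.col t) ∩ S.cls g) +
        ∑ a : Fin T, ∑ g ∈ range G, M (k₀ + a) g) ^ e)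
      ((T : ℝ) * ((l : ℝ) + 1) ^ T * (6 * ((T : ℝ) + 1) ^ 2 * Λ) ^ (l / T + 1)) := by
  have hp : ∀ {m n : ℕ}, m ≤ n → 8 ^ m ≤ 8 ^ n := fun h => Nat.pow_le_pow_right (by norm_num) h
  have h2 : ∀ {m n : ℕ}, m < n → 2 * 8 ^ m ≤ 8 ^ n := fun {m n} h => by
    have h1 := hp (Nat.succ_le_of_lt h)
    rw [Nat.pow_succ] at h1
    omega
  have hI : ∀ a : Fin T, Ico (8 ^ (k₀ + a)) (2 * 8 ^ (k₀ + a)) ⊆ Ico (8 ^ k₀) (8 ^ (k₀ + T)) :=
    fun a => Ico_subset_Ico (hp (Nat.le_add_right _ _)) (h2 (by have := a.2; omega))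
  refine (pow_cost hT (fun a : Fin T => Ico (8 ^ (k₀ + a)) (2 * 8 ^ (k₀ + a))) _ hI
    (fun a => ?_) _ _ (fun a : Fin T => ∑ g ∈ range G, M (k₀ + a) g) (fun a c hc => ?_)
    (fun a c hc => ?_) (fun a b hab c hc => ?_) (fun a b hab c hc => ?_) hΛ (fun a => hC _) e
    (l / T) ?_).mono (Subset.refl _) ?_ (by positivity)
  · rw [nonempty_Ico]
    have : 0 < 8 ^ (k₀ + a) := by positivity
    omega
  · refine Loc.sum _ fun g _ => S.orOp_loc _ fun t ht => cu.left t c ?_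
    have h1 := (mem_filter.1 (mem_inter.1 ht).1).2.2
    have h3 := (mem_Ico.1 (hI a hc)).1
    omega
  · refine Loc.sum _ fun g _ => S.orOp_loc _ fun t ht => cu.right t c ?_
    have h1 := (mem_filter.1 (mem_inter.1 ht).1).2
    have h3 := (mem_Ico.1 (hI a hc)).2
    omega
  · refine Loc.sum _ fun g _ => (hZ _ g).1 c (le_trans (hp ?_) (mem_Ico.1 hc).1)
    have : (b : ℕ) < a := hab
    omega
  · refine Loc.sum _ fun g _ => (hZ _ g).2 c (lt_of_lt_of_le (mem_Ico.1 hc).2 (h2 ?_))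
    have : (a : ℕ) < b := hab
    omega
  · exact lt_of_le_of_lt he (Nat.lt_mul_div_succ l hT)
  · have : (e : ℝ) ≤ l := by exact_mod_cast he
    gcongr

theorem agsp (q G A : ℕ) {γ : ℝ} (hγ : 0 < γ) : ∃ (T : ℕ) (C : ℝ), 1 ≤ T ∧ 1 ≤ C ∧
    ∀ (ι : Type) [Fintype ι] [DecidableEq ι] (S : Sys ι q G γ) (cu : Cuts S A) (k₀ s : ℕ),
      ∃ K : Op ι q, Shr S.Ω K ((1 / 2) ^ s) ∧
        MR cu.Y (Ico (8 ^ k₀) (8 ^ (k₀ + T))) K (C * 2 ^ s) := by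
  obtain ⟨θ, Λ, hθ, hΛ, hann⟩ := annulus q G A
  obtain ⟨c, hc, hdl⟩ := dl_converse G hγ
  obtain ⟨j₀, hj₀⟩ := pow_unbounded_of_one_lt ((3 * G + 1) * θ / c) (by norm_num : (1 : ℝ) < 4)
  obtain ⟨i, C, hC, hnum⟩ := agsp_numerics hΛ j₀
  have hT : 1 ≤ 4 ^ i := Nat.one_le_pow _ _ (by norm_num)
  refine ⟨4 ^ i, C, hT, hC, fun ι _ _ S cu k₀ s => ?_⟩
  choose M hG hZ hCo using hann ι γ S cu
  obtain ⟨Z, hZ0, hZ1, hZ2⟩ : ∃ Z : Option (Option (Fin (4 ^ i))) → Finset ι,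
      Z none = cu.zone 0 (8 ^ k₀) ∧
      Z (some none) = (univ.filter fun t => 8 ^ (k₀ + 4 ^ i) ≤ cu.col t) ∧
      ∀ a, Z (some (some a)) = cu.zone (8 ^ (k₀ + a)) (8 ^ (k₀ + a + 1)) :=
    ⟨fun o => o.elim _ fun o' => o'.elim _ fun a =>
      cu.zone (8 ^ (k₀ + a)) (8 ^ (k₀ + a + 1)), rfl, rfl, fun _ => rfl⟩
  obtain ⟨W, hW0, hW1, hW2⟩ : ∃ W : Option (Option (Fin (4 ^ i))) → ℕ → Op ι q,
      (∀ g, W none g = S.orOp (Z none ∩ S.cls g)) ∧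
      (∀ g, W (some none) g = S.orOp (Z (some none) ∩ S.cls g)) ∧
      ∀ a g, W (some (some a)) g = M (k₀ + a) g :=
    ⟨fun o g => o.elim (S.orOp (Z none ∩ S.cls g)) fun o' =>
      o'.elim (S.orOp (Z (some none) ∩ S.cls g)) fun a => M (k₀ + a) g,
      fun _ => rfl, fun _ => rfl, fun _ _ => rfl⟩
  have hθ0 : 0 < θ := one_pos.trans_le hθ
  have hG0 : (0 : ℝ) ≤ G := Nat.cast_nonneg G
  have hT' : (1 : ℝ) ≤ 4 ^ i := one_le_pow₀ (by norm_num)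
  obtain ⟨y1, y2, y3, y4, y5⟩ := agsp_ham S Z W (c := c) (N := (3 * G + 1) * 4 ^ i)
    (Θ := 4 ^ (i + j₀)) hθ0 (by positivity) (by positivity)
    (fun o g => by
      rcases o with _ | _ | a
      · rw [hW0]
        exact (S.gad_or g _).mono one_pos hθ
      · rw [hW1]
        exact (S.gad_or g _).mono one_pos hθ
      · rw [hW2, hZ2]
        exact hG _ g)
    (fun t => by
      by_cases h1 : cu.col t < 8 ^ k₀
      · exact ⟨none, by rw [hZ0]; exact mem_filter.2 ⟨mem_univ t, Nat.zero_le _, h1⟩⟩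
      by_cases h2 : cu.col t < 8 ^ (k₀ + 4 ^ i)
      · obtain ⟨a, ha, h3⟩ := agsp_cover k₀ _ (not_lt.1 h1) _ h2
        exact ⟨some (some ⟨a, ha⟩), by rw [hZ2]; exact mem_filter.2 ⟨mem_univ t, h3⟩⟩
      · exact ⟨some none, by rw [hZ1]; exact mem_filter.2 ⟨mem_univ t, not_lt.1 h2⟩⟩)
    (hdl ι q S)
    (by
      rw [Fintype.card_option, Fintype.card_option, Fintype.card_fin]
      push_cast
      nlinarith [mul_nonneg hG0 (sub_nonneg.2 hT')])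
    (by
      rw [div_lt_iff₀ hc] at hj₀
      rw [pow_add]
      nlinarith [mul_le_mul_of_nonneg_right hj₀.le (zero_le_one.trans hT')])
    rfl
  obtain ⟨P, hP, hS⟩ := agsp_poly y1 S.unit y2 y3 y4 y5 (one_le_pow₀ (by norm_num)) le_rfl s
  refine ⟨_, hS, ?_⟩
  refine (agsp_mr _ P hP fun e he => ?_).mono (Subset.refl _) (hnum s) (by positivity)
  have h := agsp_pow cu k₀ hT M hΛ hZ hCo _ e he
  simp only [Fintype.sum_option, hW0, hW1, hW2, hZ0, hZ1, ← add_assoc]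
  exact_mod_cast h

end Vale.Agent.P356
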