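import Vale.Agent.P356.Defs

/-!
Working definitions for the P356 proof (no statements to prove here).

States are vectors indexed by configurations `ι → Fin q`; operators are endomorphisms.
-/

namespace Vale.Agent.P356

open Finset

abbrev St (ι : Type) [Fintype ι] (q : ℕ) : Type := EuclideanSpace ℂ (ι → Fin q)

abbrev Op (ι : Type) [Fintype ι] (q : ℕ) : Type := Module.End ℂ (St ι q)

/-- `x` is a sum of at most `N` elements satisfying `P`. -/
def SumOf {α : Type} [AddMonoid α] (P : α → Prop) (N : ℝ) (x : α) : Prop :=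
  ∃ l : List α, (∀ y ∈ l, P y) ∧ (l.length : ℝ) ≤ N ∧ l.sum = x

/-- Truncated noncommutative power: the sum of the words of length `e` in `U, W` with at most
`τ` letters `W`. -/
def TR {𝒜 : Type} [Ring 𝒜] (U W : 𝒜) : ℕ → ℕ → 𝒜
  | 0, _ => 1
  | e + 1, 0 => U * TR U W e 0
  | e + 1, τ + 1 => U * TR U W e (τ + 1) + W * TR U W e τ

/-- Words with at most `j` letters from `𝒢`, separated by free factors. -/
inductive Wd {𝒜 : Type} [Mul 𝒜] (F : 𝒜 → Prop) (𝒢 : Set 𝒜) : ℕ → 𝒜 → Prop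
  | free {j : ℕ} {A : 𝒜} : F A → Wd F 𝒢 j A
  | letter {A : 𝒜} : A ∈ 𝒢 → Wd F 𝒢 1 A
  | mul {i j : ℕ} {A B : 𝒜} : Wd F 𝒢 i A → Wd F 𝒢 j B → Wd F 𝒢 (i + j) (A * B)

variable {ι : Type} [Fintype ι] [DecidableEq ι] {q : ℕ}

/-- `a` depends only on the coordinates in `Y`. -/
def Dep (Y : Finset ι) (a : (ι → Fin q) → ℂ) : Prop :=
  ∀ σ σ' : ι → Fin q, (∀ x ∈ Y, σ x = σ' x) → a σ = a σ'

/-- Product vector across the cut `Y`. -/
def Prd (Y : Finset ι) (ψ : St ι q) : Prop :=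
  ∃ a b : (ι → Fin q) → ℂ, Dep Y a ∧ Dep Yᶜ b ∧ ∀ σ, ψ σ = a σ * b σ

/-- Schmidt rank at most `N` across `Y`. -/
def SR (Y : Finset ι) (ψ : St ι q) (N : ℝ) : Prop := SumOf (Prd Y) N ψ

/-- `M` multiplies the Schmidt rank across `Y` by at most `N`. -/
def RK (Y : Finset ι) (M : Op ι q) (N : ℝ) : Prop := ∀ ψ, Prd Y ψ → SR Y (M ψ) N

/-- Operator with kernel `m` acting on the coordinates in `X`. -/
noncomputable def kop (X : Finset ι) (m : (ι → Fin q) → (ι → Fin q) → ℂ) : Op ι q where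
  toFun ψ := WithLp.toLp 2 fun σ => ∑ τ, m σ τ * ψ (X.piecewise τ σ)
  map_add' ψ φ := by
    ext σ
    simp [mul_add, Finset.sum_add_distrib]
  map_smul' c ψ := by
    ext σ
    simp [Finset.mul_sum, mul_left_comm]

theorem kop_apply (X : Finset ι) (m : (ι → Fin q) → (ι → Fin q) → ℂ) (ψ : St ι q)
    (σ : ι → Fin q) : kop X m ψ σ = ∑ τ, m σ τ * ψ (X.piecewise τ σ) := rfl

/-- `M` acts on the sites in `X` only. -/
def Loc (X : Finset ι) (M : Op ι q) : Prop :=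
  ∃ m : (ι → Fin q) → (ι → Fin q) → ℂ, (∀ τ, Dep X fun σ => m σ τ) ∧ M = kop X m

/-- The projector `|e⟩⟨e| ⊗ 1` (rank one on `Y`) when `e` is a unit vector depending on `Y`. -/
noncomputable def rone (Y : Finset ι) (e : St ι q) : Op ι q :=
  kop Y fun σ τ => e σ * star (e τ)

/-- Orthonormal family of vectors depending only on `Y`. -/
def Cap (Y : Finset ι) {n : ℕ} (e : Fin n → St ι q) : Prop :=
  Orthonormal ℂ e ∧ ∀ k, Dep Y (e k)

/-- The projector of rank `n` on `Y` given by the family `e`. -/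
noncomputable def proj (Y : Finset ι) {n : ℕ} (e : Fin n → St ι q) : Op ι q :=
  ∑ k, rone Y (e k)

/-- `Ω` is `η`-close to a vector of Schmidt rank at most `d` across `Y`. -/
def Apx (Ω : St ι q) (Y : Finset ι) (d η : ℝ) : Prop := ∃ χ, SR Y χ d ∧ ‖Ω - χ‖ ≤ η

/-- `K` fixes `Ω`, preserves its orthogonal complement and shrinks it by `δ`. -/
def Shr (Ω : St ι q) (K : Op ι q) (δ : ℝ) : Prop :=
  K Ω = Ω ∧ ∀ v, inner ℂ Ω v = 0 → inner ℂ Ω (K v) = 0 ∧ ‖K v‖ ≤ δ * ‖v‖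

/-- Rank one across every cut of `I`. -/
def Free (Y : ℕ → Finset ι) (I : Finset ℕ) (A : Op ι q) : Prop := ∀ c ∈ I, RK (Y c) A 1

/-- Multi-cut rank: `M` is a sum of pieces, the piece `c` having rank `D` across the cut `c`. -/
def MR (Y : ℕ → Finset ι) (I : Finset ℕ) (M : Op ι q) (D : ℝ) : Prop :=
  ∃ Ms : ℕ → Op ι q, M = ∑ c ∈ I, Ms c ∧ ∀ c ∈ I, RK (Y c) (Ms c) D

/-- Words with `j` letters from `𝒢` have multi-cut rank `F j`. -/
def Cost (Y : ℕ → Finset ι) (I : Finset ℕ) (𝒢 : Set (Op ι q)) (F : ℕ → ℝ) : Prop :=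
  ∀ j M, Wd (Free Y I) 𝒢 j M → MR Y I M (F j)

/-- A frustration-free gapped system of local projectors, one for each site. -/
structure Sys (ι : Type) [Fintype ι] [DecidableEq ι] (q G : ℕ) (γ : ℝ) where
  p : ι → Op ι q
  X : ι → Finset ι
  clr : ι → ℕ
  Ω : St ι q
  qpos : 1 ≤ q
  symm : ∀ t, (p t).IsSymmetric
  idem : ∀ t, p t * p t = p t
  loc : ∀ t, Loc (X t) (p t)
  card : ∀ t, (X t).card ≤ G
  nbr : ∀ t, (univ.filter fun t' => ¬ Disjoint (X t) (X t')).card ≤ G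
  clr_lt : ∀ t, clr t < G
  disj : ∀ t t', t ≠ t' → clr t = clr t' → Disjoint (X t) (X t')
  unit : ‖Ω‖ = 1
  kill : ∀ t, p t Ω = 0
  gap : ∀ v, inner ℂ Ω v = 0 → γ * ‖v‖ ^ 2 ≤ ∑ t, ‖p t v‖ ^ 2

variable {G : ℕ} {γ : ℝ}

/-- Number of terms crossing the cut `Y`. -/
def Sys.cross (S : Sys ι q G γ) (Y : Finset ι) : ℕ :=
  (univ.filter fun t => ¬ S.X t ⊆ Y ∧ ¬ Disjoint (S.X t) Y).card

/-- Detectability-lemma product. -/
noncomputable def Sys.dl (S : Sys ι q G γ) (l : List ι) : Op ι q :=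
  (l.map fun t => 1 - S.p t).prod

/-- Indicator of a violated term in `C` (for commuting terms). -/
noncomputable def Sys.orOp (S : Sys ι q G γ) (C : Finset ι) : Op ι q := 1 - S.dl C.toList

/-- Colour class. -/
def Sys.cls (S : Sys ι q G γ) (g : ℕ) : Finset ι := univ.filter fun t => S.clr t = g

/-- `v` is a joint eigenvector of the terms of colour `g`, violating exactly those in `x`. -/
def Sys.Pat (S : Sys ι q G γ) (g : ℕ) (x : Finset ι) (v : St ι q) : Prop :=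
  ∀ t, S.clr t = g → S.p t v = if t ∈ x then v else 0

/-- `M` is the function `f` of the commuting terms of colour `g`. -/
def Sys.Sym (S : Sys ι q G γ) (g : ℕ) (f : Finset ι → ℝ) (M : Op ι q) : Prop :=
  ∀ x v, S.Pat g x v → M v = (f x : ℂ) • v

/-- Gadget: a function of the terms of colour `g` with values in `[0,1]`, zero when no term of
`Z` is violated, at least `1/θ` when one is. -/
def Sys.Gad (S : Sys ι q G γ) (g : ℕ) (Z : Finset ι) (θ : ℝ) (M : Op ι q) : Prop :=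
  ∃ f, S.Sym g f M ∧ ∀ x, 0 ≤ f x ∧ f x ≤ 1 ∧
    ((¬ ∃ t ∈ x, t ∈ Z ∧ S.clr t = g) → f x = 0) ∧
    ((∃ t ∈ x, t ∈ Z ∧ S.clr t = g) → 1 / θ ≤ f x)

/-- A nested family of cuts; only the terms of column `c` cross the cut `c`. -/
structure Cuts (S : Sys ι q G γ) (A : ℕ) where
  Y : ℕ → Finset ι
  col : ι → ℕ
  mono : Monotone Y
  left : ∀ t c, col t < c → S.X t ⊆ Y c
  right : ∀ t c, c < col t → S.X t ⊆ (Y c)ᶜ
  size : ∀ c, (univ.filter fun t => col t = c).card ≤ A * (c + 1)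

/-- Terms in the columns `a ≤ c < b`. -/
def Cuts.zone {S : Sys ι q G γ} {A : ℕ} (cu : Cuts S A) (a b : ℕ) : Finset ι :=
  univ.filter fun t => a ≤ cu.col t ∧ cu.col t < b

/-- `M` lies inside all cuts `c ≥ b` and outside all cuts `c < a`. -/
def Zn (Y : ℕ → Finset ι) (a b : ℕ) (M : Op ι q) : Prop :=
  (∀ c, b ≤ c → Loc (Y c) M) ∧ ∀ c, c < a → Loc (Y c)ᶜ M

/-- Sup-norm ball. -/
def ball {L : ℕ} (R : ℕ) (x : Site L) : Finset (Site L) :=
  univ.filter fun y => Nat.dist x.1 y.1 ≤ R ∧ Nat.dist x.2 y.2 ≤ R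

/-- The part of a nominal rectangle `[x0,x1) × [y0,y1)` inside the lattice. -/
def box (L x0 x1 y0 y1 : ℕ) : Finset (Site L) :=
  univ.filter fun s => x0 ≤ s.1.val ∧ s.1.val < x1 ∧ y0 ≤ s.2.val ∧ s.2.val < y1

/-- All rectangles with sides at most `b` have an `η`-approximation of rank `d`. -/
def Small {L : ℕ} (Ω : St (Site L) q) (b : ℕ) (d η : ℝ) : Prop :=
  ∀ x0 x1 y0 y1, x1 ≤ x0 + b → y1 ≤ y0 + b → Apx Ω (box L x0 x1 y0 y1) d η

end Vale.Agent.P356
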