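import Vale.Agent.P356.Cap1

/-!
Finite-rank local projectors. `rone Y e ψ σ = e σ * ∑ τ, star (e τ) * ψ (Y.piecewise τ σ)`.
Symmetry: use the involution `(σ, τ) ↦ (pw τ σ, pw σ τ)` of pairs of configurations and
`Dep Y e`. Orthogonality: `rone e (rone e' ψ) = inner e e' • (...)`, because the second factor
depends on `Yᶜ` only. `exists_supp`: write `χ = ∑ a_k * b_k`, take an orthonormal basis of the
span of the `a_k` (viewed in `St`), e.g. `stdOrthonormalBasis` of the span; its size is the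
finrank, at most the length of the list; vectors of the span satisfy `Dep Y`;
`proj (a * b) = (∑ inner e_j a • e_j) * b = a * b`.
`Apx.cap`: `Ω - PΩ = (1-P)(Ω-χ)`. `Apx.union`: take `χ = P (P' Ω)`.
-/

namespace Vale.Agent.P356

open Finset

variable {ι : Type} [Fintype ι] [DecidableEq ι] {q G : ℕ} {γ : ℝ}

theorem cap_dep_span {Y : Finset ι} {S : Set (St ι q)} (hS : ∀ a ∈ S, Dep Y a) {v : St ι q}
    (hv : v ∈ Submodule.span ℂ S) : Dep Y v := by
  induction hv using Submodule.span_induction with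
  | mem a ha => exact hS a ha
  | zero => exact fun _ _ _ => rfl
  | add a b _ _ ha hb =>
    intro σ σ' h
    show a σ + b σ = a σ' + b σ'
    rw [ha σ σ' h, hb σ σ' h]
  | smul c a _ ha =>
    intro σ σ' h
    show c * a σ = c * a σ'
    rw [ha σ σ' h]

theorem cap_proj_apply (Y : Finset ι) {n : ℕ} (e : Fin n → St ι q) (ψ : St ι q)
    (σ : ι → Fin q) :
    proj Y e ψ σ = ∑ k, ∑ τ, e k σ * star (e k τ) * ψ (Y.piecewise τ σ) := by
  unfold proj
  rw [LinearMap.sum_apply, WithLp.ofLp_sum, Finset.sum_apply]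
  rfl

theorem cap_proj_fix {Y : Finset ι} {n : ℕ} {e : Fin n → St ι q} {a ψ : St ι q}
    {b : (ι → Fin q) → ℂ} (ha : Dep Y a) (hb : Dep Yᶜ b) (hψ : ∀ σ, ψ σ = a σ * b σ)
    (he : ∑ k, inner ℂ (e k) a • e k = a) : proj Y e ψ = ψ := by
  ext σ
  have h1 : ∀ τ, ψ (Y.piecewise τ σ) = a τ * b σ := fun τ => by
    rw [hψ, ha (Y.piecewise τ σ) τ fun x hx => Finset.piecewise_eq_of_mem _ _ _ hx,
      hb (Y.piecewise τ σ) σ fun x hx =>
        Finset.piecewise_eq_of_notMem _ _ _ (Finset.mem_compl.1 hx)]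
  have h2 : a σ = ∑ k, inner ℂ (e k) a * e k σ := by
    conv_lhs => rw [← he]
    rw [WithLp.ofLp_sum, Finset.sum_apply]
    rfl
  rw [cap_proj_apply, hψ, h2, Finset.sum_mul]
  refine Finset.sum_congr rfl fun k _ => ?_
  rw [PiLp.inner_apply, Finset.sum_mul, Finset.sum_mul]
  refine Finset.sum_congr rfl fun τ _ => ?_
  rw [h1, RCLike.inner_apply, starRingEnd_apply]
  ring

theorem exists_supp {Y : Finset ι} {χ : St ι q} {d : ℝ} (h : SR Y χ d) :
    ∃ (n : ℕ) (e : Fin n → St ι q), (n : ℝ) ≤ d ∧ Cap Y e ∧ proj Y e χ = χ := by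
  obtain ⟨l, hl, hd, rfl⟩ := h
  choose a b ha hb hab using fun i : Fin l.length => hl (l.get i) (l.get_mem i)
  let A : Fin l.length → St ι q := fun i => WithLp.toLp 2 (a i)
  let V : Submodule ℂ (St ι q) := Submodule.span ℂ (Set.range A)
  let B := stdOrthonormalBasis ℂ V
  have hV : Module.finrank ℂ V ≤ l.length := by
    have := finrank_range_le_card (R := ℂ) A
    rwa [Fintype.card_fin] at this
  have hdep : ∀ v ∈ V, Dep Y v := fun v hv =>
    cap_dep_span (by rintro _ ⟨i, rfl⟩; exact ha i) hv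
  refine ⟨Module.finrank ℂ V, fun k => (B k : St ι q), le_trans (by exact_mod_cast hV) hd,
    ⟨B.orthonormal.comp_linearIsometry V.subtypeₗᵢ, fun k => hdep _ (B k).2⟩, ?_⟩
  have hfix : ∀ y ∈ l, proj Y (fun k => (B k : St ι q)) y = y := by
    intro y hy
    obtain ⟨i, rfl⟩ := List.get_of_mem hy
    have hA : A i ∈ V := Submodule.subset_span ⟨i, rfl⟩
    refine cap_proj_fix (a := A i) (ha i) (hb i) (hab i) ?_
    have h1 := congrArg V.subtype (B.sum_repr' ⟨A i, hA⟩)
    rw [map_sum] at h1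
    exact h1
  rw [map_list_sum, List.map_congr_left hfix, List.map_id']

theorem Apx.cap {Ω : St ι q} {Y : Finset ι} {d η : ℝ} (h : Apx Ω Y d η) :
    ∃ (n : ℕ) (e : Fin n → St ι q), (n : ℝ) ≤ d ∧ Cap Y e ∧ ‖Ω - proj Y e Ω‖ ≤ η := by
  obtain ⟨χ, hχ, hη⟩ := h
  obtain ⟨n, e, hn, he, hfix⟩ := exists_supp hχ
  refine ⟨n, e, hn, he, ?_⟩
  have h1 : Ω - proj Y e Ω = Ω - χ - proj Y e (Ω - χ) := by
    rw [map_sub, hfix]
    abel
  rw [h1]
  exact (he.norm_le _).2.trans hη

theorem Apx.union {Ω : St ι q} {Y Y' : Finset ι} {d d' η η' : ℝ} (h : Apx Ω Y d η)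
    (h' : Apx Ω Y' d' η') (hd : Disjoint Y Y') : Apx Ω (Y ∪ Y') (d * d') (η + η') := by
  obtain ⟨n, e, hn, he, h1⟩ := h.cap
  obtain ⟨n', e', hn', he', h1'⟩ := h'.cap
  refine ⟨proj Y e (proj Y' e' Ω), ?_, ?_⟩
  · have h2 : proj Y e (proj Y' e' Ω) = ∑ k, proj Y e (rone Y' (e' k) Ω) := by
      rw [← map_sum, ← LinearMap.sum_apply]
      rfl
    rw [h2]
    refine SR.mono (SumOf.sum univ fun k _ => he.sr_rone hd (he'.2 k) Ω) ?_
    rw [Finset.sum_const, Finset.card_univ, Fintype.card_fin, nsmul_eq_mul, mul_comm]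
    exact mul_le_mul hn hn' (Nat.cast_nonneg _) ((Nat.cast_nonneg _).trans hn)
  · have h2 : Ω - proj Y e (proj Y' e' Ω) = Ω - proj Y e Ω + proj Y e (Ω - proj Y' e' Ω) := by
      rw [map_sub]
      abel
    rw [h2]
    exact (norm_add_le _ _).trans (add_le_add h1 ((he.norm_le _).1.trans h1'))

theorem Apx.biUnion {κ : Type} [DecidableEq κ] {Ω : St ι q} (s : Finset κ) (Z : κ → Finset ι)
    {d η : ℝ} (h : ∀ i ∈ s, Apx Ω (Z i) d η)
    (hd : ∀ i ∈ s, ∀ j ∈ s, i ≠ j → Disjoint (Z i) (Z j)) :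
    Apx Ω (s.biUnion Z) (d ^ s.card) (s.card * η) := by
  induction s using Finset.induction_on with
  | empty =>
    have := Apx.trivial Ω (∅ : Finset ι)
    simpa using this
  | insert i s hi ih =>
    have h1 := ih (fun j hj => h j (Finset.mem_insert_of_mem hj))
      fun j hj k hk => hd j (Finset.mem_insert_of_mem hj) k (Finset.mem_insert_of_mem hk)
    have h2 : Disjoint (Z i) (s.biUnion Z) :=
      (Finset.disjoint_biUnion_right _ _ _).2 fun j hj =>
        hd i (Finset.mem_insert_self _ _) j (Finset.mem_insert_of_mem hj) fun e => hi (e ▸ hj)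
    have h3 := (h i (Finset.mem_insert_self _ _)).union h1 h2
    rw [Finset.biUnion_insert, Finset.card_insert_of_notMem hi]
    refine h3.mono (le_of_eq (pow_succ' _ _).symm) (le_of_eq ?_)
    push_cast
    ring

end Vale.Agent.P356
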