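import Vale.Agent.P356.Loc

/-!
Finite-rank local projectors. `rone Y e ψ σ = e σ * ∑ τ, star (e τ) * ψ (Y.piecewise τ σ)`.
Symmetry: use the involution `(σ, τ) ↦ (pw τ σ, pw σ τ)` of pairs of configurations and
`Dep Y e`. Orthogonality: `rone e (rone e' ψ) = inner e e' • (...)`, because the second factor
depends on `Yᶜ` only. `exists_supp`: write `χ = ∑ a_k * b_k`, take an orthonormal basis of the
span of the `a_k` (viewed in `St`), e.g. `stdOrthonormalBasis` of the span; its size is the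
finrank, at most the length of the list; vectors of the span satisfy `Dep Y`;
`proj (a * b) = (∑ inner e_j a • e_j) * b = a * b`.
`Apx.cap`: `Ω - PΩ = (1-P)(Ω-χ)`. `Apx.union`: take `χ = P (P' Ω)`.
-/

namespace Vale.Agent.P356

open Finset

variable {ι : Type} [Fintype ι] [DecidableEq ι] {q G : ℕ} {γ : ℝ}

/-- Contraction with `e` on `Y`. -/
noncomputable def ct_Cap1 (Y : Finset ι) (e ψ : St ι q) (σ : ι → Fin q) : ℂ :=
  ∑ τ, star (e τ) * ψ (Y.piecewise τ σ)

theorem rone_Cap1 (Y : Finset ι) (e ψ : St ι q) (σ : ι → Fin q) :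
    rone Y e ψ σ = e σ * ct_Cap1 Y e ψ σ := by
  rw [rone, kop_apply, ct_Cap1, mul_sum]
  simp only [mul_assoc]

theorem dep_Cap1 (Y : Finset ι) (e ψ : St ι q) : Dep Yᶜ (ct_Cap1 Y e ψ) := fun σ σ' h =>
  sum_congr rfl fun τ _ => by
    rw [piecewise_congr Y (fun _ _ => rfl) fun x hx => h x (mem_compl.2 hx)]

theorem pw_Cap1 {Y : Finset ι} {a : (ι → Fin q) → ℂ} (h : Dep Y a) (τ σ : ι → Fin q) :
    a (Y.piecewise τ σ) = a τ := h _ _ fun _ hx => piecewise_eq_of_mem _ _ _ hx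

theorem pwc_Cap1 {Y D : Finset ι} (hd : Disjoint Y D) {a : (ι → Fin q) → ℂ} (h : Dep D a)
    (τ σ : ι → Fin q) : a (Y.piecewise τ σ) = a σ :=
  h _ _ fun _ hx => piecewise_eq_of_notMem _ _ _ (disjoint_right.1 hd hx)

theorem rone_loc {Y : Finset ι} {e : St ι q} (he : Dep Y e) : Loc Y (rone Y e) :=
  ⟨_, fun τ σ σ' h => congrArg (· * star (e τ)) (he σ σ' h), rfl⟩

theorem rone_symm {Y : Finset ι} {e : St ι q} (he : Dep Y e) : (rone Y e).IsSymmetric := by
  intro ψ φ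
  have inv : Function.Involutive fun p : (ι → Fin q) × (ι → Fin q) =>
      (Y.piecewise p.2 p.1, Y.piecewise p.1 p.2) := fun p => by
    refine Prod.ext (funext fun x => ?_) (funext fun x => ?_) <;>
      by_cases hx : x ∈ Y <;> simp [hx]
  simp only [PiLp.inner_apply, RCLike.inner_apply, rone_Cap1, ct_Cap1, map_mul, map_sum, mul_sum,
    sum_mul]
  rw [← Fintype.sum_prod_type', ← Fintype.sum_prod_type', ← Equiv.sum_comp inv.toPerm]
  refine sum_congr rfl fun p _ => ?_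
  have h1 := congrArg Prod.fst (inv p)
  simp only at h1
  simp only [Function.Involutive.coe_toPerm, pw_Cap1 he, h1, RCLike.star_def, RCLike.conj_conj]
  ring

theorem Cap.rone_mul {Y : Finset ι} {n : ℕ} {e : Fin n → St ι q} (h : Cap Y e) (j k : Fin n) :
    rone Y (e j) * rone Y (e k) = if j = k then rone Y (e j) else 0 := by
  ext ψ σ
  have h1 : ct_Cap1 Y (e j) (rone Y (e k) ψ) σ = inner ℂ (e j) (e k) * ct_Cap1 Y (e k) ψ σ := by
    rw [ct_Cap1, PiLp.inner_apply, sum_mul]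
    refine sum_congr rfl fun τ _ => ?_
    rw [rone_Cap1, pw_Cap1 (h.2 k), pwc_Cap1 disjoint_compl_right (dep_Cap1 Y _ _),
      RCLike.inner_apply, RCLike.star_def]
    ring
  rw [Module.End.mul_apply, rone_Cap1, h1, orthonormal_iff_ite.1 h.1]
  split_ifs with hjk
  · rw [one_mul, rone_Cap1, hjk]
  · simp

theorem Cap.proj_loc {Y : Finset ι} {n : ℕ} {e : Fin n → St ι q} (h : Cap Y e) :
    Loc Y (proj Y e) := Loc.sum _ fun k _ => rone_loc (h.2 k)

theorem Cap.proj_symm {Y : Finset ι} {n : ℕ} {e : Fin n → St ι q} (h : Cap Y e) :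
    (proj Y e).IsSymmetric := fun ψ φ => by
  simp only [proj, LinearMap.sum_apply, sum_inner, inner_sum]
  exact sum_congr rfl fun k _ => rone_symm (h.2 k) ψ φ

theorem Cap.proj_idem {Y : Finset ι} {n : ℕ} {e : Fin n → St ι q} (h : Cap Y e) :
    proj Y e * proj Y e = proj Y e := by
  simp only [proj, sum_mul_sum, h.rone_mul, sum_ite_eq, mem_univ, if_true]

/-- A symmetric idempotent splits norms. -/
theorem norm_sq_split {P : Op ι q} (hs : P.IsSymmetric) (hi : P * P = P) (v : St ι q) :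
    ‖P v‖ ^ 2 + ‖v - P v‖ ^ 2 = ‖v‖ ^ 2 ∧ inner ℂ v (P v) = ((‖P v‖ ^ 2 : ℝ) : ℂ) := by
  have h1 : P (P v) = P v := by rw [← Module.End.mul_apply, hi]
  constructor
  · have := norm_add_sq_eq_norm_sq_add_norm_sq_of_inner_eq_zero (𝕜 := ℂ) (P v) (v - P v) (by
      rw [hs, map_sub, h1, sub_self, inner_zero_right])
    rw [add_sub_cancel] at this
    rw [sq, sq, sq, this]
  · rw [← h1, ← hs, h1, inner_self_eq_norm_sq_to_K]
    simp

theorem Cap.norm_le {Y : Finset ι} {n : ℕ} {e : Fin n → St ι q} (h : Cap Y e) (v : St ι q) :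
    ‖proj Y e v‖ ≤ ‖v‖ ∧ ‖v - proj Y e v‖ ≤ ‖v‖ := by
  have h1 := (norm_sq_split h.proj_symm h.proj_idem v).1
  exact ⟨(sq_le_sq₀ (norm_nonneg _) (norm_nonneg _)).1 (h1 ▸ le_add_of_nonneg_right (sq_nonneg _)),
    (sq_le_sq₀ (norm_nonneg _) (norm_nonneg _)).1 (h1 ▸ le_add_of_nonneg_left (sq_nonneg _))⟩

theorem Cap.sum_sq {Y : Finset ι} {n : ℕ} {e : Fin n → St ι q} (h : Cap Y e) (v : St ι q) :
    ∑ k, ‖rone Y (e k) v‖ ^ 2 = ‖proj Y e v‖ ^ 2 := by
  refine Complex.ofReal_injective ?_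
  rw [← (norm_sq_split h.proj_symm h.proj_idem v).2, Complex.ofReal_sum, proj, LinearMap.sum_apply,
    inner_sum]
  exact sum_congr rfl fun k _ =>
    (norm_sq_split (rone_symm (h.2 k)) ((h.rone_mul k k).trans (if_pos rfl)) v).2.symm

theorem sum_Cap1 {Z Y : Finset ι} {n : ℕ} {e : Fin n → St ι q} {v : St ι q}
    (h : ∀ k, Prd Z (rone Y (e k) v)) : SR Z (proj Y e v) n := by
  have := SumOf.sum (P := Prd Z) univ (N := fun _ => 1) fun k _ => SumOf.single (h k)
  rw [sum_const, card_univ, Fintype.card_fin, nsmul_eq_mul, mul_one] at this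
  rw [proj, LinearMap.sum_apply]
  exact this

theorem Cap.sr {Y : Finset ι} {n : ℕ} {e : Fin n → St ι q} (h : Cap Y e) (v : St ι q) :
    SR Y (proj Y e v) n :=
  sum_Cap1 fun k => ⟨_, _, h.2 k, dep_Cap1 Y (e k) v, rone_Cap1 Y (e k) v⟩

theorem rone_rone_prd {Y D : Finset ι} (hd : Disjoint Y D) {e e' : St ι q} (he : Dep Y e)
    (he' : Dep D e') (v : St ι q) : Prd (Y ∪ D) (rone Y e (rone D e' v)) := by
  refine ⟨fun σ => e σ * e' σ, fun σ => ∑ τ, star (e τ) * ct_Cap1 D e' v (Y.piecewise τ σ),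
    fun σ σ' h => ?_, fun σ σ' h => sum_congr rfl fun τ _ => ?_, fun σ => ?_⟩
  · simp only [he σ σ' fun x hx => h x (mem_union_left _ hx),
      he' σ σ' fun x hx => h x (mem_union_right _ hx)]
  · refine congrArg _ (dep_Cap1 D e' v _ _ fun x hx => ?_)
    by_cases hY : x ∈ Y
    · simp [hY]
    · simpa [hY] using h x (by simpa [hY] using hx)
  · rw [rone_Cap1, ct_Cap1, mul_assoc]
    simp only [rone_Cap1, pwc_Cap1 hd he', mul_sum, mul_left_comm (e' σ)]

theorem Cap.sr_rone {Y D : Finset ι} (hd : Disjoint Y D) {n : ℕ} {e : Fin n → St ι q}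
    (h : Cap Y e) {e' : St ι q} (he' : Dep D e') (v : St ι q) :
    SR (Y ∪ D) (proj Y e (rone D e' v)) n :=
  sum_Cap1 fun k => rone_rone_prd hd (h.2 k) he' v

end Vale.Agent.P356
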