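import Vale.Agent.P356.Boost

/-!
Lattice geometry. `W = 2R+1`. Colour of `x`: `(x.1 % W) * W + x.2 % W`. Cuts around a centre:
`rad s = max (Nat.dist s.1 cx) (Nat.dist s.2 cy)`, `col = rad / W`, `Y c = {rad < c W + R}`
(which is the stated box); the shell `rad = r` has at most `4 (2r+1)` sites, so column `c` has
at most `8 W^2 (c+1)`. A crossing term lies in the box enlarged by `R` and within `R` of one of
the four sides. Counting is easiest by injecting into products of `Finset.Ico` intervals of `ℕ`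
(`box_card`; every set to count is contained in a union of at most four boxes).
`Small.boost`: `Apx.overlap` gives `w = 2`; then `hboost`, `cross_box`, `Apx.mono`
(`d ≥ 0` by `SumOf.nonneg`).
-/

namespace Vale.Agent.P356

open Finset

variable {L q G R : ℕ} {γ : ℝ}

theorem box_card (L x0 x1 y0 y1 : ℕ) : (box L x0 x1 y0 y1).card ≤ (x1 - x0) * (y1 - y0) := by
  rw [← Nat.card_Ico, ← Nat.card_Ico, ← card_product]
  refine card_le_card_of_injOn (fun s => (s.1.val, s.2.val)) (fun s hs => ?_) fun s _ t _ e => ?_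
  · simp only [box, coe_filter, mem_univ, true_and, Set.mem_ofPred_eq] at hs
    simp only [coe_product, coe_Ico, Set.mem_prod, Set.mem_Ico]
    omega
  · exact Prod.ext (Fin.ext (congrArg Prod.fst e)) (Fin.ext (congrArg Prod.snd e))

private theorem geo_mem {x0 x1 y0 y1 : ℕ} {s : Site L} : s ∈ box L x0 x1 y0 y1 ↔
    x0 ≤ s.1.val ∧ s.1.val < x1 ∧ y0 ≤ s.2.val ∧ s.2.val < y1 := by
  simp only [box, mem_filter, mem_univ, true_and]

private theorem geo_memb {x y : Site L} : y ∈ ball R x ↔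
    x.1.val - y.1.val + (y.1.val - x.1.val) ≤ R ∧ x.2.val - y.2.val + (y.2.val - x.2.val) ≤ R := by
  rw [ball, mem_filter]
  exact and_iff_right (mem_univ _)

private theorem geo_box {x0 x1 y0 y1 a b : ℕ} (hx : x1 ≤ x0 + a) (hy : y1 ≤ y0 + b) :
    (box L x0 x1 y0 y1).card ≤ a * b :=
  (box_card L x0 x1 y0 y1).trans (Nat.mul_le_mul (by omega) (by omega))

private theorem geo_four {T B₁ B₂ B₃ B₄ : Finset (Site L)} {N : ℕ}
    (h : ∀ s ∈ T, s ∈ B₁ ∨ s ∈ B₂ ∨ s ∈ B₃ ∨ s ∈ B₄) (h1 : B₁.card ≤ N) (h2 : B₂.card ≤ N)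
    (h3 : B₃.card ≤ N) (h4 : B₄.card ≤ N) : T.card ≤ 4 * N := by
  have h5 : T ⊆ B₁ ∪ (B₂ ∪ (B₃ ∪ B₄)) := fun s hs => by
    simpa only [mem_union] using h s hs
  have h6 := card_le_card h5
  have h7 := card_union_le B₁ (B₂ ∪ (B₃ ∪ B₄))
  have h8 := card_union_le B₂ (B₃ ∪ B₄)
  have h9 := card_union_le B₃ B₄
  omega

private theorem geo_ball (R : ℕ) (x : Site L) : (ball R x).card ≤ (2 * R + 1) ^ 2 := by
  have h : ball R x ⊆ box L (x.1 - R) (x.1 + R + 1) (x.2 - R) (x.2 + R + 1) := fun y hy => by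
    rw [geo_memb] at hy
    rw [geo_mem]
    omega
  rw [sq]
  exact (card_le_card h).trans (geo_box (by omega) (by omega))

private theorem geo_one {x c ρ : ℕ} : x - c + (c - x) < ρ ↔ c + 1 - ρ ≤ x ∧ x < c + ρ := by omega

private theorem geo_tri {x y c a R : ℕ} (h : x - c + (c - x) < a) (h' : x - y + (y - x) ≤ R) :
    y - c + (c - y) < a + R := by omega

private theorem geo_tri' {x y c a R : ℕ} (h : a + (2 * R + 1) ≤ x - c + (c - x))
    (h' : x - y + (y - x) ≤ R) : ¬ y - c + (c - y) < a + R := by omega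

private theorem geo_in {cx cy ρ : ℕ} {s : Site L} :
    s ∈ box L (cx + 1 - ρ) (cx + ρ) (cy + 1 - ρ) (cy + ρ) ↔
      s.1.val - cx + (cx - s.1.val) < ρ ∧ s.2.val - cy + (cy - s.2.val) < ρ := by
  rw [geo_mem, geo_one, geo_one, and_assoc]

private theorem geo_mod {a b W : ℕ} (h : a % W = b % W) (hne : a ≠ b) : W ≤ a - b + (b - a) := by
  rcases lt_or_gt_of_ne hne with h1 | h1
  · have := Nat.le_of_dvd (by omega) ((Nat.modEq_iff_dvd' h1.le).1 h)
    omega
  · have := Nat.le_of_dvd (by omega) ((Nat.modEq_iff_dvd' h1.le).1 h.symm)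
    omega

theorem ball_card (R : ℕ) (x : Site L) : (ball R x).card ≤ (4 * R + 1) ^ 2 := (geo_ball R x).trans (Nat.pow_le_pow_left (by omega) 2)

theorem ball_nbr (R : ℕ) (x : Site L) :
    (univ.filter fun y => ¬ Disjoint (ball R x) (ball R y)).card ≤ (4 * R + 1) ^ 2 := by
  have h : (univ.filter fun y => ¬ Disjoint (ball R x) (ball R y)) ⊆ ball (2 * R) x :=
    fun y hy => by
      obtain ⟨z, h1, h2⟩ := not_disjoint_iff.1 (mem_filter.1 hy).2
      rw [geo_memb] at h1 h2 ⊢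
      omega
  refine (card_le_card h).trans ((geo_ball _ x).trans (le_of_eq ?_))
  ring

theorem exists_colour (L R : ℕ) : ∃ clr : Site L → ℕ, (∀ t, clr t < (4 * R + 1) ^ 2) ∧
    ∀ t t', t ≠ t' → clr t = clr t' → Disjoint (ball R t) (ball R t') := by
  have hW : 0 < 2 * R + 1 := by omega
  refine ⟨fun t => t.1.val % (2 * R + 1) * (2 * R + 1) + t.2.val % (2 * R + 1), fun t => ?_,
    fun t t' hne e => ?_⟩
  · have h1 := Nat.mod_lt t.1.val hW
    have h2 := Nat.mod_lt t.2.val hW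
    have h3 : t.1.val % (2 * R + 1) * (2 * R + 1) ≤ 2 * R * (2 * R + 1) :=
      Nat.mul_le_mul_right _ (by omega)
    show _ < _
    nlinarith
  · have h2 : t.2.val % (2 * R + 1) = t'.2.val % (2 * R + 1) := by
      have h := congrArg (· % (2 * R + 1)) e
      simpa only [Nat.mul_add_mod_of_lt (Nat.mod_lt _ hW)] using h
    have h1 : t.1.val % (2 * R + 1) = t'.1.val % (2 * R + 1) := by
      simp only [h2, Nat.add_right_cancel_iff] at e
      exact Nat.eq_of_mul_eq_mul_right hW e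
    rw [disjoint_left]
    intro z hz hz'
    rw [geo_memb] at hz hz'
    by_cases e1 : t.1.val = t'.1.val
    · have e2 : t.2.val ≠ t'.2.val := fun e2 => hne (Prod.ext (Fin.ext e1) (Fin.ext e2))
      have := geo_mod h2 e2
      omega
    · have := geo_mod h1 e1
      omega

theorem exists_cuts (S : Sys (Site L) q G γ) (hS : ∀ t, S.X t = ball R t) (cx cy : ℕ) :
    ∃ cu : Cuts S (8 * (2 * R + 1) ^ 2), ∀ c, cu.Y c =
      box L (cx + 1 - (c * (2 * R + 1) + R)) (cx + (c * (2 * R + 1) + R))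
        (cy + 1 - (c * (2 * R + 1) + R)) (cy + (c * (2 * R + 1) + R)) := by
  have hW : 0 < 2 * R + 1 := by omega
  refine ⟨⟨fun c => box L (cx + 1 - (c * (2 * R + 1) + R)) (cx + (c * (2 * R + 1) + R))
    (cy + 1 - (c * (2 * R + 1) + R)) (cy + (c * (2 * R + 1) + R)),
    fun s => max (s.1.val - cx + (cx - s.1.val)) (s.2.val - cy + (cy - s.2.val)) / (2 * R + 1),
    fun c c' hc s hs => ?_, fun t c h s hs => ?_, fun t c h s hs => ?_, fun c => ?_⟩, fun _ => rfl⟩
  · have h1 : c * (2 * R + 1) ≤ c' * (2 * R + 1) := Nat.mul_le_mul_right _ hc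
    rw [geo_in] at hs ⊢
    exact ⟨hs.1.trans_le (Nat.add_le_add_right h1 R), hs.2.trans_le (Nat.add_le_add_right h1 R)⟩
  · rw [hS, geo_memb] at hs
    rw [Nat.div_lt_iff_lt_mul hW, max_lt_iff] at h
    exact geo_in.2 ⟨geo_tri h.1 hs.1, geo_tri h.2 hs.2⟩
  · rw [hS, geo_memb] at hs
    rw [← Nat.succ_le_iff, Nat.le_div_iff_mul_le hW, Nat.succ_mul, le_max_iff] at h
    rw [mem_compl, geo_in]
    rcases h with h | h
    · exact fun h' => geo_tri' h hs.1 h'.1
    · exact fun h' => geo_tri' h hs.2 h'.2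
  · have e : 8 * (2 * R + 1) ^ 2 * (c + 1) =
        4 * ((2 * R + 1) * (2 * (c * (2 * R + 1) + (2 * R + 1)))) := by ring
    rw [e]
    obtain ⟨a, ha⟩ : ∃ a, a = c * (2 * R + 1) := ⟨_, rfl⟩
    rw [← ha]
    refine geo_four (B₁ := box L (cx + a) (cx + a + (2 * R + 1)) (cy + 1 - (a + (2 * R + 1)))
        (cy + a + (2 * R + 1)))
      (B₂ := box L (cx + 1 - (a + (2 * R + 1))) (cx + 1 - a) (cy + 1 - (a + (2 * R + 1)))
        (cy + a + (2 * R + 1)))
      (B₃ := box L (cx + 1 - (a + (2 * R + 1))) (cx + a + (2 * R + 1)) (cy + a)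
        (cy + a + (2 * R + 1)))
      (B₄ := box L (cx + 1 - (a + (2 * R + 1))) (cx + a + (2 * R + 1))
        (cy + 1 - (a + (2 * R + 1))) (cy + 1 - a)) (fun s hs => ?_)
      (geo_box (by omega) (by omega)) (geo_box (by omega) (by omega))
      ((geo_box (by omega) (by omega)).trans (Nat.mul_comm _ _).le)
      ((geo_box (by omega) (by omega)).trans (Nat.mul_comm _ _).le)
    have h1 := (mem_filter.1 hs).2
    have h2 := (Nat.le_div_iff_mul_le hW).1 h1.ge
    have h3 := (Nat.div_lt_iff_lt_mul hW).1 (Nat.lt_succ_of_le h1.le)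
    rw [Nat.succ_mul, ← ha, max_lt_iff] at h3
    rw [← ha, le_max_iff] at h2
    simp only [geo_mem]
    clear h1 hs e ha
    generalize 2 * R + 1 = W at *
    generalize s.1.val = x at *
    generalize s.2.val = y at *
    rcases h2 with h2 | h2
    · rcases le_total cx x with h | h
      · exact Or.inl (by omega)
      · exact Or.inr (Or.inl (by omega))
    · rcases le_total cy y with h | h
      · exact Or.inr (Or.inr (Or.inl (by omega)))
      · exact Or.inr (Or.inr (Or.inr (by omega)))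

theorem cross_box (S : Sys (Site L) q G γ) (hS : ∀ t, S.X t = ball R t) {x0 x1 y0 y1 l : ℕ}
    (hx : x1 ≤ x0 + l) (hy : y1 ≤ y0 + l) :
    S.cross (box L x0 x1 y0 y1) ≤ 4 * (2 * R + 1) * (l + (2 * R + 1)) := by
  rw [Sys.cross, mul_assoc]
  refine geo_four (B₁ := box L (x0 - R) (x0 + R) (y0 - R) (y1 + R))
    (B₂ := box L (x1 - R) (x1 + R) (y0 - R) (y1 + R))
    (B₃ := box L (x0 - R) (x1 + R) (y0 - R) (y0 + R))
    (B₄ := box L (x0 - R) (x1 + R) (y1 - R) (y1 + R)) (fun s hs => ?_)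
    (geo_box (by omega) (by omega)) (geo_box (by omega) (by omega))
    ((geo_box (by omega) (by omega)).trans (Nat.mul_comm _ _).le)
    ((geo_box (by omega) (by omega)).trans (Nat.mul_comm _ _).le)
  obtain ⟨h1, h2⟩ := (mem_filter.1 hs).2
  rw [hS] at h1 h2
  obtain ⟨y, hy1, hy2⟩ := not_subset.1 h1
  obtain ⟨z, hz1, hz2⟩ := not_disjoint_iff.1 h2
  rw [geo_memb] at hy1 hz1
  rw [geo_mem] at hy2 hz2
  simp only [geo_mem]
  have a1 : x0 - R ≤ s.1.val := by omega
  have a2 : s.1.val < x1 + R := by omega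
  have a3 : y0 - R ≤ s.2.val := by omega
  have a4 : s.2.val < y1 + R := by omega
  clear hz1 hz2 h1 h2 hs
  simp only [not_and_or, not_le, not_lt] at hy2
  obtain ⟨b1, b2⟩ := hy1
  rcases hy2 with h | h | h | h
  · exact Or.inl ⟨a1, by omega, a3, a4⟩
  · exact Or.inr (Or.inl ⟨by omega, a2, a3, a4⟩)
  · exact Or.inr (Or.inr (Or.inl ⟨a1, a2, a3, by omega⟩))
  · exact Or.inr (Or.inr (Or.inr ⟨a1, a2, by omega, a4⟩))

theorem Small.boost (S : Sys (Site L) q G γ) (hS : ∀ t, S.X t = ball R t) {B : ℝ} (hB : 1 ≤ B)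
    (hboost : ∀ (Y : Finset (Site L)) (χ : St (Site L) q) (d : ℝ) (w u : ℕ), SR Y χ d → χ ≠ 0 →
      (1 / 2) ^ w * ‖χ‖ ≤ ‖inner ℂ S.Ω χ‖ →
      Apx S.Ω Y (d * B ^ (S.cross Y * (u + w))) ((1 / 2) ^ u))
    {b : ℕ} {d : ℝ} (h : Small S.Ω b d (1 / 2)) (u : ℕ) :
    Small S.Ω b (d * B ^ (4 * (2 * R + 1) * (b + (2 * R + 1)) * (u + 2))) ((1 / 2) ^ u) := by
  intro x0 x1 y0 y1 hx hy
  obtain ⟨χ, h1, h2, h3⟩ := (h x0 x1 y0 y1 hx hy).overlap S.unit
  refine (hboost _ χ d 2 u h1 h2 h3).mono (mul_le_mul_of_nonneg_left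
    (pow_le_pow_right₀ hB (Nat.mul_le_mul_right _ (cross_box S hS hx hy))) h1.nonneg) le_rfl

end Vale.Agent.P356
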