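import Vale.Agent.P356.Iso
import Vale.Agent.P356.Geo

/-!
Grid cells of side `b`. `F` is the set of indices (in `range L ×ˢ range L`) of nonempty cells
contained in `A`, `Z` the rest of `A`. A point of `Z` lies in a mixed cell; each mixed cell contains a
boundary pair (`mixed_edge`), different cells give different pairs, and a cell has at most `b^2`
points (`box_card`). For `(i,j) ∈ F` the interval `[i b, (i+1) b) ∩ [0,L)` is nonempty and inside
`I`; these intervals are disjoint and all but at most one have `b` points, so there are at most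
`n/b + 1` values of `i`; same for `j`.
`apx_region`: `iso`, `cells` for `A` or `Aᶜ` (`bdry_compl`, `Apx.compl`), `Apx.biUnion`,
`Apx.trivial` on `Z`, `Apx.union`, `Apx.mono`.
-/

namespace Vale.Agent.P356

open Finset

variable {L q : ℕ}

/-- The grid cell with index `i`. -/
def cell (L b : ℕ) (i : ℕ × ℕ) : Finset (Site L) :=
  box L (i.1 * b) (i.1 * b + b) (i.2 * b) (i.2 * b + b)

private theorem ce_div {b x i : ℕ} (hb : 1 ≤ b) : (i * b ≤ x ∧ x < i * b + b) ↔ x / b = i := by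
  rw [Nat.div_eq_iff hb]
  omega

private theorem ce_mem {b : ℕ} (hb : 1 ≤ b) {i : ℕ × ℕ} {s : Site L} :
    s ∈ cell L b i ↔ (s.1.val / b, s.2.val / b) = i := by
  rw [Prod.ext_iff, ← ce_div hb, ← ce_div hb]
  simp only [cell, box, mem_filter, mem_univ, true_and, and_assoc]

private theorem ce_line (I : Finset (Fin L)) {n b : ℕ} (hI : I.card ≤ n) (hb : 1 ≤ b) :
    ((range (L / b + 1)).filter fun i => ∀ x : Fin L, x.val / b = i → x ∈ I).card ≤ n / b + 1 := by
  have h1 : (((range (L / b)).filter fun i => ∀ x : Fin L, x.val / b = i → x ∈ I) ×ˢ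
      range b).card ≤ (I.image Fin.val).card := by
    refine card_le_card_of_injOn (fun p => p.1 * b + p.2) (fun p hp => ?_) fun p hp p' hp' e => ?_
    · simp only [coe_product, coe_filter, mem_range, coe_range, Set.mem_prod, Set.mem_ofPred_eq,
        Set.mem_Iio] at hp
      have h2 : (p.1 + 1) * b ≤ L := (Nat.le_div_iff_mul_le hb).1 hp.1.1
      rw [add_mul, one_mul] at h2
      have h3 : p.1 * b + p.2 < L := by omega
      exact mem_coe.2 (mem_image.2 ⟨⟨_, h3⟩, hp.1.2 _ ((ce_div hb).1 (by simp [hp.2])), rfl⟩)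
    · simp only [coe_product, coe_filter, mem_range, coe_range, Set.mem_prod, Set.mem_ofPred_eq,
        Set.mem_Iio] at hp hp'
      have e1 : (p.1 * b + p.2) / b = p.1 := (ce_div hb).1 (by simp [hp.2])
      have e2 : (p'.1 * b + p'.2) / b = p'.1 := (ce_div hb).1 (by simp [hp'.2])
      simp only at e
      have e3 : p.1 = p'.1 := by rw [← e1, e, e2]
      rw [e3] at e
      exact Prod.ext e3 (by omega)
  rw [card_product, card_range] at h1
  have h2 := (Nat.le_div_iff_mul_le hb).2 (h1.trans (card_image_le.trans hI))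
  rw [range_add_one, filter_insert]
  split_ifs
  · exact (card_insert_le _ _).trans (Nat.succ_le_succ h2)
  · exact h2.trans (Nat.le_succ _)

theorem cell_disjoint (L b : ℕ) {i j : ℕ × ℕ} (h : i ≠ j) :
    Disjoint (cell L b i) (cell L b j) := by
  refine disjoint_left.2 fun s hi hj => h ?_
  have hb : 1 ≤ b := by
    simp only [cell, box, mem_filter] at hi
    omega
  rw [← (ce_mem hb).1 hi, (ce_mem hb).1 hj]

theorem cells (A : Finset (Site L)) {I J : Finset (Fin L)} {n b : ℕ} (hI : I.card ≤ n)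
    (hJ : J.card ≤ n) (hA : A ⊆ I ×ˢ J) (hb : 1 ≤ b) :
    ∃ (F : Finset (ℕ × ℕ)) (Z : Finset (Site L)), F.card ≤ (n / b + 1) ^ 2 ∧
      Z.card ≤ bdry A * b ^ 2 ∧ A = Z ∪ F.biUnion (cell L b) ∧
      Disjoint Z (F.biUnion (cell L b)) := by
  refine ⟨(A.image fun s => (s.1.val / b, s.2.val / b)).filter fun i => cell L b i ⊆ A,
    A \ ((A.image fun s => (s.1.val / b, s.2.val / b)).filter fun i => cell L b i ⊆ A).biUnion
      (cell L b), ?_, ?_, ?_, ?_⟩
  · have h1 := Nat.mul_le_mul (ce_line I hI hb) (ce_line J hJ hb)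
    rw [← card_product, ← sq] at h1
    refine (card_le_card fun i hi => ?_).trans h1
    obtain ⟨hi, hc⟩ := mem_filter.1 hi
    obtain ⟨s, -, e⟩ := mem_image.1 hi
    have e1 : s.1.val / b = i.1 := congrArg Prod.fst e
    have e2 : s.2.val / b = i.2 := congrArg Prod.snd e
    rw [mem_product, mem_filter, mem_filter, mem_range, mem_range]
    refine ⟨⟨Nat.lt_succ_of_le ?_, fun x hx => ?_⟩, Nat.lt_succ_of_le ?_, fun x hx => ?_⟩
    · exact e1 ▸ Nat.div_le_div_right s.1.2.le
    · exact (mem_product.1 (hA (hc ((ce_mem hb (s := (x, s.2))).2 (Prod.ext hx e2))))).1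
    · exact e2 ▸ Nat.div_le_div_right s.2.2.le
    · exact (mem_product.1 (hA (hc ((ce_mem hb (s := (s.1, x))).2 (Prod.ext e1 hx))))).2
  · have h1 := card_biUnion_le_card_mul (((univ : Finset (Site L × Site L)).filter fun e =>
        e.1 ∈ A ∧ e.2 ∉ A ∧ dist1 e.1 e.2 = 1)) (fun e => cell L b (e.1.1.val / b, e.1.2.val / b))
      (b ^ 2) fun e _ => (box_card _ _ _ _ _).trans (by simp [sq])
    refine (card_le_card fun s hs => ?_).trans h1
    obtain ⟨hs, hn⟩ := mem_sdiff.1 hs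
    have hm : s ∈ cell L b (s.1.val / b, s.2.val / b) := (ce_mem hb).2 rfl
    have hc : ¬ cell L b (s.1.val / b, s.2.val / b) ⊆ A := fun hc =>
      hn (mem_biUnion.2 ⟨_, mem_filter.2 ⟨mem_image_of_mem _ hs, hc⟩, hm⟩)
    obtain ⟨y, hy, hyA⟩ := not_subset.1 hc
    obtain ⟨u, hu, v, -, h2⟩ := mixed_edge A hm hy hs hyA
    refine mem_biUnion.2 ⟨(u, v), mem_filter.2 ⟨mem_univ _, h2⟩, ?_⟩
    rw [(ce_mem hb (i := (s.1.val / b, s.2.val / b))).1 hu]
    exact hm
  · exact (sdiff_union_of_subset (biUnion_subset.2 fun i hi => (mem_filter.1 hi).2)).symm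
  · exact disjoint_left.2 fun s hs => (mem_sdiff.1 hs).2

private theorem ce_apx {Ω : St (Site L) q} (hq : 1 ≤ q) {b : ℕ} (hb : 1 ≤ b) {d η : ℝ}
    (hd : 1 ≤ d) (hη : 0 ≤ η) (h : Small Ω b d η) (A : Finset (Site L)) {I J : Finset (Fin L)}
    (hI : I.card ≤ bdry A) (hJ : J.card ≤ bdry A) (hA : A ⊆ I ×ˢ J) :
    Apx Ω A (d ^ ((bdry A / b + 1) ^ 2) * (q : ℝ) ^ (bdry A * b ^ 2))
      ((((bdry A / b + 1) ^ 2 : ℕ) : ℝ) * η) := by
  obtain ⟨F, Z, h1, h2, h3, h4⟩ := cells A hI hJ hA hb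
  have h5 := (Apx.trivial Ω Z).union (Apx.biUnion F (cell L b)
    (fun i _ => h _ _ _ _ le_rfl le_rfl) fun i _ j _ hij => cell_disjoint L b hij) h4
  rw [← h3] at h5
  have hq' : (1 : ℝ) ≤ q := by exact_mod_cast hq
  refine h5.mono ?_ ?_
  · rw [mul_comm]
    exact mul_le_mul (pow_le_pow_right₀ hd h1) (pow_le_pow_right₀ hq' h2) (by positivity)
      (by positivity)
  · rw [zero_add]
    exact mul_le_mul_of_nonneg_right (by exact_mod_cast h1) hη

theorem apx_region {Ω : St (Site L) q} (hq : 1 ≤ q) {b : ℕ} (hb : 1 ≤ b) {d η : ℝ}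
    (hd : 1 ≤ d) (hη : 0 ≤ η) (h : Small Ω b d η) (A : Finset (Site L)) :
    Apx Ω A (d ^ ((bdry A / b + 1) ^ 2) * (q : ℝ) ^ (bdry A * b ^ 2))
      ((((bdry A / b + 1) ^ 2 : ℕ) : ℝ) * η) := by
  obtain ⟨I, J, hI, hJ, hA | hA⟩ := iso A
  · exact ce_apx hq hb hd hη h A hI hJ hA
  · rw [← bdry_compl] at hI hJ
    have := (ce_apx hq hb hd hη h Aᶜ hI hJ hA).compl
    rwa [compl_compl, bdry_compl] at this

end Vale.Agent.P356
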