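import Vale.Agent.P356.Sym
import Vale.Agent.P356.Words

/-!
Gadgets for a column and for an annulus.
`column`: let `P n θ ρ` say that every `Z ⊆ zone c (c+1)` with at most `n` terms has a gadget
with parameter `θ`, `Zn c (c+1)` and rank `ρ` across `Y c`. `P 1 1 (q^(2G))` (`gad_or`,
`orOp_loc`, `Loc.rk`, `orOp_zn`; `Z ∩ cls g` has at most one element). `P n θ ρ → P (2n) (2θ) (2ρ)`
(split `Z` in two parts, `Gad.avg`), `P n θ ρ → P n (θ/4+3/4) (2ρ^2)` for `θ, ρ ≥ 1` (`Gad.amp`).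
Three averages and one amplification: `θ ↦ 2θ+3/4`, `ρ ↦ 128 ρ^2`; induct with
`ρ_k = (128 ρ_0)^(2^k)/128`.
`Lvl w θ F` below is the analogous property for `w` consecutive columns. `lvl_avg`: the new family
consists of the averages `(1/2)•M₁ + (1/2)•M₂`; `cost_split` (freeness by `Zn.free`) then
`cost_expand` with `n = 2`, `r = 1`. `lvl_amp`: `cost_expand` with `n = 2`, `r = 2`.
`annulus`: pick `k₁` with `2A ≤ 8^k₁`; columns `c < 2·8^k` have at most `8^(k+k₁)` terms; start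
from `Lvl 1 (2^(k+k₁+1)) (ρ^j)` (`column`, `cost_base`), one level = three `lvl_avg` and two
`lvl_amp`: `w ↦ 8w`, `θ ↦ θ/2+1`, `F ↦ 2^(11 j) F (j/2)`; so after `i` levels
`θ_i ≤ 2^(k+k₁+1-i)+2`, `F_i j ≤ 2^(22 j) ρ^(j/2^i)`; at `i = k`, `ρ^(j/2^k) ≤ (128 q^(2G))^(2^k₁ j)`.
Finally average with `orOp (zone (2·8^k) (8^(k+1)) ∩ cls g)` (free on the annulus) and sum
over colours: `cost_expand` with `n = 2G+1`, `r = 1`.
-/

namespace Vale.Agent.P356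

open Finset

variable {ι : Type} [Fintype ι] [DecidableEq ι] {q G : ℕ} {γ : ℝ}

/-- Every small subset of the column has a gadget. -/
def ColP (S : Sys ι q G γ) {A : ℕ} (cu : Cuts S A) (c g n : ℕ) (θ ρ : ℝ) : Prop :=
  ∀ Z ⊆ cu.zone c (c + 1), Z.card ≤ n →
    ∃ M, S.Gad g Z θ M ∧ Zn cu.Y c (c + 1) M ∧ RK (cu.Y c) M ρ

variable {S : Sys ι q G γ} {A : ℕ} {cu : Cuts S A} {c g n : ℕ} {θ ρ : ℝ}

theorem ColP.base (cu : Cuts S A) (c g : ℕ) : ColP S cu c g 1 1 ((q : ℝ) ^ (2 * G)) := by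
  intro Z hZ hn
  have hq : (1 : ℝ) ≤ q := by exact_mod_cast S.qpos
  refine ⟨_, S.gad_or g Z, cu.orOp_zn (inter_subset_left.trans hZ), ?_⟩
  obtain ⟨U, h1, h2⟩ : ∃ U : Finset ι, U.card ≤ G ∧ ∀ t ∈ Z, S.X t ⊆ U := by
    rcases Z.eq_empty_or_nonempty with rfl | ⟨t, ht⟩
    · exact ⟨∅, Nat.zero_le _, fun t ht => absurd ht (notMem_empty t)⟩
    · exact ⟨S.X t, S.card t, fun t' ht' => by rw [card_le_one.1 hn t' ht' t ht]⟩
  exact ((S.orOp_loc _ fun t ht => h2 t (mem_inter.1 ht).1).rk _).mono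
    (pow_le_pow_right₀ hq (by omega))

theorem ColP.avg (h : ColP S cu c g n θ ρ) : ColP S cu c g (2 * n) (2 * θ) (2 * ρ) := by
  intro Z hZ hn
  obtain ⟨T, hT, hc⟩ := exists_subset_card_eq (s := Z) (Nat.div_le_self Z.card 2)
  obtain ⟨M, a1, a2, a3⟩ := h T (hT.trans hZ) (by omega)
  obtain ⟨M', b1, b2, b3⟩ := h (Z \ T) (sdiff_subset.trans hZ) (by
    rw [card_sdiff_of_subset hT]
    omega)
  have h1 := a1.avg b1
  rw [union_sdiff_of_subset hT] at h1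
  exact ⟨_, h1, (a2.smul _).add (b2.smul _), ((a3.smul _).add (b3.smul _)).mono (two_mul ρ).ge⟩

theorem ColP.amp (h : ColP S cu c g n θ ρ) (hθ : 1 ≤ θ) (hρ : 1 ≤ ρ) :
    ColP S cu c g n (θ / 4 + 3 / 4) (2 * ρ ^ 2) := by
  intro Z hZ hn
  obtain ⟨M, a1, a2, a3⟩ := h Z hZ hn
  exact ⟨_, a1.amp hθ, (a2.smul _).add ((a2.mul a2).smul _),
    ((a3.smul _).add ((a3.mul a3).smul _)).mono (by nlinarith)⟩

theorem ColP.mono (h : ColP S cu c g n θ ρ) {n' : ℕ} {θ' ρ' : ℝ} (hn : n' ≤ n) (h0 : 0 < θ)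
    (hθ : θ ≤ θ') (hρ : ρ ≤ ρ') : ColP S cu c g n' θ' ρ' := by
  intro Z hZ hn'
  obtain ⟨M, a1, a2, a3⟩ := h Z hZ (hn'.trans hn)
  exact ⟨M, a1.mono h0 hθ, a2, a3.mono hρ⟩

theorem ColP.all (cu : Cuts S A) (c g k : ℕ) : ColP S cu c g (8 ^ k) (2 ^ (k + 1) - 1)
    ((128 * (q : ℝ) ^ (2 * G)) ^ (2 ^ k) / 128) := by
  have hq : (1 : ℝ) ≤ (q : ℝ) ^ (2 * G) := one_le_pow₀ (by exact_mod_cast S.qpos)
  induction k with
  | zero =>
    refine (ColP.base cu c g).mono le_rfl one_pos (by norm_num) (le_of_eq ?_)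
    rw [pow_zero, pow_one, mul_div_cancel_left₀ _ (by norm_num)]
  | succ k ih =>
    have h1 : (1 : ℝ) ≤ 2 ^ k := one_le_pow₀ one_le_two
    have h2 : 128 * (q : ℝ) ^ (2 * G) ≤ (128 * (q : ℝ) ^ (2 * G)) ^ (2 ^ k) :=
      le_self_pow₀ (by linarith) (pow_ne_zero k two_ne_zero)
    have e1 : (2 : ℝ) ^ (k + 1) = 2 * 2 ^ k := pow_succ' 2 k
    have e2 : (2 : ℝ) ^ (k + 1 + 1) = 2 * (2 * 2 ^ k) := by rw [pow_succ', e1]
    refine (ih.avg.avg.avg.amp (by linarith) (by linarith)).mono (by omega) (by linarith)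
      (by linarith) (le_of_eq ?_)
    rw [pow_succ 2 k, pow_mul]
    ring

theorem column (S : Sys ι q G γ) {A : ℕ} (cu : Cuts S A) (c g k : ℕ) (Z : Finset ι)
    (hZ : Z ⊆ cu.zone c (c + 1)) (hk : Z.card ≤ 8 ^ k) :
    ∃ M, S.Gad g Z (2 ^ (k + 1) - 1) M ∧ Zn cu.Y c (c + 1) M ∧
      RK (cu.Y c) M ((128 * (q : ℝ) ^ (2 * G)) ^ (2 ^ k)) := by
  obtain ⟨M, a1, a2, a3⟩ := ColP.all cu c g k Z hZ hk
  exact ⟨M, a1, a2, a3.mono (div_le_self (by positivity) (by norm_num))⟩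

end Vale.Agent.P356
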