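import Vale.Agent.P356.Cap

/-!
The key inequality.
`multi_cut`: suppose every projector `P = proj (Y c) e` with `Cap`, `n ≤ D c`, `c ∈ I`, has
`‖P Ω‖ < μ = 1/(2|I|)` (otherwise `χ = P Ω` works: `inner Ω χ = ‖χ‖^2`). By
`Finset.induction_on_max` build `N` with: `‖N v‖ ≤ ‖v‖`, `N` is `Loc (Y c')` for every `c'`
above all elements treated so far, `N (ψ c) = 0` for treated `c`, `‖Ω - N Ω‖ ≤ card * μ`: for the new
maximum `c` let `P` be the support projector (`exists_supp`) of `N (ψ c)` (rank `D c` by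
`SR.apply`, `Loc.rk_one`) and `N' = (1 - P) * N`. Then `‖N Ω‖ = ‖N (Ω - ∑ ψ)‖ ≤ 1/4`, while
`‖N Ω‖ ≥ 1/2`.
`exists_input`: take `Apx.cap` families `e_c` on `Y c \ D` and `f` on `D` (size `n ≤ dD`). By
`Finset.induction_on_max` build `N` (new `N' = N * proj`) with `‖N v‖ ≤ ‖v‖`, `Loc Dᶜ`-type
commutation (each projector commutes with `rone D f_α`, `Loc.commute`), `Loc (Y c')` above,
`‖Ω - N Ω'‖ ≤ card * η + ‖Ω - Ω'‖`-type estimate and `SR (Y c) (N (rone D f' v)) (d c)` for all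
`v` and all `f'` with `Dep D f'` (`Cap.sr_rone`, `Y c \ D ∪ D = Y c`). With
`φ_α = N (rone D f_α Ω)`: `∑ φ_α = N (proj D f Ω)` is `1/4`-close to `Ω`, so
`∑ ‖inner Ω φ_α‖ ≥ 3/4`, `‖φ_α‖ ≤ t_α`, `∑ t_α^2 ≤ 1`, `∑ t_α ≤ sqrt n`. If every `α` failed,
`2 sqrt dD * 3/4 ≤ sqrt dD`, so `dD = 0`, `n = 0`, contradiction.
`key`: apply `K = ∑ K_c` to `φ`, divide by `inner Ω φ`, use `Shr.close` and `multi_cut`.
-/

namespace Vale.Agent.P356

open Finset

variable {ι : Type} [Fintype ι] [DecidableEq ι] {q G : ℕ} {γ : ℝ}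

theorem inp_op {Ω : St ι q} {Y : ℕ → Finset ι} (hY : Monotone Y) (I : Finset ℕ) {D : Finset ι}
    {η : ℝ} {d : ℕ → ℝ} : (∀ c ∈ I, D ⊆ Y c) → (∀ c ∈ I, Apx Ω (Y c \ D) (d c) η) →
    ∃ N : Op ι q, (∀ v, ‖N v‖ ≤ ‖v‖) ∧ (∀ c, (∀ x ∈ I, x ≤ c) → Loc (Y c) N) ∧
      ‖Ω - N Ω‖ ≤ I.card * η ∧
      ∀ c ∈ I, ∀ f : St ι q, Dep D f → ∀ v, SR (Y c) (N (rone D f v)) (d c) := by
  induction I using Finset.induction_on_max with
  | empty =>
    refine fun _ _ => ⟨1, fun v => le_rfl, fun c _ => Loc.one _, ?_,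
      fun c hc => absurd hc (notMem_empty c)⟩
    rw [Module.End.one_apply, sub_self, norm_zero, card_empty, Nat.cast_zero, zero_mul]
  | insert a s ha ih =>
    intro hD h
    obtain ⟨N, h1, h2, h3, h4⟩ := ih (fun c hc => hD c (mem_insert_of_mem hc))
      fun c hc => h c (mem_insert_of_mem hc)
    obtain ⟨n, e, hn, he, hΩ⟩ := (h a (mem_insert_self a s)).cap
    refine ⟨N * proj (Y a \ D) e, fun v => (h1 _).trans (he.norm_le v).1, fun c hc => ?_, ?_,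
      fun c hc f hf v => ?_⟩
    · exact (h2 c fun x hx => hc x (mem_insert_of_mem hx)).mul
        (he.proj_loc.mono (sdiff_subset.trans (hY (hc a (mem_insert_self a s)))))
    · have e1 : Ω - (N * proj (Y a \ D) e) Ω = Ω - N Ω + N (Ω - proj (Y a \ D) e Ω) := by
        rw [Module.End.mul_apply, map_sub]
        abel
      rw [e1, card_insert_of_notMem fun k => lt_irrefl a (ha a k), Nat.cast_succ, add_mul, one_mul]
      exact (norm_add_le _ _).trans (add_le_add h3 ((h1 _).trans hΩ))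
    · rw [Module.End.mul_apply]
      rcases mem_insert.1 hc with rfl | hc'
      · have k := he.sr_rone sdiff_disjoint hf v
        rw [sdiff_union_of_subset (hD c hc)] at k
        exact (k.apply (h2 c fun x hx => (ha x hx).le).rk_one).mono (by rw [mul_one]; exact hn)
      · have k := (he.proj_loc.commute (rone_loc hf) sdiff_disjoint).eq
        rw [← Module.End.mul_apply (proj _ e), k, Module.End.mul_apply]
        exact h4 c hc' f hf _

theorem exists_input {Ω : St ι q} (hΩ : ‖Ω‖ = 1) {Y : ℕ → Finset ι} (hY : Monotone Y)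
    (I : Finset ℕ) {D : Finset ι} (hD : ∀ c ∈ I, D ⊆ Y c) {dD η : ℝ} {d : ℕ → ℝ}
    (h₁ : Apx Ω D dD η) (h₂ : ∀ c ∈ I, Apx Ω (Y c \ D) (d c) η)
    (hη : ((I.card : ℝ) + 1) * η ≤ 1 / 4) :
    ∃ φ, (∀ c ∈ I, SR (Y c) φ (d c)) ∧ inner ℂ Ω φ ≠ 0 ∧
      ‖φ‖ ≤ 2 * √dD * ‖inner ℂ Ω φ‖ := by
  obtain ⟨N, h1, -, h3, h4⟩ := inp_op hY I hD h₂
  obtain ⟨n, f, hn, hf, hf'⟩ := h₁.cap
  by_contra hc
  have k1 : ∀ α, 2 * √dD * ‖inner ℂ Ω (N (rone D (f α) Ω))‖ ≤ ‖rone D (f α) Ω‖ := fun α => by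
    by_cases h0 : inner ℂ Ω (N (rone D (f α) Ω)) = 0
    · rw [h0, norm_zero, mul_zero]
      exact norm_nonneg _
    · exact (le_of_not_ge fun k =>
        hc ⟨_, fun c hcI => h4 c hcI _ (hf.2 α) Ω, h0, k⟩).trans (h1 _)
  have k2 : ‖Ω - N (proj D f Ω)‖ ≤ 1 / 4 := by
    have e1 : Ω - N (proj D f Ω) = Ω - N Ω + N (Ω - proj D f Ω) := by
      rw [map_sub]
      abel
    rw [e1]
    have := (norm_add_le _ _).trans (add_le_add h3 ((h1 _).trans hf'))
    linarith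
  have k3 : 3 / 4 ≤ ∑ α, ‖inner ℂ Ω (N (rone D (f α) Ω))‖ := by
    have e1 : inner ℂ Ω Ω = ∑ α, inner ℂ Ω (N (rone D (f α) Ω)) +
        inner ℂ Ω (Ω - N (proj D f Ω)) := by
      rw [inner_sub_right, proj, LinearMap.sum_apply, map_sum, inner_sum, add_sub_cancel]
    have e2 : ‖inner ℂ Ω Ω‖ = 1 := by
      rw [inner_self_eq_norm_sq_to_K, norm_pow, RCLike.norm_ofReal, hΩ, abs_one, one_pow]
    have a1 := norm_inner_le_norm (𝕜 := ℂ) Ω (Ω - N (proj D f Ω))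
    rw [hΩ, one_mul] at a1
    have a2 := norm_add_le (∑ α, inner ℂ Ω (N (rone D (f α) Ω)))
      (inner ℂ Ω (Ω - N (proj D f Ω)))
    have a3 := norm_sum_le univ fun α => inner ℂ Ω (N (rone D (f α) Ω))
    rw [← e1, e2] at a2
    linarith
  have k4 : ∑ α, ‖rone D (f α) Ω‖ ≤ √dD := by
    refine Real.le_sqrt_of_sq_le (sq_sum_le_card_mul_sum_sq.trans ?_)
    rw [hf.sum_sq, card_univ, Fintype.card_fin]
    have a1 := pow_le_pow_left₀ (norm_nonneg _) (hf.norm_le Ω).1 2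
    rw [hΩ, one_pow] at a1
    exact (mul_le_of_le_one_right (Nat.cast_nonneg n) a1).trans hn
  have k5 := (sum_le_sum fun α (_ : α ∈ univ) => k1 α).trans k4
  rw [← mul_sum] at k5
  have k6 : √dD ≤ 0 := by nlinarith [Real.sqrt_nonneg dD]
  have k7 : n = 0 := by
    have := hn.trans (Real.sqrt_eq_zero'.1 (le_antisymm k6 (Real.sqrt_nonneg _)))
    exact_mod_cast le_antisymm this (Nat.cast_nonneg n)
  subst k7
  rw [Fintype.sum_empty] at k3
  linarith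

end Vale.Agent.P356
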