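import Vale.Agent.P356.Multi
import Vale.Agent.P356.Input
import Vale.Agent.P356.Words

/-!
The key inequality.
`multi_cut`: suppose every projector `P = proj (Y c) e` with `Cap`, `n ≤ D c`, `c ∈ I`, has
`‖P Ω‖ < μ = 1/(2|I|)` (otherwise `χ = P Ω` works: `inner Ω χ = ‖χ‖^2`). By
`Finset.induction_on_max` build `N` with: `‖N v‖ ≤ ‖v‖`, `N` is `Loc (Y c')` for every `c'`
above all elements treated so far, `N (ψ c) = 0` for treated `c`, `‖Ω - N Ω‖ ≤ card * μ`: for the new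
maximum `c` let `P` be the support projector (`exists_supp`) of `N (ψ c)` (rank `D c` by
`SR.apply`, `Loc.rk_one`) and `N' = (1 - P) * N`. Then `‖N Ω‖ = ‖N (Ω - ∑ ψ)‖ ≤ 1/4`, while
`‖N Ω‖ ≥ 1/2`.
`exists_input`: take `Apx.cap` families `e_c` on `Y c \ D` and `f` on `D` (size `n ≤ dD`). By
`Finset.induction_on_max` build `N` (new `N' = N * proj`) with `‖N v‖ ≤ ‖v‖`, `Loc Dᶜ`-type
commutation (each projector commutes with `rone D f_α`, `Loc.commute`), `Loc (Y c')` above,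
`‖Ω - N Ω'‖ ≤ card * η + ‖Ω - Ω'‖`-type estimate and `SR (Y c) (N (rone D f' v)) (d c)` for all
`v` and all `f'` with `Dep D f'` (`Cap.sr_rone`, `Y c \ D ∪ D = Y c`). With
`φ_α = N (rone D f_α Ω)`: `∑ φ_α = N (proj D f Ω)` is `1/4`-close to `Ω`, so
`∑ ‖inner Ω φ_α‖ ≥ 3/4`, `‖φ_α‖ ≤ t_α`, `∑ t_α^2 ≤ 1`, `∑ t_α ≤ sqrt n`. If every `α` failed,
`2 sqrt dD * 3/4 ≤ sqrt dD`, so `dD = 0`, `n = 0`, contradiction.
`key`: apply `K = ∑ K_c` to `φ`, divide by `inner Ω φ`, use `Shr.close` and `multi_cut`.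
-/

namespace Vale.Agent.P356

open Finset

variable {ι : Type} [Fintype ι] [DecidableEq ι] {q G : ℕ} {γ : ℝ}

theorem key {Ω : St ι q} (hΩ : ‖Ω‖ = 1) {Y : ℕ → Finset ι} (hY : Monotone Y)
    (I : Finset ℕ) {D : Finset ι} (hD : ∀ c ∈ I, D ⊆ Y c) {dD η : ℝ} {d : ℕ → ℝ}
    (h₁ : Apx Ω D dD η) (h₂ : ∀ c ∈ I, Apx Ω (Y c \ D) (d c) η)
    (hη : ((I.card : ℝ) + 1) * η ≤ 1 / 4) {K : Op ι q} {δ Dk : ℝ} (hK : Shr Ω K δ)
    (hδ : 0 ≤ δ) (hδ' : δ * (2 * √dD) ≤ 1 / 4) (hM : MR Y I K Dk) :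
    ∃ c ∈ I, ∃ χ, SR (Y c) χ (d c * Dk) ∧ χ ≠ 0 ∧
      1 / (2 * (I.card : ℝ)) * ‖χ‖ ≤ ‖inner ℂ Ω χ‖ := by
  obtain ⟨φ, hφ, h0, hn⟩ := exists_input hΩ hY I hD h₁ h₂ hη
  obtain ⟨Ms, rfl, hMs⟩ := hM
  refine multi_cut hΩ hY I (fun c => (inner ℂ Ω φ)⁻¹ • Ms c φ) (fun c => d c * Dk)
    (fun c hc => ((hφ c hc).apply (hMs c hc)).smul _) ?_
  have h1 := hK.close hδ hΩ φ
  have hp : 0 < ‖inner ℂ Ω φ‖ := norm_pos_iff.2 h0
  have e : Ω - ∑ c ∈ I, (inner ℂ Ω φ)⁻¹ • Ms c φ =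
      -((inner ℂ Ω φ)⁻¹ • ((∑ c ∈ I, Ms c) φ - inner ℂ Ω φ • Ω)) := by
    rw [smul_sub, inv_smul_smul₀ h0, neg_sub, LinearMap.sum_apply, Finset.smul_sum]
  rw [e, norm_neg, norm_smul, norm_inv, inv_mul_le_iff₀ hp]
  have h2 := mul_le_mul_of_nonneg_left hn hδ
  have h3 := mul_le_mul_of_nonneg_right hδ' hp.le
  linarith

end Vale.Agent.P356
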