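import Vale.Agent.P356.Cap

/-!
Tiling rectangles and frames by small rectangles. `tile_box`: induct on `i` (cut off the strip
`[x0, min x1 (x0+b))`) and on `j`, using `Apx.union`; an empty box has `Apx.trivial` (rank
`q^0 = 1`, error `0`). `tile_area`: take `i = (x1-x0)/b + 1`, `j = (y1-y0)/b + 1`, so
`i j ≤ (w/b+1)(h/b+1) ≤ w h / b^2 + 2M + 1`; `Real.rpow_natCast`, `Real.rpow_le_rpow_of_exponent_le`.
`tile_frame`: the frame is the disjoint union of the boxes `X0 X1 Y0 y0`, `X0 X1 y1 Y1`,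
`X0 x0 y0 y1`, `x1 X1 y0 y1`; areas add, `Real.rpow_add`.
-/

namespace Vale.Agent.P356

open Finset

variable {L q G R : ℕ} {γ : ℝ}

theorem tile_mem {x0 x1 y0 y1 : ℕ} {s : Site L} : s ∈ box L x0 x1 y0 y1 ↔
    x0 ≤ s.1.val ∧ s.1.val < x1 ∧ y0 ≤ s.2.val ∧ s.2.val < y1 := by
  simp only [box, mem_filter, mem_univ, true_and]

theorem tile_empty (Ω : St (Site L) q) {x0 x1 y0 y1 : ℕ} (h : x1 ≤ x0 ∨ y1 ≤ y0) :
    Apx Ω (box L x0 x1 y0 y1) 1 0 := by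
  have h1 : box L x0 x1 y0 y1 = ∅ := eq_empty_of_forall_notMem fun s hs => by
    rw [tile_mem] at hs
    omega
  have := Apx.trivial Ω (∅ : Finset (Site L))
  rwa [card_empty, pow_zero, ← h1] at this

theorem tile_row {Ω : St (Site L) q} {b : ℕ} {d η : ℝ} (h : Small Ω b d η) (i x0 x1 y0 y1 : ℕ)
    (hx : x1 ≤ x0 + i * b) (hy : y1 ≤ y0 + b) :
    Apx Ω (box L x0 x1 y0 y1) (d ^ i) ((i : ℝ) * η) := by
  induction i generalizing x0 with
  | zero => simpa using tile_empty Ω (Or.inl (by simpa using hx))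
  | succ i ih =>
    have h1 := (h x0 (min x1 (x0 + b)) y0 y1 (min_le_right _ _) hy).union
      (ih (x0 + b) (by rw [add_mul, one_mul] at hx; omega))
      (disjoint_left.2 fun s hs hs' => by
        rw [tile_mem] at hs hs'
        omega)
    have h2 : box L x0 (min x1 (x0 + b)) y0 y1 ∪ box L (x0 + b) x1 y0 y1 = box L x0 x1 y0 y1 := by
      ext s
      simp only [mem_union, tile_mem]
      omega
    rw [h2] at h1
    refine h1.mono (le_of_eq (pow_succ' _ _).symm) (le_of_eq ?_)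
    push_cast
    ring

theorem tile_box {Ω : St (Site L) q} {b : ℕ} {d η : ℝ} (hd : 1 ≤ d) (hη : 0 ≤ η)
    (h : Small Ω b d η) (i j x0 x1 y0 y1 : ℕ) (hx : x1 ≤ x0 + i * b) (hy : y1 ≤ y0 + j * b) :
    Apx Ω (box L x0 x1 y0 y1) (d ^ (i * j)) (((i * j : ℕ) : ℝ) * η) := by
  induction j generalizing y0 with
  | zero => simpa using tile_empty Ω (Or.inr (by simpa using hy))
  | succ j ih =>
    have h1 := (tile_row h i x0 x1 y0 (min y1 (y0 + b)) hx (min_le_right _ _)).union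
      (ih (y0 + b) (by rw [add_mul, one_mul] at hy; omega))
      (disjoint_left.2 fun s hs hs' => by
        rw [tile_mem] at hs hs'
        omega)
    have h2 : box L x0 x1 y0 (min y1 (y0 + b)) ∪ box L x0 x1 (y0 + b) y1 = box L x0 x1 y0 y1 := by
      ext s
      simp only [mem_union, tile_mem]
      omega
    rw [h2] at h1
    refine h1.mono (le_of_eq ?_) (le_of_eq ?_)
    · rw [← pow_add, mul_add_one, add_comm]
    · push_cast
      ring

theorem tile_area {Ω : St (Site L) q} {b : ℕ} (hb : 1 ≤ b) {d η : ℝ} (hd : 1 ≤ d) (hη : 0 ≤ η)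
    (h : Small Ω b d η) {M x0 x1 y0 y1 : ℕ} (hx0 : x0 ≤ x1) (hy0 : y0 ≤ y1)
    (hx : x1 ≤ x0 + M * b) (hy : y1 ≤ y0 + M * b) {n : ℝ}
    (hn : ((x1 : ℝ) - x0) * ((y1 : ℝ) - y0) / (b : ℝ) ^ 2 + (2 * M + 1) ≤ n) :
    Apx Ω (box L x0 x1 y0 y1) (d ^ n) (n * η) := by
  obtain ⟨w, rfl⟩ := Nat.exists_eq_add_of_le hx0
  obtain ⟨v, rfl⟩ := Nat.exists_eq_add_of_le hy0
  have a1 : ∀ u : ℕ, u ≤ (u / b + 1) * b := fun u => by
    rw [mul_comm]
    exact (Nat.lt_mul_div_succ u hb).le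
  have a2 : ∀ u : ℕ, u ≤ M * b → ((u / b : ℕ) : ℝ) ≤ M := fun u hu =>
    Nat.cast_le.2 (Nat.div_le_of_le_mul (by rwa [mul_comm]))
  have h1 := tile_box hd hη h (w / b + 1) (v / b + 1) x0 (x0 + w) y0 (y0 + v)
    (Nat.add_le_add_left (a1 w) _) (Nat.add_le_add_left (a1 v) _)
  have h2 : ((((w / b + 1) * (v / b + 1) : ℕ)) : ℝ) ≤ n := by
    refine le_trans ?_ hn
    have a3 : ((w / b : ℕ) : ℝ) * ((v / b : ℕ) : ℝ) ≤ (w : ℝ) / b * ((v : ℝ) / b) :=
      mul_le_mul Nat.cast_div_le Nat.cast_div_le (Nat.cast_nonneg _) (by positivity)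
    have a4 := a2 w (by omega)
    have a5 := a2 v (by omega)
    rw [div_mul_div_comm, ← sq] at a3
    simp only [Nat.cast_mul, Nat.cast_add, Nat.cast_one, add_sub_cancel_left]
    linarith
  refine h1.mono ?_ (mul_le_mul_of_nonneg_right h2 hη)
  rw [← Real.rpow_natCast]
  exact Real.rpow_le_rpow_of_exponent_le hd h2

theorem tile_frame {Ω : St (Site L) q} {b : ℕ} (hb : 1 ≤ b) {d η : ℝ} (hd : 1 ≤ d)
    (hη : 0 ≤ η) (h : Small Ω b d η) {M X0 X1 Y0 Y1 x0 x1 y0 y1 : ℕ} (h1 : X0 ≤ x0)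
    (h2 : x0 ≤ x1) (h3 : x1 ≤ X1) (h4 : Y0 ≤ y0) (h5 : y0 ≤ y1) (h6 : y1 ≤ Y1)
    (hx : X1 ≤ X0 + M * b) (hy : Y1 ≤ Y0 + M * b) {n : ℝ}
    (hn : (((X1 : ℝ) - X0) * ((Y1 : ℝ) - Y0) - ((x1 : ℝ) - x0) * ((y1 : ℝ) - y0)) / (b : ℝ) ^ 2
      + 4 * (2 * M + 1) ≤ n) :
    Apx Ω (box L X0 X1 Y0 Y1 \ box L x0 x1 y0 y1) (d ^ n) (n * η) := by
  have a1 := tile_area hb hd hη h (M := M) (x0 := X0) (x1 := X1) (y0 := Y0) (y1 := y0) (by omega) h4
    hx (by omega) le_rfl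
  have a2 := tile_area hb hd hη h (M := M) (x0 := X0) (x1 := X1) (y0 := y1) (y1 := Y1) (by omega) h6
    hx (by omega) le_rfl
  have a3 := tile_area hb hd hη h (M := M) (x0 := X0) (x1 := x0) (y0 := y0) (y1 := y1) h1 h5
    (by omega) (by omega) le_rfl
  have a4 := tile_area hb hd hη h (M := M) (x0 := x1) (x1 := X1) (y0 := y0) (y1 := y1) h3 h5
    (by omega) (by omega) le_rfl
  have a5 := ((a1.union a2 (disjoint_left.2 fun s hs hs' => by
      rw [tile_mem] at hs hs'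
      omega)).union a3 (disjoint_left.2 fun s hs hs' => by
      simp only [mem_union, tile_mem] at hs hs'
      omega)).union a4 (disjoint_left.2 fun s hs hs' => by
      simp only [mem_union, tile_mem] at hs hs'
      omega)
  have a6 : box L X0 X1 Y0 y0 ∪ box L X0 X1 y1 Y1 ∪ box L X0 x0 y0 y1 ∪ box L x1 X1 y0 y1 =
      box L X0 X1 Y0 Y1 \ box L x0 x1 y0 y1 := by
    ext s
    simp only [mem_union, mem_sdiff, tile_mem]
    omega
  have hd0 : 0 < d := one_pos.trans_le hd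
  rw [a6, ← Real.rpow_add hd0, ← Real.rpow_add hd0, ← Real.rpow_add hd0, ← add_mul, ← add_mul,
    ← add_mul] at a5
  have a7 : ((X1 : ℝ) - X0) * ((y0 : ℝ) - Y0) / (b : ℝ) ^ 2 + (2 * M + 1) +
      (((X1 : ℝ) - X0) * ((Y1 : ℝ) - y1) / (b : ℝ) ^ 2 + (2 * M + 1)) +
      (((x0 : ℝ) - X0) * ((y1 : ℝ) - y0) / (b : ℝ) ^ 2 + (2 * M + 1)) +
      (((X1 : ℝ) - x1) * ((y1 : ℝ) - y0) / (b : ℝ) ^ 2 + (2 * M + 1)) ≤ n :=
    le_trans (le_of_eq (by ring)) hn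
  exact a5.mono (Real.rpow_le_rpow_of_exponent_le hd a7) (mul_le_mul_of_nonneg_right a7 hη)

end Vale.Agent.P356
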