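import Vale.Agent.P356.Geo
import Vale.Agent.P356.Tile
import Vale.Agent.P356.Key

/-!
The geometric recursion step. Write `W = 2R+1`, `N = 2T+5`, `M = 8^N`, `b = W 8^m`, `l = M b`,
`ρ = W 8^(m+N-1) = l/8`. Given a box with sides at most `l`.
Thin case (`x1 < x0 + 2ρ` or `y1 < y0 + 2ρ`): `tile_box` with `i = 2·8^(N-1)`, `j = M`.
Thick case: centre `cx = x0+ρ`, `cy = y0+ρ`, `exists_cuts`, `k₀ = m + T + 4` (so
`k₀ + T = m+N-1`), `I = Ico (8^k₀) (8^(k₀+T))`; for `c ∈ I` the radius `r = c W + R` satisfies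
`r_D ≤ r < ρ` with `r_D = W 8^k₀ = b 8^(T+4)`; `D` is the box of radius `r_D`
(`box L (cx+1-r_D) (cx+r_D) ..`, side `s_D = 2 r_D - 1 ≥ r_D`). Exponents (real):
`n_D = s_D^2/b^2 + 2M+1` (`tile_area`), `n_c = (s_c^2 - s_D^2)/b^2 + 4(2M+1)` (`tile_frame` for
`Y c \ D`), `n'_c = (w h - s_c^2)/b^2 + 4(2M+1)` (for the box minus `Y c`); each is at most `2 M^2`,
so all errors are at most `2 M^2 η`. Choose `s` with `8 sqrt dD ≤ 2^s ≤ 16 sqrt dD`,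
`dD = d^n_D`; `key`; overlap `1/(2|I|) ≥ (1/2)^w`, `w = 3(m+N)+1`; `hboost` with `u = 2`,
`cross_box`; `Apx.union` with the outer frame (`Y c ∪ (box \ Y c) = box`). Total exponent
`n_c + n_D/2 + n'_c ≤ M^2 - r_D^2/(2 b^2) + 27 M` and `r_D^2/b^2 = 8^(2T+8) = 512 M`.
-/

namespace Vale.Agent.P356

open Finset

variable {L q G R : ℕ} {γ : ℝ}

theorem core_cast {c r : ℕ} (h : r ≤ c) :
    ((c + r : ℕ) : ℝ) - ((c + 1 - r : ℕ) : ℝ) = 2 * r - 1 := by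
  rw [Nat.cast_sub (by omega)]
  push_cast
  ring

theorem core_sub {X0 X1 Y0 Y1 x0 x1 y0 y1 : ℕ} (h1 : X0 ≤ x0) (h2 : x1 ≤ X1) (h3 : Y0 ≤ y0)
    (h4 : y1 ≤ Y1) : box L x0 x1 y0 y1 ⊆ box L X0 X1 Y0 Y1 := by
  intro s hs
  simp only [box, mem_filter, mem_univ, true_and] at hs ⊢
  omega

theorem core_thick {Ω : St (Site L) q} (hΩ : ‖Ω‖ = 1) {b M ρ ε : ℕ} (hb : 1 ≤ b) (hM : 1 ≤ M)
    (hρ : 2 * ρ ≤ M * b) (hε : 512 * M * b ^ 2 ≤ ε ^ 2) (hε1 : 1 ≤ ε) (hερ : ε ≤ ρ)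
    {d η C X : ℝ} (hd : 1 ≤ d) (hη : 0 ≤ η) (hC : 0 ≤ C) (hX : 0 ≤ X) (h : Small Ω b d η)
    {x0 x1 y0 y1 : ℕ} (hx : x1 ≤ x0 + M * b) (hy : y1 ≤ y0 + M * b) (hx' : x0 + 2 * ρ ≤ x1)
    (hy' : y0 + 2 * ρ ≤ y1) {Y : ℕ → Finset (Site L)} (hY : Monotone Y) {I : Finset ℕ}
    {r : ℕ → ℕ} (hr : ∀ c ∈ I, ε ≤ r c ∧ r c ≤ ρ)
    (hYr : ∀ c, Y c = box L (x0 + ρ + 1 - r c) (x0 + ρ + r c) (y0 + ρ + 1 - r c) (y0 + ρ + r c))
    (hK : ∀ s : ℕ, ∃ K, Shr Ω K ((1 / 2) ^ s) ∧ MR Y I K (C * 2 ^ s))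
    (hbo : ∀ c ∈ I, ∀ χ d', SR (Y c) χ d' → χ ≠ 0 →
      1 / (2 * (I.card : ℝ)) * ‖χ‖ ≤ ‖inner ℂ Ω χ‖ → Apx Ω (Y c) (d' * X) (1 / 4))
    (hη' : ((I.card : ℝ) + 1) * (2 * (M : ℝ) ^ 2 * η) ≤ 1 / 4) :
    Apx Ω (box L x0 x1 y0 y1) (d ^ ((M : ℝ) ^ 2 - M) * (16 * C) * X) (1 / 2) := by
  have hd0 : 0 < d := by linarith
  have hb0 : (0 : ℝ) < (b : ℝ) ^ 2 := by positivity
  have hM1 : (1 : ℝ) ≤ M := by exact_mod_cast hM
  obtain ⟨A, hA⟩ : ∃ A : ℕ → ℝ, ∀ k : ℕ, A k = (2 * k - 1) * (2 * k - 1) / (b : ℝ) ^ 2 :=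
    ⟨_, fun _ => rfl⟩
  obtain ⟨A', hA'⟩ : ∃ A' : ℝ, A' = ((x1 : ℝ) - x0) * ((y1 : ℝ) - y0) / (b : ℝ) ^ 2 := ⟨_, rfl⟩
  have e1 : (1 : ℝ) ≤ ε := by exact_mod_cast hε1
  have a1 : 512 * (M : ℝ) ≤ A ε := by
    have h1 : 512 * (M : ℝ) * (b : ℝ) ^ 2 ≤ (ε : ℝ) ^ 2 := by exact_mod_cast hε
    rw [hA, le_div_iff₀ hb0]
    nlinarith
  have a2 : ∀ k : ℕ, ε ≤ k → A ε ≤ A k := fun k hk => by
    have h1 : (ε : ℝ) ≤ k := by exact_mod_cast hk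
    rw [hA, hA]
    exact div_le_div_of_nonneg_right (mul_self_le_mul_self (by linarith) (by linarith)) hb0.le
  have a3 : ∀ k : ℕ, ε ≤ k → k ≤ ρ → A k ≤ (M : ℝ) ^ 2 := fun k hk hk' => by
    have h1 : (ε : ℝ) ≤ k := by exact_mod_cast hk
    have h2 : 2 * (k : ℝ) ≤ M * b := by exact_mod_cast (by omega : 2 * k ≤ M * b)
    rw [hA, div_le_iff₀ hb0, ← mul_pow, sq]
    exact mul_self_le_mul_self (by linarith) (by linarith)
  have a4 : A' ≤ (M : ℝ) ^ 2 := by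
    have h1 : (x1 : ℝ) ≤ x0 + M * b := by exact_mod_cast hx
    have h2 : (y1 : ℝ) ≤ y0 + M * b := by exact_mod_cast hy
    have h3 : (y0 : ℝ) ≤ y1 := by exact_mod_cast (by omega : y0 ≤ y1)
    rw [hA', div_le_iff₀ hb0, ← mul_pow, sq]
    exact mul_le_mul (by linarith) (by linarith) (by linarith) (by positivity)
  have a5 := a3 ε le_rfl hερ
  have hD := tile_area hb hd hη h (M := M) (x0 := x0 + ρ + 1 - ε) (x1 := x0 + ρ + ε)
    (y0 := y0 + ρ + 1 - ε) (y1 := y0 + ρ + ε) (by omega) (by omega) (by omega) (by omega)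
    (n := A ε + (2 * M + 1)) (by rw [core_cast (by omega), core_cast (by omega), hA])
  have h2 : ∀ c ∈ I, Apx Ω (Y c \ box L (x0 + ρ + 1 - ε) (x0 + ρ + ε) (y0 + ρ + 1 - ε)
      (y0 + ρ + ε)) (d ^ (A (r c) - A ε + 4 * (2 * M + 1))) (2 * (M : ℝ) ^ 2 * η) := by
    intro c hc
    obtain ⟨h3, h4⟩ := hr c hc
    rw [hYr]
    refine (tile_frame hb hd hη h (M := M) (by omega) (by omega) (by omega) (by omega) (by omega)
      (by omega) (by omega) (by omega) ?_).mono le_rfl (mul_le_mul_of_nonneg_right ?_ hη)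
    · rw [core_cast (by omega), core_cast (by omega), core_cast (by omega), core_cast (by omega),
        hA, hA, sub_div]
    · linarith [a3 _ h3 h4]
  have hs : 1 ≤ √(d ^ (A ε + (2 * M + 1))) :=
    Real.one_le_sqrt.2 (Real.one_le_rpow hd (by linarith))
  obtain ⟨s, hs1, hs2⟩ := exists_nat_pow_near
    (show 1 ≤ 8 * √(d ^ (A ε + (2 * M + 1))) by linarith) one_lt_two
  obtain ⟨K, hK1, hK2⟩ := hK (s + 1)
  obtain ⟨c, hc, χ, h3, h4, h5⟩ := key hΩ hY I (fun c hc => by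
      obtain ⟨h3, h4⟩ := hr c hc
      rw [hYr]
      exact core_sub (by omega) (by omega) (by omega) (by omega))
    (hD.mono le_rfl (mul_le_mul_of_nonneg_right (by linarith) hη)) h2 hη' hK1 (by positivity)
    (by
      rw [one_div, inv_pow, inv_mul_le_iff₀ (by positivity)]
      linarith) hK2
  obtain ⟨h6, h7⟩ := hr c hc
  have h8 := tile_frame hb hd hη h (M := M) (X0 := x0) (X1 := x1) (Y0 := y0) (Y1 := y1)
    (x0 := x0 + ρ + 1 - r c) (x1 := x0 + ρ + r c) (y0 := y0 + ρ + 1 - r c) (y1 := y0 + ρ + r c)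
    (by omega) (by omega) (by omega) (by omega) (by omega) (by omega) hx hy
    (n := A' - A (r c) + 4 * (2 * M + 1))
    (by rw [core_cast (by omega), core_cast (by omega), hA, hA', sub_div])
  rw [← hYr] at h8
  have h9 := (hbo c hc χ _ h3 h4 h5).union h8 disjoint_sdiff
  rw [union_sdiff_of_subset (by
    rw [hYr]
    exact core_sub (by omega) (by omega) (by omega) (by omega))] at h9
  have a6 := a2 _ h6
  refine h9.mono ?_ ?_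
  · have h10 : (2 : ℝ) ^ (s + 1) ≤ 16 * d ^ ((A ε + (2 * M + 1)) * (1 / 2)) := by
      rw [Real.rpow_mul hd0.le, ← Real.sqrt_eq_rpow, pow_succ]
      linarith
    calc _ ≤ d ^ (A (r c) - A ε + 4 * (2 * M + 1)) *
          (C * (16 * d ^ ((A ε + (2 * M + 1)) * (1 / 2)))) * X *
          d ^ (A' - A (r c) + 4 * (2 * M + 1)) := by gcongr
      _ = d ^ (A (r c) - A ε + 4 * (2 * M + 1) + (A ε + (2 * M + 1)) * (1 / 2) +
          (A' - A (r c) + 4 * (2 * M + 1))) * (16 * C) * X := by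
        rw [Real.rpow_add hd0 (_ + _), Real.rpow_add hd0 (A (r c) - A ε + 4 * (2 * M + 1))]
        ring
      _ ≤ _ := by
        gcongr
        linarith
  · have h10 : (A' - A (r c) + 4 * (2 * M + 1)) * η ≤ 2 * (M : ℝ) ^ 2 * η :=
      mul_le_mul_of_nonneg_right (by linarith) hη
    have h11 : 0 ≤ (I.card : ℝ) * (2 * (M : ℝ) ^ 2 * η) := by positivity
    linarith

theorem step_core {T m : ℕ} {C B : ℝ} (S : Sys (Site L) q G γ) (hS : ∀ t, S.X t = ball R t)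
    (hC : 1 ≤ C) (hB : 1 ≤ B)
    (hagsp : ∀ (cu : Cuts S (8 * (2 * R + 1) ^ 2)) (k₀ s : ℕ), ∃ K : Op (Site L) q,
      Shr S.Ω K ((1 / 2) ^ s) ∧ MR cu.Y (Ico (8 ^ k₀) (8 ^ (k₀ + T))) K (C * 2 ^ s))
    (hboost : ∀ (Y : Finset (Site L)) (χ : St (Site L) q) (d : ℝ) (w u : ℕ), SR Y χ d → χ ≠ 0 →
      (1 / 2) ^ w * ‖χ‖ ≤ ‖inner ℂ S.Ω χ‖ →
      Apx S.Ω Y (d * B ^ (S.cross Y * (u + w))) ((1 / 2) ^ u))
    {d η : ℝ} (hd : 1 ≤ d) (hη : 0 ≤ η)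
    (hη' : ((8 : ℝ) ^ (m + (2 * T + 5)) + 1) * (2 * ((8 : ℝ) ^ (2 * T + 5)) ^ 2 * η) ≤ 1 / 4)
    (h : Small S.Ω ((2 * R + 1) * 8 ^ m) d η) :
    Small S.Ω ((2 * R + 1) * 8 ^ (m + (2 * T + 5)))
      (d ^ ((8 ^ (2 * T + 5)) ^ 2 - 8 ^ (2 * T + 5) : ℕ) * (16 * C) *
        B ^ (4 * (2 * R + 1) * ((2 * R + 1) * 8 ^ (m + (2 * T + 5)) + (2 * R + 1)) *
          (3 * (m + (2 * T + 5)) + 3))) (1 / 2) := by
  intro x0 x1 y0 y1 hx hy
  obtain ⟨W, hW⟩ : ∃ W, W = 2 * R + 1 := ⟨_, rfl⟩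
  obtain ⟨P, hP⟩ : ∃ P, P = 8 ^ (2 * T + 4) := ⟨_, rfl⟩
  obtain ⟨b, hb⟩ : ∃ b, b = W * 8 ^ m := ⟨_, rfl⟩
  have hM : 8 ^ (2 * T + 5) = 8 * P := by rw [hP, ← pow_succ']
  have hM' : (8 : ℝ) ^ (2 * T + 5) = (8 * P : ℕ) := by rw [← hM]; push_cast; rfl
  have hl : W * 8 ^ (m + (2 * T + 5)) = 8 * P * b := by rw [pow_add, hM, hb]; ring
  have hP1 : 1 ≤ P := hP ▸ Nat.one_le_pow _ _ (by norm_num)
  have hb1 : 1 ≤ b := hb ▸ Nat.mul_pos (by omega) (by positivity)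
  rw [← hW] at hx hy h ⊢
  rw [hl] at hx hy ⊢
  rw [← hb] at h
  rw [hM'] at hη'
  rw [hM]
  have hp : (0 : ℝ) ≤ (8 : ℝ) ^ (m + (2 * T + 5)) * (2 * ((8 * P : ℕ) : ℝ) ^ 2 * η) := by
    positivity
  have thin : ∀ i j : ℕ, i * j = 16 * (P * P) → x1 ≤ x0 + i * b → y1 ≤ y0 + j * b →
      Apx S.Ω (box L x0 x1 y0 y1) (d ^ ((8 * P) ^ 2 - 8 * P : ℕ) * (16 * C) *
        B ^ (4 * W * (8 * P * b + W) * (3 * (m + (2 * T + 5)) + 3))) (1 / 2) := by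
    intro i j hij h1 h2
    have h3 : P ≤ P * P := Nat.le_mul_self P
    have h4 : (8 * P) ^ 2 = 64 * (P * P) := by ring
    refine (tile_box hd hη h i j x0 x1 y0 y1 h1 h2).mono ?_ ?_
    · refine (pow_le_pow_right₀ hd (by omega : i * j ≤ (8 * P) ^ 2 - 8 * P)).trans ?_
      rw [mul_assoc]
      exact le_mul_of_one_le_right (by positivity)
        (one_le_mul_of_one_le_of_one_le (by linarith) (one_le_pow₀ hB))
    · have h5 : ((i * j : ℕ) : ℝ) ≤ 2 * ((8 * P : ℕ) : ℝ) ^ 2 := by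
        exact_mod_cast (by omega : i * j ≤ 2 * (8 * P) ^ 2)
      have h6 := mul_le_mul_of_nonneg_right h5 hη
      linarith
  have e2 : 2 * P * b = 2 * (P * b) := mul_assoc _ _ _
  have e8 : 8 * P * b = 8 * (P * b) := mul_assoc _ _ _
  rcases lt_or_ge x1 (x0 + 2 * (P * b)) with hx' | hx'
  · exact thin (2 * P) (8 * P) (by ring) (by omega) hy
  rcases lt_or_ge y1 (y0 + 2 * (P * b)) with hy' | hy'
  · exact thin (8 * P) (2 * P) (by ring) hx (by omega)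
  obtain ⟨cu, hcu⟩ := exists_cuts S hS (x0 + P * b) (y0 + P * b)
  have hρ : P * b = 8 ^ (m + T + 4 + T) * W := by rw [hP, hb]; ring
  have hr : ∀ c ∈ Ico (8 ^ (m + T + 4)) (8 ^ (m + T + 4 + T)),
      8 ^ (m + T + 4) * W ≤ c * (2 * R + 1) + R ∧ c * (2 * R + 1) + R ≤ P * b := by
    intro c hc
    obtain ⟨h1, h2⟩ := mem_Ico.1 hc
    have h3 := Nat.mul_le_mul_right W h1
    have h4 := Nat.mul_le_mul_right W (Nat.succ_le_of_lt h2)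
    rw [Nat.succ_mul] at h4
    rw [← hW]
    omega
  have hI : ((Ico (8 ^ (m + T + 4)) (8 ^ (m + T + 4 + T))).card : ℝ) ≤ 8 ^ (m + (2 * T + 5)) := by
    rw [Nat.card_Ico]
    exact_mod_cast (Nat.sub_le _ _).trans (Nat.pow_le_pow_right (by norm_num) (by omega))
  have hn : (((8 * P) ^ 2 - 8 * P : ℕ) : ℝ) = ((8 * P : ℕ) : ℝ) ^ 2 - (8 * P : ℕ) := by
    rw [Nat.cast_sub (Nat.le_self_pow two_ne_zero _), Nat.cast_pow]
  rw [← Real.rpow_natCast, hn]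
  refine core_thick S.unit hb1 (by omega) (ρ := P * b) (ε := 8 ^ (m + T + 4) * W) (by omega)
    (le_of_eq (by rw [hP, hb]; ring)) (Nat.mul_pos (by positivity) (by omega))
    (hρ ▸ Nat.mul_le_mul_right W (Nat.pow_le_pow_right (by norm_num) (by omega))) hd hη
    (by linarith) (by positivity) h hx hy hx' hy' cu.mono hr hcu (hagsp cu (m + T + 4))
    (fun c hc χ d' h1 h2 h3 => ?_) ((mul_le_mul_of_nonneg_right (by linarith)
      (by positivity)).trans hη')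
  obtain ⟨h4, h5⟩ := hr c hc
  have h6 : (0 : ℝ) < (Ico (8 ^ (m + T + 4)) (8 ^ (m + T + 4 + T))).card := by
    exact_mod_cast card_pos.2 ⟨c, hc⟩
  refine (hboost _ χ d' (3 * (m + (2 * T + 5)) + 1) 2 h1 h2
    ((mul_le_mul_of_nonneg_right ?_ (norm_nonneg _)).trans h3)).mono ?_ (by norm_num)
  · rw [one_div_pow]
    refine one_div_le_one_div_of_le (by positivity) ?_
    rw [pow_succ (2 : ℝ), pow_mul, show (2 : ℝ) ^ 3 = 8 by norm_num]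
    linarith
  · refine mul_le_mul_of_nonneg_left (pow_le_pow_right₀ hB (Nat.mul_le_mul ?_ (by omega)))
      (SumOf.nonneg h1)
    rw [hcu, hW]
    exact cross_box S hS (by omega) (by omega)

end Vale.Agent.P356
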