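import Vale.Agent.P356.Cap

/-!
Detectability lemma. For a list `l` (applied from the right end) put `w = dl l v`. Prove by
induction on a list `l` without duplicates, with `loss t` the squared norm removed by the factor
`1 - p t`: (a) `∑_{t ∈ l} loss t = ‖v‖^2 - ‖dl l v‖^2` (`norm_sq_split`); (b) for `t ∈ l`,
`‖p t (dl l v)‖ ≤ ∑_{t' ∈ l, X t' meets X t} sqrt (loss t')`: a new factor `1 - p t'` either
commutes with `p t` (disjoint supports, `Loc.commute`, and it is a contraction) or changes the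
vector by `p t' w`, of norm `sqrt (loss t')`; for the head itself `p t (1 - p t) = 0`.
A convenient form: there is `r : ι → ℝ`, `r ≥ 0`, with `∑_{t ∈ l} r t ^2 = ‖v‖^2 - ‖dl l v‖^2`
and (b) with `r`. Cauchy-Schwarz and double counting (`nbr`, symmetric) give
`γ ‖w‖^2 ≤ ∑ ‖p t w‖^2 ≤ G^2 (‖v‖^2 - ‖w‖^2)`; `w ⊥ Ω` as each factor is symmetric and fixes `Ω`.
`dl_converse`: take `l` the concatenation of the lists `(cls g).toList`, `g < G`; then
`dl l` is the product of the contractions `P_g = 1 - orOp (cls g)`, and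
`‖v - dl l v‖ ≤ ∑ ‖orOp (cls g) v‖` (telescoping), `‖v - dl l v‖ ≥ (1-δ)‖v‖`; Cauchy-Schwarz.
`boost`: choose `n0` with `δ^n0 ≤ 1/2`, `K = (dl univ.toList)^(n0 (u+w))`; `dl` has rank
`(q^(2G))^cross` (`dl_rk`), `B = q^(2 G n0)` (use `max`/`qpos`), and the approximant is
`(inner Ω χ)⁻¹ • K χ` (`Shr.close`).
-/

namespace Vale.Agent.P356

open Finset

variable {ι : Type} [Fintype ι] [DecidableEq ι] {q G : ℕ} {γ : ℝ}

theorem Sys.dlx_cons (S : Sys ι q G γ) (t : ι) (l : List ι) (v : St ι q) :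
    S.dl (t :: l) v = S.dl l v - S.p t (S.dl l v) := by
  simp [Sys.dl]

theorem Sys.dlx_le (S : Sys ι q G γ) (t : ι) (w : St ι q) :
    ‖S.p t w‖ ≤ ‖w‖ ∧ ‖w - S.p t w‖ ≤ ‖w‖ := by
  have h := (norm_sq_split (S.symm t) (S.idem t) w).1
  exact ⟨le_of_sq_le_sq (by nlinarith [sq_nonneg ‖w - S.p t w‖]) (norm_nonneg _),
    le_of_sq_le_sq (by nlinarith [sq_nonneg ‖S.p t w‖]) (norm_nonneg _)⟩

theorem Sys.dl_norm_le (S : Sys ι q G γ) (l : List ι) (v : St ι q) : ‖S.dl l v‖ ≤ ‖v‖ := by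
  induction l with
  | nil => simp [Sys.dl]
  | cons t l ih =>
    rw [S.dlx_cons]
    exact (S.dlx_le t _).2.trans ih

theorem Sys.dlx_fix (S : Sys ι q G γ) (l : List ι) : S.dl l S.Ω = S.Ω := by
  induction l with
  | nil => simp [Sys.dl]
  | cons t l ih => rw [S.dlx_cons, ih, S.kill, sub_zero]

theorem Sys.dlx_perp (S : Sys ι q G γ) (l : List ι) (v : St ι q) (hv : inner ℂ S.Ω v = 0) :
    inner ℂ S.Ω (S.dl l v) = 0 := by
  induction l with
  | nil => simpa [Sys.dl] using hv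
  | cons t l ih =>
    rw [S.dlx_cons, inner_sub_right, ih, ← S.symm t, S.kill, inner_zero_left, sub_zero]

theorem Sys.dlx_key (S : Sys ι q G γ) (l : List ι) (hl : l.Nodup) (v : St ι q) :
    ∃ r : ι → ℝ, (∀ t, 0 ≤ r t) ∧ (∀ t, t ∉ l → r t = 0) ∧
      ∑ t, r t ^ 2 = ‖v‖ ^ 2 - ‖S.dl l v‖ ^ 2 ∧
      ∀ t ∈ l, ‖S.p t (S.dl l v)‖ ≤
        ∑ t' ∈ univ.filter fun t' => ¬ Disjoint (S.X t) (S.X t'), r t' := by
  induction l with
  | nil => exact ⟨0, fun _ => le_rfl, fun _ _ => rfl, by simp [Sys.dl], by simp⟩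
  | cons s l ih =>
    obtain ⟨hs, hl'⟩ := List.nodup_cons.1 hl
    obtain ⟨r, h0, h1, h2, h3⟩ := ih hl'
    set w := S.dl l v with hw
    have ha : 0 ≤ ‖S.p s w‖ := norm_nonneg _
    have h4 : ∀ t, 0 ≤ r t + if t = s then ‖S.p s w‖ else 0 := fun t =>
      add_nonneg (h0 t) (by split_ifs <;> simp)
    refine ⟨fun t => r t + if t = s then ‖S.p s w‖ else 0, h4, fun t ht => ?_, ?_, fun t ht => ?_⟩
    · rw [List.mem_cons, not_or] at ht
      simp [h1 t ht.2, ht.1]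
    · have h5 : ∀ t, (r t + if t = s then ‖S.p s w‖ else 0) ^ 2 =
          r t ^ 2 + if t = s then ‖S.p s w‖ ^ 2 else 0 := fun t => by
        split_ifs with h
        · rw [h, h1 s hs]; ring
        · ring
      simp only [h5, sum_add_distrib, sum_ite_eq', mem_univ, if_true, h2, S.dlx_cons]
      have h6 := (norm_sq_split (S.symm s) (S.idem s) w).1
      linarith
    · rw [S.dlx_cons, ← hw, map_sub]
      rcases List.mem_cons.1 ht with rfl | ht'
      · rw [← Module.End.mul_apply (S.p t) (S.p t), S.idem, sub_self, norm_zero]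
        exact sum_nonneg fun t' _ => h4 t'
      · have h5 := h3 t ht'
        simp only [sum_add_distrib, sum_ite_eq', mem_filter, mem_univ, true_and]
        by_cases hd : Disjoint (S.X t) (S.X s)
        · rw [if_neg (not_not.2 hd), add_zero, ← Module.End.mul_apply (S.p t) (S.p s),
            ((S.loc t).commute (S.loc s) hd).eq, Module.End.mul_apply]
          exact (S.dlx_le s _).2.trans h5
        · rw [if_pos hd]
          exact (norm_sub_le _ _).trans (add_le_add h5 (S.dlx_le t _).1)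

theorem Sys.dl_bound (S : Sys ι q G γ) (l : List ι) (hl : l.Nodup) (hall : ∀ t, t ∈ l)
    (v : St ι q) (hv : inner ℂ S.Ω v = 0) :
    inner ℂ S.Ω (S.dl l v) = 0 ∧
      ((G : ℝ) ^ 2 + γ) * ‖S.dl l v‖ ^ 2 ≤ (G : ℝ) ^ 2 * ‖v‖ ^ 2 := by
  refine ⟨S.dlx_perp l v hv, ?_⟩
  obtain ⟨r, -, -, h2, h3⟩ := S.dlx_key l hl v
  have h4 := S.gap _ (S.dlx_perp l v hv)
  have hc : ∀ t, ((univ.filter fun t' => ¬ Disjoint (S.X t) (S.X t')).card : ℝ) ≤ G := fun t => by
    exact_mod_cast S.nbr t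
  have h5 : ∑ t, ‖S.p t (S.dl l v)‖ ^ 2 ≤
      ∑ t, (G : ℝ) * ∑ t' ∈ univ.filter fun t' => ¬ Disjoint (S.X t) (S.X t'), r t' ^ 2 :=
    sum_le_sum fun t _ => (pow_le_pow_left₀ (norm_nonneg _) (h3 t (hall t)) 2).trans
      (sq_sum_le_card_mul_sum_sq.trans
        (mul_le_mul_of_nonneg_right (hc t) (sum_nonneg fun _ _ => sq_nonneg _)))
  have h6 : ∑ t, ∑ t' ∈ univ.filter fun t' => ¬ Disjoint (S.X t) (S.X t'), r t' ^ 2 =
      ∑ t', ∑ _t ∈ univ.filter fun t => ¬ Disjoint (S.X t') (S.X t), r t' ^ 2 :=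
    sum_comm' fun t t' => by simp [disjoint_comm]
  have h7 : ∑ t', ∑ _t ∈ univ.filter fun t => ¬ Disjoint (S.X t') (S.X t), r t' ^ 2 ≤
      ∑ t', (G : ℝ) * r t' ^ 2 :=
    sum_le_sum fun t _ => by
      rw [sum_const, nsmul_eq_mul]
      exact mul_le_mul_of_nonneg_right (hc t) (sq_nonneg _)
  rw [← mul_sum, h6] at h5
  rw [← mul_sum, h2] at h7
  have h8 := mul_le_mul_of_nonneg_left h7 (Nat.cast_nonneg (α := ℝ) G)
  linarith

theorem dl_shr (G : ℕ) {γ : ℝ} (hγ : 0 < γ) : ∃ δ : ℝ, 0 ≤ δ ∧ δ < 1 ∧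
    ∀ (ι : Type) [Fintype ι] [DecidableEq ι] (q : ℕ) (S : Sys ι q G γ) (l : List ι),
      l.Nodup → (∀ t, t ∈ l) → Shr S.Ω (S.dl l) δ := by
  have h0 : 0 < (G : ℝ) ^ 2 + γ := by positivity
  refine ⟨√((G : ℝ) ^ 2 / ((G : ℝ) ^ 2 + γ)), Real.sqrt_nonneg _, ?_,
    fun ι _ _ q S l hl hall => ⟨S.dlx_fix l, fun v hv => ⟨S.dlx_perp l v hv, ?_⟩⟩⟩
  · rw [Real.sqrt_lt' one_pos, div_lt_iff₀ h0]
    linarith
  · refine le_of_sq_le_sq ?_ (by positivity)
    rw [mul_pow, Real.sq_sqrt (by positivity), div_mul_eq_mul_div, le_div_iff₀ h0, mul_comm]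
    exact (S.dl_bound l hl hall v hv).2

end Vale.Agent.P356
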