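import Vale.Agent.P356.Basic

/-!
Decomposition of a power by the first letter that occurs few times. Let letters be
`Option (Fin T)` (`X none = V`, `X (some a) = W a`). Define recursively
`WS 0 φ = φ 0 • 1`, `WS (e+1) φ = V * WS e φ + ∑ a, W a * WS e (fun n => φ (n + Pi.single a 1))`
for `φ : (Fin T → ℕ) → ℂ` (sum over words of length `e` weighted by `φ` of the letter counts).
By induction on `e`: `WS e` is linear in `φ`; it depends only on the values of `φ` at `n` with
`∑ n ≤ e`; `WS e 1 = (V + ∑ W)^e`; and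
`WS e (fun n => (∏_{b ≠ a} z b ^ n b) * if n a ≤ τ then 1 else 0) = TR (V + ∑_{b ≠ a} z b • W b) (W a) e τ`.
For `∑ n ≤ e < T (τ+1)` some `n a ≤ τ`, so `1 = ∑_a φ_a n` with
`φ_a n = [∀ b < a, τ < n b] [n a ≤ τ]`. By `interp` (Vandermonde) each factor `t_b (n b)`
(`[τ < n]` for `b < a`, `1` for `b > a`) equals `∑_k λ_b k * k ^ (n b)` for `n b ≤ e`; for `b = a`
use weights summing to one; expand the product with `Finset.prod_univ_sum`.
-/

namespace Vale.Agent.P356

open Finset

theorem interp (e : ℕ) (t : ℕ → ℂ) :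
    ∃ lam : Fin (e + 1) → ℂ, ∀ n ≤ e, ∑ k, lam k * ((k : ℕ) : ℂ) ^ n = t n := by
  have hd : (Matrix.vandermonde fun k : Fin (e + 1) => ((k : ℕ) : ℂ)).det ≠ 0 :=
    Matrix.det_vandermonde_ne_zero_iff.2 fun a b h => Fin.ext (Nat.cast_injective h)
  obtain ⟨lam, hl⟩ := (Matrix.vecMul_surjective_iff_isUnit.2
    ((Matrix.isUnit_iff_isUnit_det _).2 hd.isUnit)) fun n => t n
  refine ⟨lam, fun n hn => ?_⟩
  have := congrFun hl ⟨n, Nat.lt_succ_of_le hn⟩
  simpa [Matrix.vecMul, dotProduct] using this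

section

variable {𝒜 : Type} [Ring 𝒜] [Algebra ℂ 𝒜] {T : ℕ} (V : 𝒜) (W : Fin T → 𝒜)

/-- The sum over the words of length `e`, weighted by a function of the letter counts. -/
noncomputable def decWS : ℕ → ((Fin T → ℕ) → ℂ) →ₗ[ℂ] 𝒜
  | 0 => (LinearMap.proj 0).smulRight 1
  | e + 1 => LinearMap.mulLeft ℂ V ∘ₗ decWS e +
      ∑ a, LinearMap.mulLeft ℂ (W a) ∘ₗ decWS e ∘ₗ LinearMap.funLeft ℂ ℂ (· + Pi.single a 1)

theorem decWS_zero (φ : (Fin T → ℕ) → ℂ) : decWS V W 0 φ = φ 0 • 1 := rfl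

theorem decWS_succ (e : ℕ) (φ : (Fin T → ℕ) → ℂ) : decWS V W (e + 1) φ =
    V * decWS V W e φ + ∑ a, W a * decWS V W e fun n => φ (n + Pi.single a 1) := by
  rw [decWS, LinearMap.add_apply, LinearMap.sum_apply]
  rfl

theorem decWS_congr (e : ℕ) : ∀ φ ψ : (Fin T → ℕ) → ℂ, (∀ n, ∑ b, n b ≤ e → φ n = ψ n) →
    decWS V W e φ = decWS V W e ψ := by
  induction e with
  | zero => intro φ ψ h; rw [decWS_zero, decWS_zero, h 0 (by simp)]
  | succ e ih =>
    intro φ ψ h
    rw [decWS_succ, decWS_succ, ih φ ψ fun n hn => h n (hn.trans e.le_succ)]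
    refine congrArg _ (sum_congr rfl fun a _ => congrArg _ (ih _ _ fun n hn => h _ ?_))
    simpa [sum_add_distrib] using hn

theorem decWS_one (e : ℕ) : (decWS V W e fun _ => 1) = (V + ∑ a, W a) ^ e := by
  induction e with
  | zero => rw [decWS_zero, one_smul, pow_zero]
  | succ e ih => rw [decWS_succ, ih, pow_succ', add_mul, sum_mul]

/-- The weight of a truncated power. -/
noncomputable def decG (z : Fin T → ℂ) (a : Fin T) (τ : ℕ) (n : Fin T → ℕ) : ℂ :=
  (∏ b, z b ^ (if b = a then 0 else n b)) * if n a ≤ τ then 1 else 0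

theorem decG_ne (z : Fin T → ℂ) {a b : Fin T} (h : b ≠ a) (τ : ℕ) :
    (fun n => decG z a τ (n + Pi.single b 1)) = z b • decG z a τ := by
  funext n
  have e : ∀ c, z c ^ (if c = a then 0 else (n + Pi.single b 1 : Fin T → ℕ) c) =
      (if c = b then z b else 1) * z c ^ (if c = a then 0 else n c) := by
    intro c
    by_cases hc : c = b
    · subst hc
      simp [h, pow_succ']
    · simp [hc]
  rw [decG, prod_congr rfl fun c _ => e c]
  simp only [decG, prod_mul_distrib, prod_ite_eq', mem_univ, if_true, Pi.smul_apply,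
    smul_eq_mul, Pi.add_apply, Pi.single_eq_of_ne h.symm, add_zero, mul_assoc]

theorem decG_eq (z : Fin T → ℂ) (a : Fin T) (τ : ℕ) (n : Fin T → ℕ) :
    decG z a τ (n + Pi.single a 1) =
      (∏ b, z b ^ (if b = a then 0 else n b)) * if n a + 1 ≤ τ then 1 else 0 := by
  rw [decG, Pi.add_apply, Pi.single_eq_same]
  refine congrArg (· * _) (prod_congr rfl fun c _ => ?_)
  by_cases hc : c = a
  · simp [hc]
  · simp [hc]

theorem decWS_TR (z : Fin T → ℂ) (a : Fin T) (e : ℕ) : ∀ τ,
    decWS V W e (decG z a τ) = TR (V + ∑ b ∈ univ.erase a, z b • W b) (W a) e τ := by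
  induction e with
  | zero => intro τ; simp [decWS_zero, decG, TR]
  | succ e ih =>
    intro τ
    have h1 : ∑ b ∈ univ.erase a, W b * decWS V W e (fun n => decG z a τ (n + Pi.single b 1)) =
        (∑ b ∈ univ.erase a, z b • W b) * decWS V W e (decG z a τ) := by
      rw [sum_mul]
      refine sum_congr rfl fun b hb => ?_
      rw [decG_ne z (ne_of_mem_erase hb), map_smul, mul_smul_comm, smul_mul_assoc]
    rw [decWS_succ, ← sum_erase_add _ _ (mem_univ a), h1, ← add_assoc, ← add_mul, ih]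
    cases τ with
    | zero =>
      have h2 : (fun n : Fin T → ℕ => decG z a 0 (n + Pi.single a 1)) = 0 := by
        funext n
        rw [decG_eq, if_neg (by omega), mul_zero, Pi.zero_apply]
      rw [h2, map_zero, mul_zero, add_zero, TR]
    | succ τ =>
      have h2 : (fun n => decG z a (τ + 1) (n + Pi.single a 1)) = decG z a τ := by
        funext n
        simp only [decG_eq, Nat.add_le_add_iff_right]
        rfl
      rw [h2, ih, TR]

theorem dec_first {τ : ℕ} {n : Fin T → ℕ} (h : ∑ b, n b < T * (τ + 1)) :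
    ∑ a : Fin T, ((∏ b, if b < a then (if τ < (if b = a then 0 else n b) then (1 : ℂ) else 0) else 1) *
      if n a ≤ τ then 1 else 0) = 1 := by
  have hne : (univ.filter fun a => n a ≤ τ).Nonempty := by
    by_contra h0
    have h1 : ∀ a ∈ (univ : Finset (Fin T)), τ + 1 ≤ n a := fun a _ =>
      not_le.1 fun h2 => h0 ⟨a, mem_filter.2 ⟨mem_univ _, h2⟩⟩
    have h2 := card_nsmul_le_sum _ _ _ h1
    rw [card_univ, Fintype.card_fin, smul_eq_mul] at h2
    exact not_le.2 h h2
  obtain ⟨a, ha, hm⟩ := exists_min_image _ id hne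
  have ha' := (mem_filter.1 ha).2
  rw [sum_eq_single a, if_pos ha', mul_one]
  · refine prod_eq_one fun b _ => ?_
    by_cases hb : b < a
    · rw [if_pos hb, if_neg hb.ne, if_pos]
      exact not_le.1 fun h2 => not_le.2 hb (hm b (mem_filter.2 ⟨mem_univ _, h2⟩))
    · exact if_neg hb
  · intro b _ hb
    by_cases h2 : n b ≤ τ
    · have h3 : a < b := lt_of_le_of_ne (hm b (mem_filter.2 ⟨mem_univ _, h2⟩)) hb.symm
      rw [prod_eq_zero (mem_univ a), zero_mul]
      rw [if_pos h3, if_neg h3.ne, if_neg (not_lt.2 ha')]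
    · rw [if_neg h2, mul_zero]
  · exact fun h2 => absurd (mem_univ a) h2

end

theorem pow_decomp {𝒜 : Type} [Ring 𝒜] [Algebra ℂ 𝒜] {T : ℕ} (V : 𝒜) (W : Fin T → 𝒜)
    (e τ : ℕ) (h : e < T * (τ + 1)) :
    ∃ (c : Fin T → (Fin T → Fin (e + 1)) → ℂ) (z : Fin T → (Fin T → Fin (e + 1)) → Fin T → ℂ),
      (V + ∑ a, W a) ^ e =
        ∑ a, ∑ k, c a k • TR (V + ∑ b ∈ univ.erase a, z a k b • W b) (W a) e τ := by
  choose lam hl using fun a b : Fin T =>
    interp e fun m => if b < a then (if τ < m then (1 : ℂ) else 0) else 1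
  refine ⟨fun a k => ∏ b, lam a b (k b), fun _ k b => ((k b : ℕ) : ℂ), ?_⟩
  simp only [← decWS_TR, ← map_smul, ← map_sum]
  rw [← decWS_one]
  refine decWS_congr V W e _ _ fun n hn => ?_
  rw [← dec_first (hn.trans_lt h), Finset.sum_apply]
  refine sum_congr rfl fun a _ => ?_
  have h1 : ∀ b, (if b = a then 0 else n b) ≤ e := fun b => by
    split_ifs
    · exact e.zero_le
    · exact (single_le_sum (fun _ _ => Nat.zero_le _) (mem_univ b)).trans hn
  simp only [← fun b => hl a b _ (h1 b)]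
  rw [prod_univ_sum, Fintype.piFinset_univ, sum_mul, Finset.sum_apply]
  refine sum_congr rfl fun k _ => ?_
  rw [Pi.smul_apply, smul_eq_mul, decG, prod_mul_distrib, mul_assoc]

end Vale.Agent.P356
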