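import Vale.Agent.P356.Mass

/-!
Entropy from approximations. With `θ_u = 4^(-u) / (d exp (x u))` the mass below `θ_u` is at most
`2 · 4^(-u)`. Choose `U` with `θ_U` below every positive `lam i`. For `lam > 0` let `k` be the number
of `u < U` with `lam < θ_u`; as `θ` decreases, `lam ≥ θ_k`, so
`-log lam ≤ log d + k (x + log 4)`. Sum: `log d + (x + log 4) · 8/3`.
`final_numerics`: `m = n+1`, `b = Nat.sqrt (Nat.sqrt m)`, so `b^4 ≤ m < (2b)^4`,
`n/b+1 ≤ 2m/b`, `u₁ = Nat.clog 2 N` or `2 (Nat.log 2 m) + 4`, `log m ≤ 8 m^(1/8)`.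
-/

namespace Vale.Agent.P356

open Finset

variable {ι : Type} [Fintype ι] [DecidableEq ι] {q G : ℕ} {γ : ℝ}

theorem ent_point {θ : ℕ → ℝ} {a c y : ℝ} (hc : 0 ≤ c) (hθ : Antitone θ)
    (h : ∀ u : ℕ, θ u ≤ y → -Real.log y ≤ a + c * u) (U : ℕ) (hU : θ U ≤ y) :
    -Real.log y ≤ a + c * ∑ u ∈ range U, if y < θ u then (1 : ℝ) else 0 := by
  induction U with
  | zero => simpa using h 0 hU
  | succ U ih =>
    by_cases hy : θ U ≤ y
    · rw [sum_range_succ, if_neg (not_lt.2 hy), add_zero]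
      exact ih hy
    · rw [sum_congr rfl fun u hu => if_pos
        ((not_le.1 hy).trans_le (hθ (Nat.lt_succ_iff.1 (mem_range.1 hu))))]
      simpa using h _ hU

theorem ent_geom (U : ℕ) : ∑ u ∈ range U, (1 / 4 : ℝ) ^ u ≤ 4 / 3 - 4 / 3 * (1 / 4) ^ U := by
  induction U with
  | zero => simp
  | succ U ih =>
    rw [sum_range_succ, pow_succ]
    linarith

theorem ent_scalar {κ : Type} [Fintype κ] (lam : κ → ℝ) (h0 : ∀ i, 0 ≤ lam i)
    (h1 : ∑ i, lam i = 1) {d x : ℝ} (hd : 1 ≤ d) (hx : 0 ≤ x)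
    (h : ∀ (u : ℕ) (θ : ℝ), 0 ≤ θ → ∑ i ∈ univ.filter fun i => lam i < θ, lam i ≤
      θ * (d * Real.exp (x * u)) + (1 / 4) ^ u) :
    ∑ i, Real.negMulLog (lam i) ≤ Real.log d + 3 * x + 4 := by
  have hd0 : 0 < d := by linarith
  have hD : ∀ u : ℕ, 1 ≤ d * Real.exp (x * u) := fun u =>
    one_le_mul_of_one_le_of_one_le hd (Real.one_le_exp (by positivity))
  obtain ⟨θ, hθ⟩ : ∃ θ : ℕ → ℝ, ∀ u, θ u = (1 / 4) ^ u / (d * Real.exp (x * u)) :=
    ⟨_, fun _ => rfl⟩
  have hp : ∀ u, 0 < θ u := fun u => by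
    rw [hθ]
    positivity
  have hl4 : 0 ≤ Real.log 4 := Real.log_nonneg (by norm_num)
  have hl4' : Real.log 4 ≤ 3 / 2 := by
    rw [show (4 : ℝ) = 2 ^ 2 by norm_num, Real.log_pow]
    have := Real.log_two_lt_d9
    push_cast
    linarith
  have hlog : ∀ u, Real.log (θ u) = -(Real.log d + (x + Real.log 4) * u) := fun u => by
    rw [hθ, Real.log_div (by positivity) (by positivity), Real.log_pow,
      Real.log_mul hd0.ne' (Real.exp_pos _).ne', Real.log_exp, one_div, Real.log_inv]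
    ring
  have hanti : Antitone θ := fun u v huv => by
    refine (Real.log_le_log_iff (hp v) (hp u)).1 ?_
    rw [hlog, hlog]
    have : (u : ℝ) ≤ v := by exact_mod_cast huv
    nlinarith
  have hmass : ∀ u, ∑ i ∈ univ.filter fun i => lam i < θ u, lam i ≤ 2 * (1 / 4) ^ u := fun u => by
    have := h u (θ u) (hp u).le
    rw [hθ u, div_mul_cancel₀ _ (by positivity), ← hθ u] at this
    linarith
  obtain ⟨U, hU⟩ : ∃ U, ∀ i, 0 < lam i → θ U ≤ lam i := by
    refine Filter.Eventually.exists (f := Filter.atTop) (Filter.eventually_all.2 fun i => ?_)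
    by_cases hi : 0 < lam i
    · filter_upwards [(tendsto_pow_atTop_nhds_zero_of_lt_one (r := (1 / 4 : ℝ)) (by norm_num)
        (by norm_num)).eventually (ge_mem_nhds hi)] with u hu _
      rw [hθ]
      exact (div_le_self (by positivity) (hD u)).trans hu
    · exact Filter.Eventually.of_forall fun _ hh => absurd hh hi
  have hpt : ∀ i, Real.negMulLog (lam i) ≤ lam i * Real.log d +
      (x + Real.log 4) * ∑ u ∈ range U, if lam i < θ u then lam i else 0 := fun i => by
    rcases (h0 i).eq_or_lt with hi | hi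
    · simp [← hi]
    · have h2 := ent_point (a := Real.log d) (c := x + Real.log 4) (y := lam i) (by positivity)
        hanti (fun u hu => by
          have := Real.log_le_log (hp u) hu
          rw [hlog] at this
          linarith) U (hU i hi)
      have h3 : (∑ u ∈ range U, if lam i < θ u then lam i else 0) =
          lam i * ∑ u ∈ range U, if lam i < θ u then (1 : ℝ) else 0 := by
        rw [mul_sum]
        exact sum_congr rfl fun u _ => by split_ifs <;> simp
      rw [h3, Real.negMulLog]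
      nlinarith [mul_le_mul_of_nonneg_left h2 hi.le]
  refine (sum_le_sum fun i _ => hpt i).trans ?_
  rw [sum_add_distrib, ← sum_mul, h1, one_mul, ← mul_sum, sum_comm]
  have h4 : ∑ u ∈ range U, ∑ i, (if lam i < θ u then lam i else 0) ≤ 8 / 3 := by
    calc _ ≤ ∑ u ∈ range U, 2 * (1 / 4 : ℝ) ^ u :=
          sum_le_sum fun u _ => by rw [← sum_filter]; exact hmass u
      _ ≤ 8 / 3 := by
          rw [← mul_sum]
          have := ent_geom U
          have : (0 : ℝ) ≤ (1 / 4) ^ U := by positivity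
          linarith
  have h5 := mul_le_mul_of_nonneg_left h4 (add_nonneg hx hl4)
  linarith

theorem ent_le {Ω : St ι q} (hΩ : ‖Ω‖ = 1) (A : Finset ι) {d x : ℝ} (hd : 1 ≤ d) (hx : 0 ≤ x)
    (h : ∀ u : ℕ, Apx Ω A (d * Real.exp (x * u)) ((1 / 2) ^ u)) :
    entropy A Ω.ofLp ≤ Real.log d + 3 * x + 4 := by
  refine ent_scalar _ (red_eig_nonneg A _) (by rw [red_eig_sum, hΩ, one_pow]) hd hx
    fun u θ hθ => ?_
  obtain ⟨χ, h1, h2⟩ := h u
  refine (small_mass A Ω χ h1 hθ).trans (add_le_add le_rfl ?_)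
  calc ‖Ω - χ‖ ^ 2 ≤ ((1 / 2) ^ u) ^ 2 := pow_le_pow_left₀ (norm_nonneg _) h2 2
    _ = (1 / 4) ^ u := by
      rw [← pow_mul, mul_comm, pow_mul]
      norm_num

end Vale.Agent.P356
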