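import Vale.Agent.P356.Basic

/-!
Choice of the cell size. `m = n+1`, `b = Nat.sqrt (Nat.sqrt m) ≥ 1`, so `b^4 ≤ m < (2b)^4`,
`n/b+1 ≤ 2m/b`, `N = (n/b+1)^2 ≤ 4 m^2/b^2`; `u₁ = 2 (Nat.log 2 m) + 4`, `log m ≤ 8 m^(1/8)`
(`Real.log_le_rpow_div`). Then `N b^(2-γ') ≤ 8 m^(2-γ'/4)`, `N b ≤ 8 m^(7/4)`, `n b^2 ≤ m^(3/2)`.
-/

namespace Vale.Agent.P356

open Finset

theorem final_core {γ' C₀ β lq x b K n u : ℝ} (h0 : 0 < γ') (h1 : γ' ≤ 1) (hC : 0 ≤ C₀)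
    (hβ : 0 ≤ β) (hq : 0 ≤ lq) (hx : 1 ≤ x) (hb : 1 ≤ b) (hb1 : b ≤ x ^ 2) (hb2 : x ^ 2 ≤ 2 * b)
    (hK0 : 0 ≤ K) (hK : K * b ≤ 2 * x ^ 8) (hn : n ≤ x ^ 8) (hu0 : 0 ≤ u) (hu : u ≤ 32 * x) :
    K ^ 2 * (C₀ * b ^ (2 - γ') + β * b * (u + 2)) + n * b ^ 2 * lq + 3 * (K ^ 2 * (β * b)) + 4 ≤
      (8 * C₀ + 296 * β + lq + 4) * x ^ (16 - γ') := by
  have hx0 : 0 < x := one_pos.trans_le hx
  have hb0 : 0 < b := one_pos.trans_le hb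
  have hy : x ^ 15 ≤ x ^ (16 - γ') := by
    rw [← Real.rpow_natCast]
    exact Real.rpow_le_rpow_of_exponent_le hx (by push_cast; linarith)
  have hKb : (K * b) ^ 2 ≤ 4 * x ^ 16 := by
    calc (K * b) ^ 2 ≤ (2 * x ^ 8) ^ 2 := pow_le_pow_left₀ (by positivity) hK 2
      _ = 4 * x ^ 16 := by ring
  have hK2 : K ^ 2 * b ≤ 8 * x ^ 14 := by
    refine le_of_mul_le_mul_right ?_ (by positivity : 0 < x ^ 2)
    calc K ^ 2 * b * x ^ 2 ≤ K ^ 2 * b * (2 * b) := by gcongr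
      _ = 2 * (K * b) ^ 2 := by ring
      _ ≤ 2 * (4 * x ^ 16) := by gcongr
      _ = 8 * x ^ 14 * x ^ 2 := by ring
  have hxb : x ^ γ' ≤ 2 * b ^ γ' := by
    have h2 : x ≤ 2 * b := le_trans (by nlinarith) hb2
    calc x ^ γ' ≤ (2 * b) ^ γ' := Real.rpow_le_rpow hx0.le h2 h0.le
      _ = 2 ^ γ' * b ^ γ' := Real.mul_rpow (by norm_num) hb0.le
      _ ≤ 2 ^ (1 : ℝ) * b ^ γ' := by
          gcongr
          norm_num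
      _ = 2 * b ^ γ' := by rw [Real.rpow_one]
  have t1 : K ^ 2 * b ^ (2 - γ') ≤ 8 * x ^ (16 - γ') := by
    have hxg : 0 < x ^ γ' := Real.rpow_pos_of_pos hx0 _
    have hbg : 0 < b ^ γ' := Real.rpow_pos_of_pos hb0 _
    have e16 : x ^ (16 : ℝ) = x ^ 16 := by exact_mod_cast Real.rpow_natCast x 16
    rw [Real.rpow_sub hb0, Real.rpow_sub hx0, Real.rpow_two, e16, ← mul_div_assoc, ← mul_div_assoc,
      div_le_div_iff₀ hbg hxg]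
    calc K ^ 2 * b ^ 2 * x ^ γ' = (K * b) ^ 2 * x ^ γ' := by ring
      _ ≤ 4 * x ^ 16 * (2 * b ^ γ') := by gcongr
      _ = 8 * x ^ 16 * b ^ γ' := by ring
  have t2 : K ^ 2 * b * (u + 2) ≤ 272 * x ^ 15 := by
    calc K ^ 2 * b * (u + 2) ≤ 8 * x ^ 14 * (34 * x) := by
          gcongr
          linarith
      _ = 272 * x ^ 15 := by ring
  have t3 : n * b ^ 2 ≤ x ^ 15 := by
    calc n * b ^ 2 ≤ x ^ 8 * (x ^ 2) ^ 2 := by gcongr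
      _ = x ^ 12 := by ring
      _ ≤ x ^ 15 := pow_le_pow_right₀ hx (by norm_num)
  have t4 : K ^ 2 * b ≤ 8 * x ^ 15 :=
    hK2.trans (mul_le_mul_of_nonneg_left (pow_le_pow_right₀ hx (by norm_num)) (by norm_num))
  have t5 : 1 ≤ x ^ 15 := one_le_pow₀ hx
  obtain ⟨y, hy'⟩ : ∃ y, y = x ^ (16 - γ') := ⟨_, rfl⟩
  rw [← hy'] at hy t1 ⊢
  have s1 := mul_le_mul_of_nonneg_left t1 hC
  have s2 := mul_le_mul_of_nonneg_left (t2.trans (by linarith : 272 * x ^ 15 ≤ 272 * y)) hβ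
  have s3 := mul_le_mul_of_nonneg_left (t3.trans hy) hq
  have s4 := mul_le_mul_of_nonneg_left (t4.trans (by linarith : 8 * x ^ 15 ≤ 8 * y)) hβ
  linarith

theorem final_numerics {γ' C₀ β lq : ℝ} (h0 : 0 < γ') (h1 : γ' ≤ 1) (hC : 0 ≤ C₀) (hβ : 0 ≤ β)
    (hq : 0 ≤ lq) : ∃ C : ℝ, ∀ n : ℕ, ∃ b u₁ : ℕ, 1 ≤ b ∧ (n / b + 1) ^ 2 ≤ 2 ^ u₁ ∧
      (((n / b + 1) ^ 2 : ℕ) : ℝ) * (C₀ * (b : ℝ) ^ (2 - γ') + β * b * (u₁ + 2))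
        + ((n * b ^ 2 : ℕ) : ℝ) * lq + 3 * ((((n / b + 1) ^ 2 : ℕ) : ℝ) * (β * b)) + 4 ≤
        C * ((n : ℝ) + 1) ^ (2 - γ' / 8) := by
  refine ⟨8 * C₀ + 296 * β + lq + 4, fun n => ?_⟩
  obtain ⟨b, hb⟩ : ∃ b, b = Nat.sqrt (Nat.sqrt (n + 1)) := ⟨_, rfl⟩
  have hb1 : 1 ≤ b := by
    rw [hb]
    exact Nat.sqrt_pos.2 (Nat.sqrt_pos.2 (Nat.succ_pos n))
  have hb4 : b ^ 4 ≤ n + 1 := by
    have e1 : b ^ 2 ≤ Nat.sqrt (n + 1) := by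
      rw [hb]
      exact Nat.sqrt_le' _
    calc b ^ 4 = (b ^ 2) ^ 2 := by ring
      _ ≤ Nat.sqrt (n + 1) ^ 2 := Nat.pow_le_pow_left e1 2
      _ ≤ n + 1 := Nat.sqrt_le' _
  have hb5 : n + 1 ≤ (2 * b) ^ 4 := by
    have e1 : Nat.sqrt (n + 1) + 1 ≤ (b + 1) ^ 2 := by
      rw [hb]
      exact Nat.lt_succ_sqrt' _
    calc n + 1 ≤ (Nat.sqrt (n + 1) + 1) ^ 2 := (Nat.lt_succ_sqrt' _).le
      _ ≤ ((b + 1) ^ 2) ^ 2 := Nat.pow_le_pow_left e1 2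
      _ = (b + 1) ^ 4 := by ring
      _ ≤ (2 * b) ^ 4 := Nat.pow_le_pow_left (by omega) 4
  have hm : (1 : ℝ) ≤ (n : ℝ) + 1 := le_add_of_nonneg_left (Nat.cast_nonneg n)
  obtain ⟨x, hx1, hx8⟩ : ∃ x : ℝ, 1 ≤ x ∧ x ^ 8 = (n : ℝ) + 1 :=
    ⟨((n : ℝ) + 1) ^ (((8 : ℕ) : ℝ)⁻¹), Real.one_le_rpow hm (by positivity),
      Real.rpow_inv_natCast_pow (by positivity) (by norm_num)⟩
  have hx0 : 0 < x := one_pos.trans_le hx1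
  have hc : (⌈x⌉₊ : ℝ) ≤ 2 * x := by linarith [(Nat.ceil_lt_add_one hx0.le).le]
  have hKb : (n / b + 1) * b ≤ 2 * (n + 1) := by
    have e1 := Nat.div_mul_le_self n b
    have e2 : b ≤ b ^ 4 := Nat.le_self_pow (by norm_num) b
    rw [add_mul]
    omega
  refine ⟨b, 16 * ⌈x⌉₊, hb1, ?_, ?_⟩
  · have e1 : n + 1 ≤ ⌈x⌉₊ ^ 8 := by
      have : (n : ℝ) + 1 ≤ (⌈x⌉₊ : ℝ) ^ 8 := by
        rw [← hx8]
        exact pow_le_pow_left₀ hx0.le (Nat.le_ceil x) 8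
      exact_mod_cast this
    calc (n / b + 1) ^ 2 ≤ (n + 1) ^ 2 :=
          Nat.pow_le_pow_left (Nat.succ_le_succ (Nat.div_le_self n b)) 2
      _ ≤ (⌈x⌉₊ ^ 8) ^ 2 := Nat.pow_le_pow_left e1 2
      _ ≤ ((2 ^ ⌈x⌉₊) ^ 8) ^ 2 :=
          Nat.pow_le_pow_left (Nat.pow_le_pow_left (Nat.lt_two_pow_self).le 8) 2
      _ = 2 ^ (16 * ⌈x⌉₊) := by ring
  · have e1 : ((n : ℝ) + 1) ^ (2 - γ' / 8) = x ^ (16 - γ') := by
      rw [← hx8, ← Real.rpow_natCast, ← Real.rpow_mul hx0.le]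
      refine congrArg (x ^ ·) ?_
      push_cast
      ring
    have e2 : (b : ℝ) ≤ x ^ 2 := by
      refine le_of_pow_le_pow_left₀ (n := 4) (by norm_num) (by positivity) ?_
      rw [← pow_mul, hx8]
      exact_mod_cast hb4
    have e3 : x ^ 2 ≤ 2 * (b : ℝ) := by
      refine le_of_pow_le_pow_left₀ (n := 4) (by norm_num) (by positivity) ?_
      rw [← pow_mul, hx8]
      exact_mod_cast hb5
    have h := final_core (K := ((n / b + 1 : ℕ) : ℝ)) (n := n) (u := ((16 * ⌈x⌉₊ : ℕ) : ℝ)) h0 h1 hC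
      hβ hq hx1 (by exact_mod_cast hb1) e2 e3 (Nat.cast_nonneg _)
      (by rw [hx8]; exact_mod_cast hKb) (by linarith) (Nat.cast_nonneg _)
      (by push_cast; linarith)
    rw [e1, Nat.cast_pow, Nat.cast_mul n, Nat.cast_pow]
    exact h

end Vale.Agent.P356
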