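import Vale.Agent.P356.Proj
import Vale.Agent.P356.Geo

/-!
From the Hamiltonian to a system of projectors. Let `T = Matrix.toEuclideanLin`, `G = (4R+1)^2`.
`ActsOn.loc`: fix a default configuration `d₀` (or the space is trivial); kernel
`fun σ τ => if τ = X.piecewise τ d₀ then m (σ|X) (τ|X) else 0`.
`reduce`: choose `e X` from frustration-freeness and an anchor `an X ∈ X` for the `X` with
`h X ≠ 0`; `A x = ∑_{X, h X ≠ 0, an X = x} (T (h X) - e X)` is symmetric, `Loc (ball R x)`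
(`X ⊆ ball R x`), positive, kills `Ω`, and its form is at most `2 J 2^G ‖v‖^2` (at most `2^G`
subsets of the ball, `|e X| ≤ J` since `‖Ω‖ = 1`). If `h X = 0` then `e X = 0`. `E₀ = ∑ e X`, so
`H - E₀ = ∑ A x`; for `v ⊥ Ω`, `Δ ‖v‖^2 ≤ ∑ re ⟨v, A x v⟩ ≤ 2 J 2^G ∑ ‖p x v‖^2` with `p x` from
`exists_proj`. So `γ = Δ / (2 J 2^G)`.
-/

namespace Vale.Agent.P356

open Finset

variable {L q : ℕ}

theorem ActsOn.loc {X : Finset (Site L)} {M : Matrix (Conf L q) (Conf L q) ℂ}
    (h : ActsOn X M) : Loc X (Matrix.toEuclideanLin M) := by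
  classical
  rcases isEmpty_or_nonempty (Conf L q) with h0 | ⟨⟨d⟩⟩
  · exact loc1_empty X _
  obtain ⟨m, hm⟩ := h
  refine ⟨fun σ τ => if τ = X.piecewise τ d then m (fun x => σ x) (fun x => τ x) else 0,
    fun τ σ σ' hσ => ?_, loc1_ext fun ψ σ => ?_⟩
  · have e : (fun x : X => σ x) = fun x : X => σ' x := funext fun x => hσ x x.2
    simp only [e]
  · have e : Matrix.toEuclideanLin M ψ σ = ∑ τ, M σ τ * ψ τ := rfl
    rw [e, kop_apply]
    simp only [hm, ite_mul, zero_mul]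
    rw [← Finset.sum_filter, ← Finset.sum_filter]
    refine Finset.sum_nbij' (fun τ => X.piecewise τ d) (fun τ => X.piecewise τ σ)
      (fun τ _ => ?_) (fun τ _ => ?_) (fun τ hτ => ?_) (fun τ hτ => ?_) fun τ hτ => ?_
    · refine Finset.mem_filter.2 ⟨Finset.mem_univ _, funext fun x => ?_⟩
      by_cases hx : x ∈ X <;> simp [hx]
    · refine Finset.mem_filter.2 ⟨Finset.mem_univ _, fun x hx => ?_⟩
      simp [hx]
    · have h1 := (Finset.mem_filter.1 hτ).2
      funext x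
      by_cases hx : x ∈ X
      · simp [hx]
      · simp [hx, h1 x hx]
    · have h1 := (Finset.mem_filter.1 hτ).2
      funext x
      by_cases hx : x ∈ X
      · simp [hx]
      · rw [h1]
        simp [hx]
    · have h1 := (Finset.mem_filter.1 hτ).2
      have e1 : (fun x : X => X.piecewise τ d x) = fun x : X => τ x :=
        funext fun x => Finset.piecewise_eq_of_mem _ _ _ x.2
      have e2 : X.piecewise (X.piecewise τ d) σ = τ := by
        funext x
        by_cases hx : x ∈ X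
        · simp [hx]
        · simp [hx, h1 x hx]
      simp only [e1, e2]

theorem red_form {n : Type} [Fintype n] [DecidableEq n] {M : Matrix n n ℂ} {J : ℝ}
    (h : ‖Matrix.toEuclideanCLM (n := n) (𝕜 := ℂ) M‖ ≤ J) (v : EuclideanSpace ℂ n) :
    |(inner ℂ v (Matrix.toEuclideanLin M v)).re| ≤ J * ‖v‖ ^ 2 := by
  have h1 : ‖Matrix.toEuclideanLin M v‖ ≤ J * ‖v‖ :=
    (Matrix.toEuclideanCLM (n := n) (𝕜 := ℂ) M).le_of_opNorm_le h v
  refine (Complex.abs_re_le_norm _).trans ((norm_inner_le_norm _ _).trans ?_)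
  refine (mul_le_mul_of_nonneg_left h1 (norm_nonneg _)).trans (le_of_eq ?_)
  ring

theorem red_sub {n : Type} [Fintype n] (T : Module.End ℂ (EuclideanSpace ℂ n)) (e : ℝ)
    (v : EuclideanSpace ℂ n) :
    (inner ℂ v ((T - (e : ℂ) • (1 : Module.End ℂ (EuclideanSpace ℂ n))) v)).re =
      (inner ℂ v (T v)).re - e * ‖v‖ ^ 2 := by
  rw [LinearMap.sub_apply, LinearMap.smul_apply, Module.End.one_apply, inner_sub_right,
    inner_smul_right, Complex.sub_re, Complex.re_ofReal_mul, ← inner_self_eq_norm_sq (𝕜 := ℂ)]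
  rfl

open scoped ComplexOrder in
theorem red_gap {n : Type} [Fintype n] [DecidableEq n] {H : Matrix n n ℂ} {E Δ : ℝ} {Ω : n → ℂ}
    (h : (H - (E : ℂ) • (1 : Matrix n n ℂ)
      - (Δ : ℂ) • (1 - Matrix.vecMulVec Ω (star Ω))).PosSemidef) (v : EuclideanSpace ℂ n)
    (hv : inner ℂ (WithLp.toLp 2 Ω) v = 0) :
    Δ * ‖v‖ ^ 2 ≤ (inner ℂ v (Matrix.toEuclideanLin H v)).re - E * ‖v‖ ^ 2 := by
  have h1 := (Matrix.isPositive_toEuclideanLin_iff.2 h).re_inner_nonneg_right v
  have h2 : Matrix.toEuclideanLin (Matrix.vecMulVec Ω (star Ω)) v = 0 := by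
    rw [EuclideanSpace.inner_eq_star_dotProduct, dotProduct_comm] at hv
    rw [Matrix.toLpLin_apply, Matrix.vecMulVec_mulVec, hv]
    simp
  have h3 : Matrix.toEuclideanLin (H - (E : ℂ) • (1 : Matrix n n ℂ)
      - (Δ : ℂ) • (1 - Matrix.vecMulVec Ω (star Ω))) v =
      (Matrix.toEuclideanLin H - ((E + Δ : ℝ) : ℂ) • (1 : Module.End ℂ (EuclideanSpace ℂ n))) v := by
    simp only [map_sub, map_smul, Matrix.toLpLin_one, LinearMap.sub_apply, LinearMap.smul_apply,
      h2, LinearMap.id_apply, Module.End.one_apply, sub_zero]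
    rw [Complex.ofReal_add, add_smul, sub_sub]
  rw [h3] at h1
  have h4 := red_sub (Matrix.toEuclideanLin H) (E + Δ) v
  have h5 := h1.trans_eq h4
  linarith

theorem red_cover {α : Type} [Fintype α] [DecidableEq α] (b : α → Finset α) (f : Finset α → ℝ)
    (h0 : ∀ X, 0 ≤ f X) (h : ∀ X, f X ≠ 0 → ∃ x, X ⊆ b x) :
    ∑ X, f X ≤ ∑ x, ∑ X ∈ (b x).powerset, f X := by
  have e : ∀ x, ∑ X ∈ (b x).powerset, f X = ∑ X, if X ⊆ b x then f X else 0 := fun x => by
    rw [← Finset.sum_filter]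
    exact Finset.sum_congr (by ext X; simp) fun _ _ => rfl
  simp only [e]
  rw [Finset.sum_comm]
  have h1 : ∀ X x, 0 ≤ if X ⊆ b x then f X else 0 := fun X x => by
    split_ifs
    · exact h0 X
    · exact le_rfl
  refine Finset.sum_le_sum fun X _ => ?_
  by_cases hX : f X = 0
  · exact hX.trans_le (Finset.sum_nonneg fun x _ => h1 X x)
  · obtain ⟨x, hx⟩ := h X hX
    have h2 := Finset.single_le_sum (f := fun x => if X ⊆ b x then f X else 0)
      (fun x _ => h1 X x) (Finset.mem_univ x)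
    rwa [if_pos hx] at h2

theorem reduce (q R : ℕ) (hq : 1 ≤ q) {J Δ : ℝ} (hJ : 0 < J) (hΔ : 0 < Δ) : ∃ γ : ℝ, 0 < γ ∧
    ∀ (L : ℕ) (h : Finset (Site L) → Matrix (Conf L q) (Conf L q) ℂ) (Ω : Conf L q → ℂ),
      Admissible R J h → GappedGround (∑ X, h X) Δ Ω → FrustrationFree h Ω →
      ∃ S : Sys (Site L) q ((4 * R + 1) ^ 2) γ,
        (∀ t, S.X t = ball R t) ∧ S.Ω = WithLp.toLp 2 Ω := by
  classical
  have hc : (0 : ℝ) < 2 ^ ((4 * R + 1) ^ 2) * (2 * J) := by positivity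
  refine ⟨Δ / (2 ^ ((4 * R + 1) ^ 2) * (2 * J)), div_pos hΔ hc, ?_⟩
  rintro L h Ω hadm ⟨hu, E₀, hE, hgap⟩ hff
  choose e he hpos using hff
  obtain ⟨w, hw⟩ : ∃ w : St (Site L) q, w = WithLp.toLp 2 Ω := ⟨_, rfl⟩
  have hww : inner ℂ w w = 1 := by
    rw [hw, EuclideanSpace.inner_toLp_toLp, dotProduct_comm, hu]
  have hw1 : ‖w‖ = 1 := by
    have h1 : ‖w‖ ^ 2 = 1 := by
      rw [← inner_self_eq_norm_sq (𝕜 := ℂ), hww]
      rfl
    exact (pow_eq_one_iff_of_nonneg (norm_nonneg _) two_ne_zero).1 h1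
  let T : Finset (Site L) → Op (Site L) q := fun X => Matrix.toEuclideanLin (h X)
  let B : Finset (Site L) → Op (Site L) q := fun X => T X - (e X : ℂ) • 1
  have hT : ∀ X, T X w = (e X : ℂ) • w := fun X => by
    rw [hw]
    exact congrArg (WithLp.toLp 2) (he X)
  have hBpos : ∀ X, (B X).IsPositive := fun X => by
    have h1 := Matrix.isPositive_toEuclideanLin_iff.2 (hpos X)
    rwa [map_sub, map_smul, Matrix.toLpLin_one] at h1
  have hBw : ∀ X, B X w = 0 := fun X => by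
    simp only [B, LinearMap.sub_apply, LinearMap.smul_apply, Module.End.one_apply, hT, sub_self]
  have hTn : ∀ X v, |(inner ℂ v (T X v)).re| ≤ J * ‖v‖ ^ 2 := fun X v =>
    red_form (hadm X).2.2.1 v
  have he' : ∀ X, |e X| ≤ J := fun X => by
    have h1 := hTn X w
    rw [hT, inner_smul_right, hww, hw1] at h1
    simpa using h1
  have hBf : ∀ X v, (inner ℂ v (B X v)).re = (inner ℂ v (T X v)).re - e X * ‖v‖ ^ 2 :=
    fun X v => red_sub _ _ _
  have hBc : ∀ X v, (inner ℂ v (B X v)).re ≤ 2 * J * ‖v‖ ^ 2 := fun X v => by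
    have h1 := (abs_le.1 (hTn X v)).2
    have h2 := mul_le_mul_of_nonneg_right (abs_le.1 (he' X)).1 (sq_nonneg ‖v‖)
    rw [hBf]
    linarith
  have hB0 : ∀ X, h X = 0 → B X = 0 := fun X hX => by
    have h1 : T X = 0 := by simp only [T, hX, map_zero]
    have h2 := congrArg (inner ℂ w) (hT X)
    rw [h1, LinearMap.zero_apply, inner_zero_right, inner_smul_right, hww, mul_one] at h2
    simp only [B, h1, ← h2, zero_smul, sub_zero]
  let A : Site L → Op (Site L) q := fun x => ∑ X ∈ (ball R x).powerset, B X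
  have hAf : ∀ x v, (inner ℂ v (A x v)).re =
      ∑ X ∈ (ball R x).powerset, (inner ℂ v (B X v)).re := fun x v => by
    simp only [A]
    rw [LinearMap.sum_apply, inner_sum, Complex.re_sum]
  have hB1 : ∀ X v, 0 ≤ (inner ℂ v (B X v)).re := fun X v => (hBpos X).re_inner_nonneg_right v
  have hP : ∀ x, ∃ P : Op (Site L) q, P.IsSymmetric ∧ P * P = P ∧ Loc (ball R x) P ∧
      (∀ v, A x v = 0 → P v = 0) ∧
      ∀ v, (inner ℂ v (A x v)).re ≤ 2 ^ ((4 * R + 1) ^ 2) * (2 * J) * ‖P v‖ ^ 2 := fun x => by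
    refine exists_proj (LinearMap.isSymmetric_sum _ fun X _ => (hBpos X).isSymmetric)
      (Loc.sum _ fun X hX => ?_) (fun v => ?_) fun v => ?_
    · exact (((hadm X).2.1.loc).mono (Finset.mem_powerset.1 hX)).sub ((Loc.one _).smul _)
    · rw [hAf]
      exact Finset.sum_nonneg fun X _ => hB1 X v
    · rw [hAf]
      refine (Finset.sum_le_card_nsmul _ _ _ fun X _ => hBc X v).trans ?_
      rw [nsmul_eq_mul, Finset.card_powerset, mul_assoc (2 ^ _ : ℝ)]
      refine mul_le_mul_of_nonneg_right ?_ (by positivity)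
      exact_mod_cast Nat.pow_le_pow_right two_pos (ball_card R x)
  choose p hp1 hp2 hp3 hp4 hp5 using hP
  obtain ⟨clr, hc1, hc2⟩ := exists_colour L R
  have hE0 : E₀ = ∑ X, e X := by
    have h1 : Matrix.toEuclideanLin (∑ X, h X) w = (E₀ : ℂ) • w := by
      rw [hw]
      exact congrArg (WithLp.toLp 2) hE
    rw [map_sum, LinearMap.sum_apply, Finset.sum_congr rfl fun X _ => hT X,
      ← Finset.sum_smul] at h1
    have h2 := congrArg (inner ℂ w) h1
    rw [inner_smul_right, inner_smul_right, hww, mul_one, mul_one] at h2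
    exact_mod_cast h2.symm
  refine ⟨⟨p, ball R, clr, w, hq, hp1, hp2, hp3, ball_card R, ball_nbr R, hc1, hc2, hw1,
    fun t => hp4 t w ?_, fun v hv => ?_⟩, fun _ => rfl, hw⟩
  · simp only [A]
    rw [LinearMap.sum_apply]
    exact Finset.sum_eq_zero fun X _ => hBw X
  · have h1 : Δ * ‖v‖ ^ 2 ≤ ∑ X, (inner ℂ v (B X v)).re := by
      have h2 := red_gap hgap v (hw ▸ hv)
      rw [map_sum, LinearMap.sum_apply, inner_sum, Complex.re_sum, hE0, Finset.sum_mul,
        ← Finset.sum_sub_distrib] at h2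
      exact h2.trans (le_of_eq (Finset.sum_congr rfl fun X _ => (hBf X v).symm))
    have h3 : ∑ X, (inner ℂ v (B X v)).re ≤ ∑ x, (inner ℂ v (A x v)).re := by
      simp only [hAf]
      refine red_cover (ball R) _ (fun X => hB1 X v) fun X hX => ?_
      have h4 : h X ≠ 0 := fun h5 => hX (by rw [hB0 X h5]; simp)
      obtain ⟨⟨x, hx⟩, h6⟩ := (hadm X).2.2.2 h4
      refine ⟨x, fun y hy => ?_⟩
      have h7 := h6 x hx y hy
      unfold dist1 at h7
      exact Finset.mem_filter.2 ⟨Finset.mem_univ _, by omega, by omega⟩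
    have h8 := Finset.sum_le_sum fun x (_ : x ∈ univ) => hp5 x v
    rw [← Finset.mul_sum] at h8
    rw [div_mul_eq_mul_div, div_le_iff₀ hc, mul_comm (∑ t, _)]
    exact h1.trans (h3.trans h8)

end Vale.Agent.P356
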