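import Vale.Agent.P356.Rect
import Vale.Agent.P356.Cells
import Vale.Agent.P356.Entropy
import Vale.Agent.P356.Numer2
import Vale.Agent.P356.Reduce

/-!
`sys_bound`: take `γ', C` from `rect`, `B` from `boost`, `W = 2R+1`, `C₀ = C log 2`,
`β = log B · 4 W (1+W)`, `lq = log q`, and `b, u₁` from `final_numerics` for `n = bdry A`,
`N = (n/b+1)^2`. For each `u`: `Small.boost` at precision `u + u₁` gives tiles of rank at most
`exp (C₀ b^(2-γ') + β b (u₁+2) + β b u)`; `apx_region` gives rank `d exp (x u)` with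
`d = exp (N (C₀ b^(2-γ') + β b (u₁+2)) + n b^2 lq)`, `x = N β b`, error `N 2^(-u-u₁) ≤ 2^(-u)`;
`ent_le`.
-/

namespace Vale.Agent.P356

open Finset

theorem sys_bound (q R G : ℕ) {γ : ℝ} (hγ : 0 < γ) : ∃ γ' C : ℝ, 0 < γ' ∧
    ∀ (L : ℕ) (S : Sys (Site L) q G γ), (∀ t, S.X t = ball R t) → ∀ A : Finset (Site L),
      entropy A S.Ω.ofLp ≤ C * ((bdry A : ℝ) + 1) ^ (2 - γ') := by
  obtain ⟨γ', C, h0, h1, hC, hrect⟩ := rect q R G hγ
  obtain ⟨B, hB, hboost⟩ := boost q G hγ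
  have hlB : 0 ≤ Real.log B := Real.log_nonneg hB
  have hl2 : 0 ≤ Real.log 2 := Real.log_nonneg (by norm_num)
  set β : ℝ := Real.log B * ((4 * (2 * R + 1) * (1 + (2 * R + 1)) : ℕ) : ℝ) with hβ
  have hβ0 : 0 ≤ β := by positivity
  have hC0 : 0 ≤ C * Real.log 2 := by positivity
  have hlq : 0 ≤ Real.log q := Real.log_natCast_nonneg q
  obtain ⟨C', hC'⟩ := final_numerics h0 h1 hC0 hβ0 hlq
  refine ⟨γ' / 8, C', by positivity, fun L S hS A => ?_⟩
  obtain ⟨b, u₁, hb, hN, hfin⟩ := hC' (bdry A)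
  set N : ℕ := (bdry A / b + 1) ^ 2 with hNdef
  set a : ℝ := C * Real.log 2 * (b : ℝ) ^ (2 - γ') + β * b * (u₁ + 2) with ha
  have ha0 : 0 ≤ a := by positivity
  have hq0 : (0 : ℝ) < q := by exact_mod_cast S.qpos
  set e : ℝ := (N : ℝ) * a + ((bdry A * b ^ 2 : ℕ) : ℝ) * Real.log q with he
  have he0 : 0 ≤ e := by positivity
  have key := ent_le S.unit A (d := Real.exp e) (x := (N : ℝ) * (β * b)) (Real.one_le_exp he0)
    (by positivity) fun u => ?_
  · rw [Real.log_exp] at key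
    exact key.trans hfin
  have h2 := Small.boost S hS hB (hboost _ S) (hrect L S hS b hb) (u + u₁)
  have h3 : Small S.Ω b (Real.exp (a + β * b * u)) ((1 / 2) ^ (u + u₁)) := by
    intro x0 x1 y0 y1 hx hy
    refine (h2 x0 x1 y0 y1 hx hy).mono ?_ le_rfl
    have hB0 : 0 < B := by linarith
    rw [Real.rpow_def_of_pos (by norm_num), ← Real.rpow_natCast, Real.rpow_def_of_pos hB0,
      ← Real.exp_add]
    apply Real.exp_le_exp.2
    have h4 : 4 * (2 * R + 1) * (b + (2 * R + 1)) * (u + u₁ + 2) ≤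
        4 * (2 * R + 1) * (1 + (2 * R + 1)) * b * (u + u₁ + 2) := by
      apply Nat.mul_le_mul_right
      rw [mul_assoc (4 * (2 * R + 1))]
      apply Nat.mul_le_mul_left
      nlinarith
    have h5 : ((4 * (2 * R + 1) * (b + (2 * R + 1)) * (u + u₁ + 2) : ℕ) : ℝ) ≤
        ((4 * (2 * R + 1) * (1 + (2 * R + 1)) : ℕ) : ℝ) * b * (u + u₁ + 2) := by
      exact_mod_cast h4
    have h6 := mul_le_mul_of_nonneg_left h5 hlB
    have h7 : Real.log B * (((4 * (2 * R + 1) * (1 + (2 * R + 1)) : ℕ) : ℝ) * b * (u + u₁ + 2)) =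
        β * b * (u₁ + 2) + β * b * u := by rw [hβ]; ring
    rw [ha]
    linarith
  have h8 := apx_region S.qpos hb (Real.one_le_exp (by positivity)) (by positivity) h3 A
  refine h8.mono (le_of_eq ?_) ?_
  · rw [← hNdef, ← Real.exp_nat_mul, ← Real.exp_add]
    nth_rewrite 1 [← Real.exp_log hq0]
    rw [← Real.exp_nat_mul, ← Real.exp_add, he]
    exact congrArg Real.exp (by ring)
  · rw [← hNdef, pow_add]
    have h9 : (N : ℝ) ≤ 2 ^ u₁ := by exact_mod_cast hN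
    have h10 : (N : ℝ) * (1 / 2) ^ u₁ ≤ 1 := by
      rw [one_div, inv_pow, ← div_eq_mul_inv]
      exact div_le_one_of_le₀ h9 (by positivity)
    calc (N : ℝ) * ((1 / 2) ^ u * (1 / 2) ^ u₁) = (1 / 2) ^ u * ((N : ℝ) * (1 / 2) ^ u₁) := by ring
      _ ≤ (1 / 2) ^ u * 1 := mul_le_mul_of_nonneg_left h10 (by positivity)
      _ = _ := mul_one _

theorem main (q R : ℕ) (hq : 2 ≤ q) (J Δ : ℝ) (hJ : 0 < J) (hΔ : 0 < Δ) :
    ∃ γ C : ℝ, 0 < γ ∧ ∀ (L : ℕ), 2 ≤ L →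
      ∀ (h : Finset (Site L) → Matrix (Conf L q) (Conf L q) ℂ) (Ω : Conf L q → ℂ),
        Admissible R J h → GappedGround (∑ X, h X) Δ Ω → FrustrationFree h Ω →
        ∀ A : Finset (Site L), entropy A Ω ≤ C * ((bdry A : ℝ) + 1) ^ (2 - γ) := by
  obtain ⟨γ, hγ, hred⟩ := reduce q R (by omega) hJ hΔ
  obtain ⟨γ', C, h0, hb⟩ := sys_bound q R ((4 * R + 1) ^ 2) hγ
  refine ⟨γ', C, h0, fun L _ h Ω ha hg hf A => ?_⟩
  obtain ⟨S, hS, hΩ⟩ := hred L h Ω ha hg hf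
  have := hb L S hS A
  rwa [hΩ] at this

end Vale.Agent.P356
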