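import Vale.Agent.P356.Basic

/-!
Discrete isoperimetry. `mixed_edge`: move from `x` to `y` inside the box one unit step at a time
(strong induction on `dist1 x y`). `iso`: a row is mixed if it meets `A` and `Aᶜ`; each mixed row
(column) contains a boundary pair (`mixed_edge` with a one-row box), and pairs of different rows
differ, so there are at most `bdry A` mixed rows and columns. If all rows or all columns are
mixed then `L ≤ bdry A` and `I = J = univ`. Otherwise an unmixed row meets an unmixed column, all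
unmixed lines have the same type, and the other type lies in (mixed) × (mixed).
-/

namespace Vale.Agent.P356

open Finset

variable {L : ℕ}

theorem bdry_compl (A : Finset (Site L)) : bdry Aᶜ = bdry A := by
  refine card_equiv (Equiv.prodComm _ _) fun e => ?_
  have h : dist1 e.2 e.1 = dist1 e.1 e.2 := by
    unfold dist1
    rw [Nat.dist_comm, Nat.dist_comm e.2.2]
  simp only [mem_filter, mem_univ, true_and, mem_compl, not_not, Equiv.prodComm_apply,
    Prod.fst_swap, Prod.snd_swap, h]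
  tauto

private theorem iso_step {a b : Fin L} (h : a ≠ b) : ∃ c : Fin L, Nat.dist a c = 1 ∧
    Nat.dist c b < Nat.dist a b ∧ (a.val ≤ c ∧ c.val ≤ b ∨ b.val ≤ c ∧ c.val ≤ a) := by
  have ha := a.2
  have hb := b.2
  have hab : a.val ≠ b.val := fun e => h (Fin.ext e)
  unfold Nat.dist
  rcases lt_or_gt_of_ne hab with h | h
  · refine ⟨⟨a + 1, by omega⟩, ?_⟩
    dsimp only
    omega
  · refine ⟨⟨a - 1, by omega⟩, ?_⟩
    dsimp only
    omega

theorem mixed_edge (A : Finset (Site L)) {x0 x1 y0 y1 : ℕ} {x y : Site L}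
    (hx : x ∈ box L x0 x1 y0 y1) (hy : y ∈ box L x0 x1 y0 y1) (hxA : x ∈ A) (hyA : y ∉ A) :
    ∃ u ∈ box L x0 x1 y0 y1, ∃ v ∈ box L x0 x1 y0 y1, u ∈ A ∧ v ∉ A ∧ dist1 u v = 1 := by
  induction hn : dist1 x y using Nat.strong_induction_on generalizing x with
  | _ n ih =>
  obtain ⟨z, hz, z1, z2⟩ : ∃ z ∈ box L x0 x1 y0 y1, dist1 x z = 1 ∧ dist1 z y < dist1 x y := by
    simp only [box, mem_filter, mem_univ, true_and, dist1] at hx hy ⊢
    by_cases h : x.1 = y.1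
    · obtain ⟨c, c1, c2, c3⟩ := iso_step (a := x.2) (b := y.2) fun e =>
        hyA (Prod.ext h e ▸ hxA)
      refine ⟨(x.1, c), ?_⟩
      dsimp only
      rw [Nat.dist_self]
      omega
    · obtain ⟨c, c1, c2, c3⟩ := iso_step h
      refine ⟨(c, x.2), ?_⟩
      dsimp only
      rw [Nat.dist_self]
      omega
  by_cases h : z ∈ A
  · exact ih _ (hn ▸ z2) hz h rfl
  · exact ⟨x, hx, z, hz, hxA, h, z1⟩

theorem iso (A : Finset (Site L)) : ∃ I J : Finset (Fin L), I.card ≤ bdry A ∧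
    J.card ≤ bdry A ∧ (A ⊆ I ×ˢ J ∨ Aᶜ ⊆ I ×ˢ J) := by
  classical
  obtain ⟨I, hI, cI⟩ : ∃ I : Finset (Fin L),
      (∀ i, i ∈ I ↔ ∃ j j', (i, j) ∈ A ∧ (i, j') ∉ A) ∧ I.card ≤ bdry A := by
    refine ⟨univ.filter fun i => ∃ j j', (i, j) ∈ A ∧ (i, j') ∉ A, by simp,
      le_trans (card_le_card fun i hi => ?_) (card_image_le (f := fun e => e.1.1))⟩
    obtain ⟨j, j', h1, h2⟩ := (mem_filter.1 hi).2
    obtain ⟨u, hu, v, -, h⟩ := mixed_edge A (x0 := i) (x1 := i + 1) (y0 := 0) (y1 := L)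
      (by simp [box]) (by simp [box]) h1 h2
    simp only [box, mem_filter, mem_univ, true_and] at hu
    exact mem_image.2 ⟨(u, v), mem_filter.2 ⟨mem_univ _, h⟩, Fin.ext (by dsimp only; omega)⟩
  obtain ⟨J, hJ, cJ⟩ : ∃ J : Finset (Fin L),
      (∀ j, j ∈ J ↔ ∃ i i', (i, j) ∈ A ∧ (i', j) ∉ A) ∧ J.card ≤ bdry A := by
    refine ⟨univ.filter fun j => ∃ i i', (i, j) ∈ A ∧ (i', j) ∉ A, by simp,
      le_trans (card_le_card fun j hj => ?_) (card_image_le (f := fun e => e.1.2))⟩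
    obtain ⟨i, i', h1, h2⟩ := (mem_filter.1 hj).2
    obtain ⟨u, hu, v, -, h⟩ := mixed_edge A (x0 := 0) (x1 := L) (y0 := j) (y1 := j + 1)
      (by simp [box]) (by simp [box]) h1 h2
    simp only [box, mem_filter, mem_univ, true_and] at hu
    exact mem_image.2 ⟨(u, v), mem_filter.2 ⟨mem_univ _, h⟩, Fin.ext (by dsimp only; omega)⟩
  by_cases h1 : I = univ
  · exact ⟨univ, univ, h1 ▸ cI, h1 ▸ cI, Or.inl (by simp)⟩
  by_cases h2 : J = univ
  · exact ⟨univ, univ, h2 ▸ cJ, h2 ▸ cJ, Or.inl (by simp)⟩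
  obtain ⟨i₀, hi⟩ := not_forall.1 (mt eq_univ_of_forall h1)
  obtain ⟨j₀, hj⟩ := not_forall.1 (mt eq_univ_of_forall h2)
  rw [hI] at hi
  rw [hJ] at hj
  refine ⟨I, J, cI, cJ, ?_⟩
  by_cases h : (i₀, j₀) ∈ A
  · refine Or.inr fun ⟨i, j⟩ hs => mem_product.2 ⟨(hI i).2 ⟨j₀, j, ?_, mem_compl.1 hs⟩,
      (hJ j).2 ⟨i₀, i, ?_, mem_compl.1 hs⟩⟩
    · exact not_not.1 fun g => hj ⟨_, _, h, g⟩
    · exact not_not.1 fun g => hi ⟨_, _, h, g⟩
  · exact Or.inl fun ⟨i, j⟩ hs => mem_product.2 ⟨(hI i).2 ⟨j, j₀, hs, fun g => hj ⟨_, _, g, h⟩⟩,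
      (hJ j).2 ⟨i, i₀, hs, fun g => hi ⟨_, _, g, h⟩⟩⟩

end Vale.Agent.P356
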