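import Vale.Agent.P356.Loc1

/-!
Local operators form a subalgebra. With `pw = X.piecewise`: `pw τ' (pw τ σ) = pw τ' σ`, and
`m (pw τ σ) τ' = m τ τ'` for a kernel depending on `X` in the first slot, so the kernel of a
product is `fun σ τ' => ∑ τ, m σ τ * m' τ τ'`. For the identity and for monotonicity fix a
default configuration `d` (if there is no configuration at all, the space is trivial and all
operators are equal): kernel `if τ = pw σ d then 1 else 0`; for `X ⊆ X'` the kernel is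
`fun σ τ => ∑ τ0, m σ τ0 * if τ = X.piecewise τ0 (X'.piecewise σ d) then 1 else 0`.
`Loc.rk`: for a product vector `a * b`, group by the pair of restrictions `(σ|X, τ|X)`.
-/

namespace Vale.Agent.P356

open Finset

variable {ι : Type} [Fintype ι] [DecidableEq ι] {q G : ℕ} {γ : ℝ}

theorem Loc.rk_one {Y : Finset ι} {M : Op ι q} (h : Loc Y M) : RK Y M 1 := by
  obtain ⟨m, hm, rfl⟩ := h
  rintro ψ ⟨a, b, ha, hb, hψ⟩
  refine SumOf.single ⟨fun σ => ∑ τ, m σ τ * a τ, b, fun σ σ' hσ => ?_, hb, fun σ => ?_⟩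
  · exact Finset.sum_congr rfl fun τ _ => congrArg (· * a τ) (hm τ σ σ' hσ)
  · rw [kop_apply, Finset.sum_mul]
    refine Finset.sum_congr rfl fun τ _ => ?_
    rw [hψ, ha (Y.piecewise τ σ) τ fun x hx => Finset.piecewise_eq_of_mem _ _ _ hx,
      hb (Y.piecewise τ σ) σ fun x hx =>
        Finset.piecewise_eq_of_notMem _ _ _ (Finset.mem_compl.1 hx), mul_assoc]

theorem Loc.rk_one_compl {Y : Finset ι} {M : Op ι q} (h : Loc Yᶜ M) : RK Y M 1 := by
  have h1 := h.rk_one.compl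
  rwa [compl_compl] at h1

theorem Loc.rk {X : Finset ι} {M : Op ι q} (h : Loc X M) (Y : Finset ι) :
    RK Y M ((q : ℝ) ^ (2 * X.card)) := by
  classical
  obtain ⟨m, hm, rfl⟩ := h
  rintro ψ ⟨a, b, ha, hb, hψ⟩
  rcases isEmpty_or_nonempty (ι → Fin q) with he | ⟨⟨d⟩⟩
  · have h0 : kop X m ψ = 0 := by
      ext σ
      exact he.elim σ
    rw [h0]
    exact SumOf.zero _ (by positivity)
  let r : (ι → Fin q) → X → Fin q := fun σ x => σ x
  let g : (X → Fin q) → (ι → Fin q) → ι → Fin q := fun t σ x =>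
    if h : x ∈ X then t ⟨x, h⟩ else σ x
  let c : (X → Fin q) → (X → Fin q) → ℂ := fun s t =>
    ∑ τ ∈ univ.filter fun τ => r τ = t, m (g s d) τ
  let A : (X → Fin q) → (X → Fin q) → (ι → Fin q) → ℂ := fun s t σ =>
    (if ∀ x : X, (x : ι) ∈ Y → σ x = s x then 1 else 0) * c s t * a (g t σ)
  let B : (X → Fin q) → (X → Fin q) → (ι → Fin q) → ℂ := fun s t σ =>
    (if ∀ x : X, (x : ι) ∈ Yᶜ → σ x = s x then 1 else 0) * b (g t σ)
  let v : (X → Fin q) × (X → Fin q) → St ι q := fun p =>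
    WithLp.toLp 2 fun σ => A p.1 p.2 σ * B p.1 p.2 σ
  have hg : ∀ (Z : Finset ι) t σ σ', (∀ x ∈ Z, σ x = σ' x) → ∀ x ∈ Z, g t σ x = g t σ' x := by
    intro Z t σ σ' hσ x hx
    simp only [g]
    split_ifs
    · rfl
    · exact hσ x hx
  have hi : ∀ (Z : Finset ι) (s : X → Fin q) (σ σ' : ι → Fin q), (∀ x ∈ Z, σ x = σ' x) →
      ((∀ x : X, (x : ι) ∈ Z → σ x = s x) ↔ ∀ x : X, (x : ι) ∈ Z → σ' x = s x) :=
    fun Z s σ σ' hσ => forall_congr' fun x => forall_congr' fun hx => by rw [hσ x hx]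
  have hv : ∀ p, Prd Y (v p) := fun p =>
    ⟨A p.1 p.2, B p.1 p.2, fun σ σ' hσ => by
      simp only [A]
      rw [ha _ _ (hg Y p.2 σ σ' hσ), if_congr (hi Y p.1 σ σ' hσ) rfl rfl],
      fun σ σ' hσ => by
        simp only [B]
        rw [hb _ _ (hg Yᶜ p.2 σ σ' hσ), if_congr (hi Yᶜ p.1 σ σ' hσ) rfl rfl],
      fun σ => rfl⟩
  have hsum : kop X m ψ = ∑ p, v p := by
    ext σ
    have h1 : (∑ p, v p) σ = ∑ p : (X → Fin q) × (X → Fin q), A p.1 p.2 σ * B p.1 p.2 σ := by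
      rw [WithLp.ofLp_sum, Finset.sum_apply]
    have h2 : ∀ s t, A s t σ * B s t σ =
        if r σ = s then c s t * (a (g t σ) * b (g t σ)) else 0 := by
      intro s t
      simp only [A, B]
      by_cases hs : r σ = s
      · rw [if_pos hs, if_pos fun x _ => congrFun hs x, if_pos fun x _ => congrFun hs x]
        ring
      · rw [if_neg hs]
        by_cases h3 : ∀ x : X, (x : ι) ∈ Y → σ x = s x
        · rw [if_neg (c := ∀ x : X, (x : ι) ∈ Yᶜ → σ x = s x) fun h4 => hs (funext fun x => by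
            by_cases hx : (x : ι) ∈ Y
            · exact h3 x hx
            · exact h4 x (Finset.mem_compl.2 hx))]
          ring
        · rw [if_neg h3]
          ring
    rw [h1, kop_apply, Fintype.sum_prod_type_right]
    simp only [h2, Finset.sum_ite_eq, Finset.mem_univ, if_true]
    rw [← Finset.sum_fiberwise univ r]
    refine Finset.sum_congr rfl fun t _ => ?_
    simp only [c]
    rw [Finset.sum_mul]
    refine Finset.sum_congr rfl fun τ hτ => ?_
    have h3 : r τ = t := (Finset.mem_filter.1 hτ).2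
    have h4 : X.piecewise τ σ = g t σ := by
      funext x
      simp only [g]
      split_ifs with hx
      · rw [Finset.piecewise_eq_of_mem _ _ _ hx, ← h3]
      · exact Finset.piecewise_eq_of_notMem _ _ _ hx
    have h5 : m σ τ = m (g (r σ) d) τ := hm τ σ _ fun x hx => by
      simp only [g, r]
      rw [dif_pos hx]
    rw [hψ, h4, h5]
  have h6 := SumOf.sum (P := Prd Y) univ (N := fun _ => 1) (x := v) fun p _ => SumOf.single (hv p)
  rw [hsum]
  refine h6.mono (fun _ h => h) (le_of_eq ?_)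
  simp [two_mul, pow_add]

theorem Zn.add {Y : ℕ → Finset ι} {a b : ℕ} {M M' : Op ι q} (h : Zn Y a b M)
    (h' : Zn Y a b M') : Zn Y a b (M + M') :=
  ⟨fun c hc => (h.1 c hc).add (h'.1 c hc), fun c hc => (h.2 c hc).add (h'.2 c hc)⟩

theorem Zn.smul {Y : ℕ → Finset ι} {a b : ℕ} {M : Op ι q} (h : Zn Y a b M) (c : ℂ) :
    Zn Y a b (c • M) :=
  ⟨fun k hk => (h.1 k hk).smul c, fun k hk => (h.2 k hk).smul c⟩

theorem Zn.sub {Y : ℕ → Finset ι} {a b : ℕ} {M M' : Op ι q} (h : Zn Y a b M)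
    (h' : Zn Y a b M') : Zn Y a b (M - M') :=
  ⟨fun c hc => (h.1 c hc).sub (h'.1 c hc), fun c hc => (h.2 c hc).sub (h'.2 c hc)⟩

theorem Zn.mul {Y : ℕ → Finset ι} {a b : ℕ} {M M' : Op ι q} (h : Zn Y a b M)
    (h' : Zn Y a b M') : Zn Y a b (M * M') :=
  ⟨fun c hc => (h.1 c hc).mul (h'.1 c hc), fun c hc => (h.2 c hc).mul (h'.2 c hc)⟩

theorem Zn.mono {Y : ℕ → Finset ι} {a b a' b' : ℕ} {M : Op ι q} (h : Zn Y a b M)
    (ha : a' ≤ a) (hb : b ≤ b') : Zn Y a' b' M :=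
  ⟨fun c hc => h.1 c (hb.trans hc), fun c hc => h.2 c (hc.trans_le ha)⟩

theorem Zn.zero (Y : ℕ → Finset ι) (a b : ℕ) : Zn Y a b (0 : Op ι q) :=
  ⟨fun _ _ => Loc.zero _, fun _ _ => Loc.zero _⟩

theorem Zn.sum {κ : Type} {Y : ℕ → Finset ι} {a b : ℕ} (s : Finset κ) {M : κ → Op ι q}
    (h : ∀ i ∈ s, Zn Y a b (M i)) : Zn Y a b (∑ i ∈ s, M i) :=
  ⟨fun c hc => Loc.sum s fun i hi => (h i hi).1 c hc,
    fun c hc => Loc.sum s fun i hi => (h i hi).2 c hc⟩

theorem Zn.free {Y : ℕ → Finset ι} {a b : ℕ} {M : Op ι q} (h : Zn Y a b M) {I : Finset ℕ}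
    (hI : ∀ c ∈ I, c < a ∨ b ≤ c) : Free Y I M := fun c hc =>
  (hI c hc).elim (fun h1 => (h.2 c h1).rk_one_compl) fun h1 => (h.1 c h1).rk_one

theorem Sys.dl_loc (S : Sys ι q G γ) (l : List ι) {U : Finset ι} (h : ∀ t ∈ l, S.X t ⊆ U) :
    Loc U (S.dl l) := by
  refine Loc.list_prod _ fun M hM => ?_
  obtain ⟨t, ht, rfl⟩ := List.mem_map.1 hM
  exact (Loc.one U).sub ((S.loc t).mono (h t ht))

theorem Sys.orOp_loc (S : Sys ι q G γ) (C : Finset ι) {U : Finset ι}
    (h : ∀ t ∈ C, S.X t ⊆ U) : Loc U (S.orOp C) :=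
  (Loc.one U).sub (S.dl_loc _ fun t ht => h t (Finset.mem_toList.1 ht))

theorem Cuts.orOp_zn {S : Sys ι q G γ} {A : ℕ} (cu : Cuts S A) {a b : ℕ} {C : Finset ι}
    (h : C ⊆ cu.zone a b) : Zn cu.Y a b (S.orOp C) :=
  ⟨fun c hc => S.orOp_loc C fun t ht =>
      cu.left t c ((Finset.mem_filter.1 (h ht)).2.2.trans_le hc),
    fun c hc => S.orOp_loc C fun t ht =>
      cu.right t c (hc.trans_le (Finset.mem_filter.1 (h ht)).2.1)⟩

end Vale.Agent.P356
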