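import Vale.Agent.P356.Rank

/-!
Local operators form a subalgebra. With `pw = X.piecewise`: `pw τ' (pw τ σ) = pw τ' σ`, and
`m (pw τ σ) τ' = m τ τ'` for a kernel depending on `X` in the first slot, so the kernel of a
product is `fun σ τ' => ∑ τ, m σ τ * m' τ τ'`. For the identity and for monotonicity fix a
default configuration `d` (if there is no configuration at all, the space is trivial and all
operators are equal): kernel `if τ = pw σ d then 1 else 0`; for `X ⊆ X'` the kernel is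
`fun σ τ => ∑ τ0, m σ τ0 * if τ = X.piecewise τ0 (X'.piecewise σ d) then 1 else 0`.
`Loc.rk`: for a product vector `a * b`, group by the pair of restrictions `(σ|X, τ|X)`.
-/

namespace Vale.Agent.P356

open Finset

variable {ι : Type} [Fintype ι] [DecidableEq ι] {q G : ℕ} {γ : ℝ}

omit [DecidableEq ι] in
theorem loc1_ext {M M' : Op ι q} (h : ∀ ψ σ, M ψ σ = M' ψ σ) : M = M' :=
  LinearMap.ext fun ψ => PiLp.ext fun σ => h ψ σ

omit [Fintype ι] in
theorem loc1_pw (X : Finset ι) {σ σ' : ι → Fin q} (h : ∀ x ∈ X, σ x = σ' x) (d : ι → Fin q) :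
    X.piecewise σ d = X.piecewise σ' d := by
  funext x
  by_cases hx : x ∈ X
  · simp [hx, h x hx]
  · simp [hx]

theorem loc1_empty [IsEmpty (ι → Fin q)] (X : Finset ι) (M : Op ι q) : Loc X M :=
  ⟨fun _ _ => 0, fun _ _ _ _ => rfl, loc1_ext fun _ σ => isEmptyElim σ⟩

theorem Loc.zero (X : Finset ι) : Loc X (0 : Op ι q) :=
  ⟨fun _ _ => 0, fun _ _ _ _ => rfl, loc1_ext fun ψ σ => by simp [kop_apply]⟩

theorem Loc.one (X : Finset ι) : Loc X (1 : Op ι q) := by
  rcases isEmpty_or_nonempty (ι → Fin q) with h | ⟨⟨d⟩⟩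
  · exact loc1_empty X _
  refine ⟨fun σ τ => if τ = X.piecewise σ d then 1 else 0, fun τ σ σ' h => ?_,
    loc1_ext fun ψ σ => ?_⟩
  · simp only [loc1_pw X h d]
  · have e : X.piecewise (X.piecewise σ d) σ = σ := by
      funext x
      by_cases hx : x ∈ X <;> simp [hx]
    simp [kop_apply, e]

theorem Loc.add {X : Finset ι} {M M' : Op ι q} (h : Loc X M) (h' : Loc X M') :
    Loc X (M + M') := by
  obtain ⟨m, hm, rfl⟩ := h
  obtain ⟨m', hm', rfl⟩ := h'
  refine ⟨fun σ τ => m σ τ + m' σ τ, fun τ σ σ' h => ?_, loc1_ext fun ψ σ => ?_⟩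
  · simp only [hm τ σ σ' h, hm' τ σ σ' h]
  · simp [kop_apply, add_mul, Finset.sum_add_distrib]

theorem Loc.smul {X : Finset ι} {M : Op ι q} (h : Loc X M) (c : ℂ) : Loc X (c • M) := by
  obtain ⟨m, hm, rfl⟩ := h
  refine ⟨fun σ τ => c * m σ τ, fun τ σ σ' h => ?_, loc1_ext fun ψ σ => ?_⟩
  · simp only [hm τ σ σ' h]
  · simp [kop_apply, Finset.mul_sum, mul_assoc]

theorem Loc.sub {X : Finset ι} {M M' : Op ι q} (h : Loc X M) (h' : Loc X M') :
    Loc X (M - M') := by
  have := h.add (h'.smul (-1))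
  rwa [neg_one_smul, ← sub_eq_add_neg] at this

theorem Loc.mul {X : Finset ι} {M M' : Op ι q} (h : Loc X M) (h' : Loc X M') :
    Loc X (M * M') := by
  obtain ⟨m, hm, rfl⟩ := h
  obtain ⟨m', hm', rfl⟩ := h'
  refine ⟨fun σ τ' => ∑ τ, m σ τ * m' τ τ', fun τ σ σ' h => ?_, loc1_ext fun ψ σ => ?_⟩
  · exact Finset.sum_congr rfl fun τ₀ _ => by simp only [hm τ₀ σ σ' h]
  · rw [Module.End.mul_apply, kop_apply, kop_apply]
    simp only [kop_apply, Finset.mul_sum, Finset.sum_mul]
    rw [Finset.sum_comm]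
    refine Finset.sum_congr rfl fun τ' _ => Finset.sum_congr rfl fun τ _ => ?_
    have e1 : m' (X.piecewise τ σ) τ' = m' τ τ' := hm' τ' _ _ fun x hx => by simp [hx]
    have e2 : X.piecewise τ' (X.piecewise τ σ) = X.piecewise τ' σ := by
      funext x
      by_cases hx : x ∈ X <;> simp [hx]
    rw [e1, e2, mul_assoc]

theorem Loc.pow {X : Finset ι} {M : Op ι q} (h : Loc X M) (n : ℕ) : Loc X (M ^ n) := by
  induction n with
  | zero => rw [pow_zero]; exact Loc.one X
  | succ n ih => rw [pow_succ]; exact ih.mul h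

theorem Loc.sum {κ : Type} {X : Finset ι} (s : Finset κ) {M : κ → Op ι q}
    (h : ∀ i ∈ s, Loc X (M i)) : Loc X (∑ i ∈ s, M i) :=
  Finset.sum_induction M (Loc X) (fun _ _ => Loc.add) (Loc.zero X) h

theorem Loc.list_prod {X : Finset ι} (l : List (Op ι q)) (h : ∀ M ∈ l, Loc X M) :
    Loc X l.prod := by
  induction l with
  | nil => exact Loc.one X
  | cons A l ih =>
    rw [List.prod_cons]
    exact (h A List.mem_cons_self).mul (ih fun M hM => h M (List.mem_cons_of_mem _ hM))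

theorem Loc.aeval {X : Finset ι} {M : Op ι q} (h : Loc X M) (P : Polynomial ℂ) :
    Loc X (Polynomial.aeval M P) := by
  rw [Polynomial.aeval_eq_sum_range]
  exact Loc.sum _ fun i _ => (h.pow i).smul _

theorem Loc.mono {X X' : Finset ι} {M : Op ι q} (h : Loc X M) (hX : X ⊆ X') : Loc X' M := by
  rcases isEmpty_or_nonempty (ι → Fin q) with h0 | ⟨⟨d⟩⟩
  · exact loc1_empty X' _
  obtain ⟨m, hm, rfl⟩ := h
  refine ⟨fun σ τ => ∑ τ₀, m σ τ₀ * if τ = X.piecewise τ₀ (X'.piecewise σ d) then 1 else 0,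
    fun τ σ σ' h => ?_, loc1_ext fun ψ σ => ?_⟩
  · refine Finset.sum_congr rfl fun τ₀ _ => ?_
    simp only [loc1_pw X' h d, hm τ₀ σ σ' fun x hx => h x (hX hx)]
  · simp only [kop_apply, Finset.sum_mul]
    rw [Finset.sum_comm]
    refine Finset.sum_congr rfl fun τ₀ _ => ?_
    have e : X'.piecewise (X.piecewise τ₀ (X'.piecewise σ d)) σ = X.piecewise τ₀ σ := by
      funext x
      by_cases hx : x ∈ X
      · simp [hx, hX hx]
      · by_cases hx' : x ∈ X' <;> simp [hx, hx']
    simp [e]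

theorem Loc.commute {X X' : Finset ι} {M M' : Op ι q} (h : Loc X M) (h' : Loc X' M')
    (hd : Disjoint X X') : Commute M M' := by
  obtain ⟨m, hm, rfl⟩ := h
  obtain ⟨m', hm', rfl⟩ := h'
  refine loc1_ext fun ψ σ => ?_
  rw [Module.End.mul_apply, Module.End.mul_apply, kop_apply, kop_apply]
  simp only [kop_apply, Finset.mul_sum]
  rw [Finset.sum_comm]
  refine Finset.sum_congr rfl fun τ' _ => Finset.sum_congr rfl fun τ _ => ?_
  have e1 : m' (X.piecewise τ σ) τ' = m' σ τ' :=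
    hm' τ' _ _ fun x hx => by simp [Finset.disjoint_right.1 hd hx]
  have e2 : m (X'.piecewise τ' σ) τ = m σ τ :=
    hm τ _ _ fun x hx => by simp [Finset.disjoint_left.1 hd hx]
  have e3 : X'.piecewise τ' (X.piecewise τ σ) = X.piecewise τ (X'.piecewise τ' σ) := by
    funext x
    by_cases hx : x ∈ X
    · simp [hx, Finset.disjoint_left.1 hd hx]
    · by_cases hx' : x ∈ X' <;> simp [hx, hx']
  rw [e1, e2, e3, mul_left_comm]

end Vale.Agent.P356
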