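import Vale.Agent.P356.Rank

/-!
Spectrum of the reduced state. Let `Ψ a b = Ω (glue A a b)`, so `red A Ω = Ψ * Ψᴴ` is positive
semidefinite with trace `‖Ω‖^2` (`glue` gives an equivalence of pairs with configurations,
`Equiv.piEquivPiSubtypeProd`). `small_mass`: the columns `a ↦ χ (glue A a b)` lie in the span `V` of
the at most `d` vectors `a ↦ a_k (glue A a b₀)`; let `P` be the orthogonal projection on `V` in
`EuclideanSpace ℂ (A → Fin q)` and `u i` the eigenvector basis. Then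
`λ_i = λ_i ‖P u_i‖^2 + λ_i ‖(1-P) u_i‖^2`, `∑ ‖P u_i‖^2 = dim V ≤ d`, and
`∑_i λ_i ‖(1-P) u_i‖^2 = ∑_b ‖(1-P) Ψ_b‖^2 = ∑_b ‖(1-P)(Ψ_b - χ_b)‖^2 ≤ ‖Ω - χ‖^2`
(for any vector `z`, `∑_b ‖inner z Ψ_b‖^2 = ∑_i λ_i ‖inner z u_i‖^2`; sum over an orthonormal basis of `Vᗮ`).
-/

namespace Vale.Agent.P356

open Finset

variable {ι : Type} [Fintype ι] [DecidableEq ι] {q G : ℕ} {γ : ℝ}

section Abs

variable {E n B : Type} [NormedAddCommGroup E] [InnerProductSpace ℂ E] [Fintype n] [Fintype B]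
  {u : OrthonormalBasis n ℂ E} {lam : n → ℝ} {Ψ : B → E}

theorem sq_Mass (x y : E) : inner ℂ x y * inner ℂ y x = ((‖inner ℂ x y‖ ^ 2 : ℝ) : ℂ) := by
  rw [← inner_conj_symm y x, Complex.mul_conj']
  push_cast
  rfl

theorem key_Mass (hT : ∀ i, ∑ b, inner ℂ (Ψ b) (u i) • Ψ b = (lam i : ℂ) • u i) (z : E) :
    ∑ b, ‖inner ℂ z (Ψ b)‖ ^ 2 = ∑ i, lam i * ‖inner ℂ z (u i)‖ ^ 2 := by
  have h1 : ∀ i, ∑ b, inner ℂ (Ψ b) (u i) * inner ℂ z (Ψ b) = lam i * inner ℂ z (u i) := fun i => by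
    have := congrArg (inner ℂ z) (hT i)
    simpa only [inner_sum, inner_smul_right] using this
  have h2 : ∑ b, inner ℂ z (Ψ b) * inner ℂ (Ψ b) z =
      ∑ i, (lam i : ℂ) * (inner ℂ z (u i) * inner ℂ (u i) z) := by
    calc ∑ b, inner ℂ z (Ψ b) * inner ℂ (Ψ b) z
        = ∑ b, ∑ i, inner ℂ (Ψ b) (u i) * inner ℂ z (Ψ b) * inner ℂ (u i) z := by
          refine sum_congr rfl fun b _ => ?_
          rw [← u.sum_inner_mul_inner (Ψ b) z, mul_sum]
          exact sum_congr rfl fun i _ => by ring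
      _ = _ := by
          rw [sum_comm]
          refine sum_congr rfl fun i _ => ?_
          rw [← sum_mul, h1, mul_assoc]
  simp only [sq_Mass] at h2
  exact_mod_cast h2

theorem eig_Mass (hT : ∀ i, ∑ b, inner ℂ (Ψ b) (u i) • Ψ b = (lam i : ℂ) • u i) (i : n) :
    lam i = ∑ b, ‖inner ℂ (u i) (Ψ b)‖ ^ 2 := by
  classical
  rw [key_Mass hT, sum_eq_single i (fun j _ hj => by
    rw [u.orthonormal.inner_eq_zero hj.symm]
    simp) (by simp)]
  simp

theorem dec_Mass [FiniteDimensional ℂ E] (V : Submodule ℂ E) (x : E) :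
    ‖x‖ ^ 2 = ∑ k, ‖inner ℂ (stdOrthonormalBasis ℂ V k : E) x‖ ^ 2 +
      ∑ k, ‖inner ℂ (stdOrthonormalBasis ℂ Vᗮ k : E) x‖ ^ 2 := by
  rw [Submodule.norm_sq_eq_add_norm_sq_projection x V,
    ← (stdOrthonormalBasis ℂ V).sum_sq_norm_inner_right,
    ← (stdOrthonormalBasis ℂ Vᗮ).sum_sq_norm_inner_right]
  simp only [Submodule.inner_orthogonalProjectionOnto_eq_of_mem_left]

theorem small_Mass [FiniteDimensional ℂ E]
    (hT : ∀ i, ∑ b, inner ℂ (Ψ b) (u i) • Ψ b = (lam i : ℂ) • u i) (V : Submodule ℂ E)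
    {χ : B → E} (hχ : ∀ b, χ b ∈ V) {θ : ℝ} (hθ : 0 ≤ θ) :
    ∑ i ∈ univ.filter fun i => lam i < θ, lam i ≤
      θ * Module.finrank ℂ V + ∑ b, ‖Ψ b - χ b‖ ^ 2 := by
  have h0 : ∀ i, 0 ≤ lam i := fun i => by
    rw [eig_Mass hT]
    positivity
  obtain ⟨p, hp⟩ : ∃ p : n → ℝ,
    p = fun i => ∑ k, ‖inner ℂ (stdOrthonormalBasis ℂ V k : E) (u i)‖ ^ 2 := ⟨_, rfl⟩
  obtain ⟨r, hr⟩ : ∃ r : n → ℝ,
    r = fun i => ∑ k, ‖inner ℂ (stdOrthonormalBasis ℂ Vᗮ k : E) (u i)‖ ^ 2 := ⟨_, rfl⟩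
  have p0 : ∀ i, 0 ≤ p i := fun i => by
    rw [hp]
    positivity
  have r0 : ∀ i, 0 ≤ r i := fun i => by
    rw [hr]
    positivity
  have h1 : ∀ i, p i + r i = 1 := fun i => by
    rw [hp, hr]
    exact (dec_Mass V (u i)).symm.trans (by simp)
  have h2 : ∑ i, p i = Module.finrank ℂ V := by
    rw [hp, sum_comm]
    have h6 : ∀ k, ‖(stdOrthonormalBasis ℂ V k : E)‖ = 1 :=
      fun k => (stdOrthonormalBasis ℂ V).orthonormal.1 k
    simp only [u.sum_sq_norm_inner_left, h6]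
    simp
  have h3 : ∑ i, lam i * r i ≤ ∑ b, ‖Ψ b - χ b‖ ^ 2 := by
    simp only [hr, mul_sum]
    rw [sum_comm]
    simp only [← key_Mass hT]
    rw [sum_comm]
    refine sum_le_sum fun b _ => ?_
    rw [dec_Mass V (Ψ b - χ b)]
    refine le_add_of_nonneg_of_le (by positivity) (le_of_eq (sum_congr rfl fun k _ => ?_))
    rw [inner_sub_right, Submodule.inner_left_of_mem_orthogonal (hχ b)
      (stdOrthonormalBasis ℂ Vᗮ k).2, sub_zero]
  calc ∑ i ∈ univ.filter fun i => lam i < θ, lam i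
      ≤ ∑ i ∈ univ.filter fun i => lam i < θ, (θ * p i + lam i * r i) :=
        sum_le_sum fun i hi => by
          have h4 := mul_le_mul_of_nonneg_right (mem_filter.1 hi).2.le (p0 i)
          have h5 : lam i = lam i * p i + lam i * r i := by rw [← mul_add, h1, mul_one]
          linarith
    _ ≤ ∑ i, (θ * p i + lam i * r i) := sum_le_sum_of_subset_of_nonneg (filter_subset _ _)
        fun i _ _ => add_nonneg (mul_nonneg hθ (p0 i)) (mul_nonneg (h0 i) (r0 i))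
    _ ≤ _ := by
        rw [sum_add_distrib, ← mul_sum, h2]
        linarith

end Abs

/-- A column of the state. -/
def col_Mass (A : Finset ι) (Ω : (ι → Fin q) → ℂ) (b : {x // x ∉ A} → Fin q) :
    EuclideanSpace ℂ (A → Fin q) := WithLp.toLp 2 fun a => Ω (glue A a b)

theorem hT_Mass (A : Finset ι) (Ω : (ι → Fin q) → ℂ) (i : A → Fin q) :
    ∑ b, inner ℂ (col_Mass A Ω b) ((red_isHermitian A Ω).eigenvectorBasis i) • col_Mass A Ω b =
      ((red_isHermitian A Ω).eigenvalues i : ℂ) • (red_isHermitian A Ω).eigenvectorBasis i := by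
  ext a
  have h := congrFun ((red_isHermitian A Ω).mulVec_eigenvectorBasis i) a
  simp only [Matrix.mulVec, dotProduct, red, Pi.smul_apply, Complex.real_smul, sum_mul] at h
  rw [sum_comm] at h
  simp only [WithLp.ofLp_sum, WithLp.ofLp_smul, Finset.sum_apply, Pi.smul_apply, smul_eq_mul,
    PiLp.inner_apply, col_Mass, RCLike.inner_apply, sum_mul, ← h]
  exact sum_congr rfl fun b _ => sum_congr rfl fun a' _ => by
    rw [RCLike.star_def]
    ring

theorem norm_Mass (A : Finset ι) (Ω : St ι q) :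
    ∑ b, ‖col_Mass A Ω.ofLp b‖ ^ 2 = ‖Ω‖ ^ 2 := by
  simp only [EuclideanSpace.norm_sq_eq, col_Mass]
  rw [sum_comm, ← Fintype.sum_prod_type']
  exact Fintype.sum_equiv (Equiv.piEquivPiSubtypeProd (fun x => x ∈ A) fun _ => Fin q).symm _ _
    fun _ => rfl

theorem prd_Mass {A : Finset ι} {y : St ι q} (h : Prd A y) :
    ∃ v : EuclideanSpace ℂ (A → Fin q), ∀ b, ∃ c : ℂ, col_Mass A y.ofLp b = c • v := by
  obtain ⟨α, β, hα, hβ, hy⟩ := h
  rcases isEmpty_or_nonempty ({x // x ∉ A} → Fin q) with h0 | ⟨⟨b₀⟩⟩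
  · exact ⟨0, fun b => h0.elim b⟩
  rcases isEmpty_or_nonempty (A → Fin q) with h1 | ⟨⟨a₀⟩⟩
  · exact ⟨0, fun b => ⟨0, by ext a; exact h1.elim a⟩⟩
  refine ⟨WithLp.toLp 2 fun a => α (glue A a b₀), fun b => ⟨β (glue A a₀ b), ?_⟩⟩
  ext a
  have e1 : α (glue A a b) = α (glue A a b₀) := hα _ _ fun x hx => by simp [glue, hx]
  have e2 : β (glue A a b) = β (glue A a₀ b) := hβ _ _ fun x hx => by
    simp [glue, mem_compl.1 hx]
  simp [col_Mass, hy, e1, e2, mul_comm]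

theorem span_Mass {A : Finset ι} (l : List (St ι q)) (h : ∀ y ∈ l, Prd A y) :
    ∃ V : Submodule ℂ (EuclideanSpace ℂ (A → Fin q)), Module.finrank ℂ V ≤ l.length ∧
      ∀ b, col_Mass A l.sum.ofLp b ∈ V := by
  induction l with
  | nil => exact ⟨⊥, by simp, fun b => (Submodule.mem_bot ℂ).2 (by ext a; simp [col_Mass])⟩
  | cons y l ih =>
    obtain ⟨V, h1, h2⟩ := ih fun z hz => h z (List.mem_cons_of_mem _ hz)
    obtain ⟨v, hv⟩ := prd_Mass (h y (List.mem_cons_self ..))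
    refine ⟨V ⊔ Submodule.span ℂ {v}, ?_, fun b => ?_⟩
    · refine (Submodule.finrank_add_le_finrank_add_finrank _ _).trans ?_
      exact add_le_add h1 ((finrank_span_le_card {v}).trans (by simp))
    · obtain ⟨c, hc⟩ := hv b
      have e : col_Mass A (y :: l).sum.ofLp b = col_Mass A l.sum.ofLp b + c • v := by
        rw [← hc]
        ext a
        simp [col_Mass, add_comm]
      rw [e]
      exact Submodule.add_mem_sup (h2 b)
        (Submodule.smul_mem _ c (Submodule.mem_span_singleton_self v))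

theorem red_eig_nonneg (A : Finset ι) (Ω : (ι → Fin q) → ℂ) (i : A → Fin q) :
    0 ≤ (red_isHermitian A Ω).eigenvalues i := by
  rw [eig_Mass (hT_Mass A Ω)]
  positivity

theorem red_eig_sum (A : Finset ι) (Ω : St ι q) :
    ∑ i, (red_isHermitian A Ω.ofLp).eigenvalues i = ‖Ω‖ ^ 2 := by
  simp only [eig_Mass (hT_Mass A Ω.ofLp)]
  rw [sum_comm, ← norm_Mass A Ω]
  exact sum_congr rfl fun b _ => OrthonormalBasis.sum_sq_norm_inner_right _ _

theorem small_mass (A : Finset ι) (Ω χ : St ι q) {d : ℝ} (h : SR A χ d) {θ : ℝ} (hθ : 0 ≤ θ) :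
    ∑ i ∈ univ.filter fun i => (red_isHermitian A Ω.ofLp).eigenvalues i < θ,
      (red_isHermitian A Ω.ofLp).eigenvalues i ≤ θ * d + ‖Ω - χ‖ ^ 2 := by
  obtain ⟨l, h1, h2, rfl⟩ := h
  obtain ⟨V, h3, h4⟩ := span_Mass l h1
  refine (small_Mass (hT_Mass A Ω.ofLp) V h4 hθ).trans (add_le_add
    (mul_le_mul_of_nonneg_left (le_trans (by exact_mod_cast h3) h2) hθ) (le_of_eq ?_))
  rw [← norm_Mass A]
  exact sum_congr rfl fun b _ => rfl

end Vale.Agent.P356
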