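import Vale.Agent.P356.Cap

/-!
The key inequality.
`multi_cut`: suppose every projector `P = proj (Y c) e` with `Cap`, `n ≤ D c`, `c ∈ I`, has
`‖P Ω‖ < μ = 1/(2|I|)` (otherwise `χ = P Ω` works: `inner Ω χ = ‖χ‖^2`). By
`Finset.induction_on_max` build `N` with: `‖N v‖ ≤ ‖v‖`, `N` is `Loc (Y c')` for every `c'`
above all elements treated so far, `N (ψ c) = 0` for treated `c`, `‖Ω - N Ω‖ ≤ card * μ`: for the new
maximum `c` let `P` be the support projector (`exists_supp`) of `N (ψ c)` (rank `D c` by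
`SR.apply`, `Loc.rk_one`) and `N' = (1 - P) * N`. Then `‖N Ω‖ = ‖N (Ω - ∑ ψ)‖ ≤ 1/4`, while
`‖N Ω‖ ≥ 1/2`.
`exists_input`: take `Apx.cap` families `e_c` on `Y c \ D` and `f` on `D` (size `n ≤ dD`). By
`Finset.induction_on_max` build `N` (new `N' = N * proj`) with `‖N v‖ ≤ ‖v‖`, `Loc Dᶜ`-type
commutation (each projector commutes with `rone D f_α`, `Loc.commute`), `Loc (Y c')` above,
`‖Ω - N Ω'‖ ≤ card * η + ‖Ω - Ω'‖`-type estimate and `SR (Y c) (N (rone D f' v)) (d c)` for all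
`v` and all `f'` with `Dep D f'` (`Cap.sr_rone`, `Y c \ D ∪ D = Y c`). With
`φ_α = N (rone D f_α Ω)`: `∑ φ_α = N (proj D f Ω)` is `1/4`-close to `Ω`, so
`∑ ‖inner Ω φ_α‖ ≥ 3/4`, `‖φ_α‖ ≤ t_α`, `∑ t_α^2 ≤ 1`, `∑ t_α ≤ sqrt n`. If every `α` failed,
`2 sqrt dD * 3/4 ≤ sqrt dD`, so `dD = 0`, `n = 0`, contradiction.
`key`: apply `K = ∑ K_c` to `φ`, divide by `inner Ω φ`, use `Shr.close` and `multi_cut`.
-/

namespace Vale.Agent.P356

open Finset

variable {ι : Type} [Fintype ι] [DecidableEq ι] {q G : ℕ} {γ : ℝ}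

theorem multi_build {Ω : St ι q} {Y : ℕ → Finset ι} (hY : Monotone Y) {I : Finset ℕ}
    {ψ : ℕ → St ι q} {D : ℕ → ℝ} {μ : ℝ} (h : ∀ c ∈ I, SR (Y c) (ψ c) (D c))
    (hs : ∀ c ∈ I, ∀ (n : ℕ) (e : Fin n → St ι q), (n : ℝ) ≤ D c → Cap (Y c) e →
      ‖proj (Y c) e Ω‖ ≤ μ) (s : Finset ℕ) : s ⊆ I → ∃ N : Op ι q, (∀ v, ‖N v‖ ≤ ‖v‖) ∧
      (∀ c', (∀ c ∈ s, c ≤ c') → Loc (Y c') N) ∧ (∀ c ∈ s, N (ψ c) = 0) ∧
        ‖Ω - N Ω‖ ≤ s.card * μ := by
  induction s using Finset.induction_on_max with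
  | empty => exact fun _ => ⟨1, fun v => le_rfl, fun c _ => Loc.one _, by simp, by simp⟩
  | insert a s ha ih =>
    intro hsub
    have haI : a ∈ I := hsub (mem_insert_self a s)
    obtain ⟨N, h1, h2, h3, h4⟩ := ih ((subset_insert a s).trans hsub)
    have h5 := (h a haI).apply (h2 a fun c hc => (ha c hc).le).rk_one
    rw [mul_one] at h5
    obtain ⟨n, e, hn, he, hfix⟩ := exists_supp h5
    have ap : ∀ v, ((1 - proj (Y a) e) * N) v = N v - proj (Y a) e (N v) := fun v => rfl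
    refine ⟨(1 - proj (Y a) e) * N, fun v => ?_, fun c' hc' => ?_, fun c hc => ?_, ?_⟩
    · rw [ap]
      exact (he.norm_le _).2.trans (h1 v)
    · exact ((Loc.one _).sub (he.proj_loc.mono (hY (hc' a (mem_insert_self a s))))).mul
        (h2 c' fun c hc => hc' c (mem_insert_of_mem hc))
    · rw [ap]
      rcases mem_insert.1 hc with rfl | hc
      · rw [hfix, sub_self]
      · rw [h3 c hc, map_zero, sub_self]
    · have e1 : Ω - ((1 - proj (Y a) e) * N) Ω =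
          proj (Y a) e Ω + ((Ω - N Ω) - proj (Y a) e (Ω - N Ω)) := by
        rw [ap, map_sub]
        abel
      rw [e1, card_insert_of_notMem fun hm => lt_irrefl a (ha a hm), Nat.cast_succ, add_mul,
        one_mul, add_comm _ μ]
      exact norm_add_le_of_le (hs a haI n e hn he) ((he.norm_le _).2.trans h4)

theorem multi_cut {Ω : St ι q} (hΩ : ‖Ω‖ = 1) {Y : ℕ → Finset ι} (hY : Monotone Y)
    (I : Finset ℕ) (ψ : ℕ → St ι q) (D : ℕ → ℝ) (h : ∀ c ∈ I, SR (Y c) (ψ c) (D c))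
    (hc : ‖Ω - ∑ c ∈ I, ψ c‖ ≤ 1 / 4) :
    ∃ c ∈ I, ∃ χ, SR (Y c) χ (D c) ∧ χ ≠ 0 ∧
      1 / (2 * (I.card : ℝ)) * ‖χ‖ ≤ ‖inner ℂ Ω χ‖ := by
  by_contra hne
  have hμ : (0 : ℝ) ≤ 1 / (2 * (I.card : ℝ)) := by positivity
  obtain ⟨N, h1, -, h3, h4⟩ := multi_build (Ω := Ω) (μ := 1 / (2 * (I.card : ℝ))) hY h
    (fun c hc n e hn he => by
      by_contra hlt
      rw [not_le] at hlt
      refine hne ⟨c, hc, proj (Y c) e Ω, (he.sr Ω).mono hn, norm_pos_iff.1 (hμ.trans_lt hlt), ?_⟩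
      rw [(norm_sq_split he.proj_symm he.proj_idem Ω).2, Complex.norm_real, Real.norm_eq_abs,
        abs_of_nonneg (sq_nonneg _), sq]
      exact mul_le_mul_of_nonneg_right hlt.le (norm_nonneg _)) I Subset.rfl
  have h5 : (I.card : ℝ) * (1 / (2 * (I.card : ℝ))) ≤ 1 / 2 := by
    rcases Nat.eq_zero_or_pos I.card with z | z
    · rw [z]
      norm_num
    · have : (I.card : ℝ) ≠ 0 := Nat.cast_ne_zero.2 z.ne'
      exact le_of_eq (by field_simp)
  have h6 := h1 (Ω - ∑ c ∈ I, ψ c)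
  rw [map_sub, map_sum, sum_eq_zero h3, sub_zero] at h6
  have h7 := norm_sub_norm_le Ω (N Ω)
  linarith

end Vale.Agent.P356
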