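import Vale.Agent.P356.Trunc
import Vale.Agent.P356.Decomp

/-!
The multi-cut approximate ground state projector.
`pow_cost`: `pow_decomp` with `V = V₀ + V₁`; for each `a, k` write
`V + ∑_{b ≠ a} z b • W b = L + R` with `L = V₀ + ∑_{b<a}`, `R = V₁ + ∑_{b>a}`; `L` is
`Loc (Y c)`, `R` is `Loc (Y c)ᶜ` for all `c ∈ I a` (so free; they commute, using one `c`);
`trunc_count` with `x = T/(T+1)`: `x⁻¹^e ≤ (1+1/T)^(T(τ+1)) ≤ 3^(τ+1)`, `2/(1-x)^2 = 2(T+1)^2`;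
`Cost.sumOf`, `MR.smul`, `MR.mono`, `MR.sum`.
`agsp`: take `θ, Λ` from `annulus`, `c` from `dl_converse`, `j₀` with `3 G θ / c + 1 ≤ 4^j₀`,
`i, C` from `agsp_numerics`, `T = 4^i`. Letters `W a = ∑_g M_{k₀+a} g`,
`V₀ = ∑_g orOp (zone 0 (8^k₀) ∩ cls g)`, `V₁ = ∑_g orOp ({t | 8^(k₀+T) ≤ col t} ∩ cls g)`,
`H = V₀ + V₁ + ∑ W a`, `Y = (G (T+2) + 1)⁻¹ • H` (symmetric, kills `Ω`, form in `[0,1]` by
`Gad.form`); `gad_cover` for each colour over the `T+2` zones (raise `θ = 1` to `θ` by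
`Gad.mono`) and `dl_converse` give the gap `c / (θ (G (T+2)+1))`, whose inverse is at most
`4^(i+j₀)` after replacing `c` by `min c 1` and choosing `j₀` with `(3G+1) θ / c ≤ 4^j₀`.
`agsp_poly` gives `P` of degree `ℓ ≤ 2^(i+j₀) s`; `aeval Y P` is a sum of `ℓ+1` multiples of
powers `H^e`, `e ≤ ℓ < T (ℓ/T+1)` (`Polynomial.aeval_eq_sum_range'`); `pow_cost` with `τ = ℓ/T`.
-/

namespace Vale.Agent.P356

open Finset

variable {ι : Type} [Fintype ι] [DecidableEq ι] {q G : ℕ} {γ : ℝ}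

private theorem pc_num {T : ℕ} (hT : 1 ≤ T) {Λ : ℝ} (hΛ : 1 ≤ Λ) (e τ : ℕ)
    (h : e < T * (τ + 1)) :
    ((T : ℝ) / (T + 1))⁻¹ ^ e * (2 / (1 - (T : ℝ) / (T + 1)) ^ 2) ^ (τ + 1) * Λ ^ τ ≤
      (6 * ((T : ℝ) + 1) ^ 2 * Λ) ^ (τ + 1) := by
  have hT0 : (0 : ℝ) < T := by exact_mod_cast hT
  have h1 : ((T : ℝ) / (T + 1))⁻¹ = 1 + (T : ℝ)⁻¹ := by field_simp
  have h2 : 2 / (1 - (T : ℝ) / (T + 1)) ^ 2 = 2 * ((T : ℝ) + 1) ^ 2 := by
    have : 1 - (T : ℝ) / (T + 1) = ((T : ℝ) + 1)⁻¹ := by field_simp; ring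
    rw [this]; field_simp
  have h3 : (1 + (T : ℝ)⁻¹) ^ T ≤ 3 := by
    have h4 : (1 + (T : ℝ)⁻¹) ^ T ≤ Real.exp (T : ℝ)⁻¹ ^ T :=
      pow_le_pow_left₀ (by positivity) (by linarith [Real.add_one_le_exp (T : ℝ)⁻¹]) T
    rw [← Real.exp_nat_mul, mul_inv_cancel₀ hT0.ne'] at h4
    linarith [Real.exp_one_lt_d9]
  have h5 : (1 + (T : ℝ)⁻¹) ^ e ≤ 3 ^ (τ + 1) := by
    calc (1 + (T : ℝ)⁻¹) ^ e ≤ (1 + (T : ℝ)⁻¹) ^ (T * (τ + 1)) :=
          pow_le_pow_right₀ (by have := inv_pos.2 hT0; linarith) h.le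
      _ = ((1 + (T : ℝ)⁻¹) ^ T) ^ (τ + 1) := pow_mul _ _ _
      _ ≤ 3 ^ (τ + 1) := pow_le_pow_left₀ (by positivity) h3 _
  have h6 : Λ ^ τ ≤ Λ ^ (τ + 1) := pow_le_pow_right₀ hΛ (Nat.le_succ τ)
  rw [h1, h2]
  have h7 : (6 * ((T : ℝ) + 1) ^ 2 * Λ) ^ (τ + 1) =
      3 ^ (τ + 1) * (2 * ((T : ℝ) + 1) ^ 2) ^ (τ + 1) * Λ ^ (τ + 1) := by
    rw [← mul_pow, ← mul_pow]; congr 1; ring
  rw [h7]
  have hΛ0 : 0 ≤ Λ := by linarith
  exact mul_le_mul (mul_le_mul_of_nonneg_right h5 (by positivity)) h6 (by positivity)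
    (by positivity)

private theorem pc_split {T : ℕ} (V₀ V₁ : Op ι q) (W : Fin T → Op ι q) (z : Fin T → ℂ)
    (a : Fin T) :
    V₀ + V₁ + ∑ b ∈ univ.erase a, z b • W b =
      (V₀ + ∑ b ∈ univ.filter (· < a), z b • W b) +
        (V₁ + ∑ b ∈ univ.filter (a < ·), z b • W b) := by
  have h : (univ.erase a : Finset (Fin T)) = univ.filter (· < a) ∪ univ.filter (a < ·) := by
    ext b
    simp only [mem_erase, mem_univ, and_true, mem_union, mem_filter, true_and]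
    exact ⟨fun h => lt_or_gt_of_ne h, fun h => h.elim ne_of_lt ne_of_gt⟩
  have hd : Disjoint (univ.filter (· < a) : Finset (Fin T)) (univ.filter (a < ·)) := by
    rw [disjoint_filter]
    exact fun b _ h1 h2 => lt_asymm h1 h2
  rw [h, sum_union hd]
  abel

theorem pow_cost {Y : ℕ → Finset ι} {T : ℕ} (hT : 1 ≤ T) (I : Fin T → Finset ℕ)
    (Iall : Finset ℕ) (hI : ∀ a, I a ⊆ Iall) (hne : ∀ a, (I a).Nonempty) (V₀ V₁ : Op ι q)
    (W : Fin T → Op ι q) (h₀ : ∀ a, ∀ c ∈ I a, Loc (Y c) V₀)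
    (h₁ : ∀ a, ∀ c ∈ I a, Loc (Y c)ᶜ V₁)
    (hl : ∀ a b, b < a → ∀ c ∈ I a, Loc (Y c) (W b))
    (hr : ∀ a b, a < b → ∀ c ∈ I a, Loc (Y c)ᶜ (W b)) {Λ : ℝ} (hΛ : 1 ≤ Λ)
    (hc : ∀ a, Cost Y (I a) {W a} fun j => Λ ^ j) (e τ : ℕ) (h : e < T * (τ + 1)) :
    MR Y Iall ((V₀ + V₁ + ∑ a, W a) ^ e)
      ((T : ℝ) * ((e : ℝ) + 1) ^ T * (6 * ((T : ℝ) + 1) ^ 2 * Λ) ^ (τ + 1)) := by
  obtain ⟨c, z, hd⟩ := pow_decomp (V₀ + V₁) W e τ h
  rw [hd]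
  have hT0 : (0 : ℝ) < T := by exact_mod_cast hT
  have hΛ0 : 0 ≤ Λ := by linarith
  have key : ∀ (a : Fin T) (k : Fin T → Fin (e + 1)),
      MR Y Iall (c a k • TR (V₀ + V₁ + ∑ b ∈ univ.erase a, z a k b • W b) (W a) e τ)
        ((6 * ((T : ℝ) + 1) ^ 2 * Λ) ^ (τ + 1)) := by
    intro a k
    refine MR.smul ?_ _
    rw [pc_split]
    have hL : ∀ c ∈ I a, Loc (Y c) (V₀ + ∑ b ∈ univ.filter (· < a), z a k b • W b) :=
      fun c hc => (h₀ a c hc).add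
        (Loc.sum _ fun b hb => (hl a b (mem_filter.1 hb).2 c hc).smul _)
    have hR : ∀ c ∈ I a, Loc (Y c)ᶜ (V₁ + ∑ b ∈ univ.filter (a < ·), z a k b • W b) :=
      fun c hc => (h₁ a c hc).add
        (Loc.sum _ fun b hb => (hr a b (mem_filter.1 hb).2 c hc).smul _)
    obtain ⟨c₀, hc₀⟩ := hne a
    have hcomm := (hL c₀ hc₀).commute (hR c₀ hc₀) disjoint_compl_right
    have hx0 : (0 : ℝ) < (T : ℝ) / (T + 1) := by positivity
    have hx1 : (T : ℝ) / (T + 1) < 1 := by rw [div_lt_one (by positivity)]; linarith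
    have htc := trunc_count (Y := Y) (I := I a) (𝒢 := {W a}) hcomm
      (fun c hc => (hL c hc).rk_one) (fun c hc => (hR c hc).rk_one_compl)
      (Set.mem_singleton _) hx0 hx1 e τ
    exact ((hc a).sumOf (by positivity) htc).mono (hI a) (pc_num hT hΛ e τ h) (by positivity)
  have h1 := MR.sum (Y := Y) (I := Iall) univ fun a (_ : a ∈ (univ : Finset (Fin T))) =>
    MR.sum (Y := Y) (I := Iall) univ fun k (_ : k ∈ (univ : Finset (Fin T → Fin (e + 1)))) =>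
      key a k
  refine h1.mono (Subset.refl _) (le_of_eq ?_) (by positivity)
  simp only [card_univ, Fintype.card_fin, Fintype.card_fun]
  push_cast
  ring

end Vale.Agent.P356
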