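import Vale.Agent.P356.Loc

/-!
The projector onto the range of a positive local operator is local, being a polynomial in it.
Either use an orthonormal eigenbasis of `A` (`LinearMap.IsSymmetric.eigenvectorBasis`) and a
Lagrange polynomial `f` with `f 0 = 0`, `f = 1` at the nonzero eigenvalues, `P = aeval A f`;
or the minimal polynomial. In the eigenbasis `re ⟨v, A v⟩ = ∑ λ_i |v_i|^2 ≤ c ∑_{λ_i ≠ 0} |v_i|^2`.
`agsp_poly`: there is a real polynomial `Q` of degree at most `2^i` with `Q 0 = 0`,
`0 ≤ Q ≤ 1` on `[0,1]` and `Q ≥ 1/θ_i` on `[1/θ, 1]`, `θ_i = 1 + (θ-1)/4^i ≤ 2`: iterate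
`y ↦ 4 y (1+η-y)/(1+η)^2` with `η = 1/θ`, which sends `θ` to `θ/4 + 3/4`
(`4θ/(θ+1)^2 ≥ 4/(θ+3)` for `θ ≥ 1`). Take `P = (1-Q)^s`. In the eigenbasis of `Y`: eigenvalues
lie in `[0,1]`; an eigenvector with nonzero eigenvalue is orthogonal to `Ω`, so the eigenvalue is
at least `1/θ`; an eigenvector with eigenvalue zero is a multiple of `Ω`.
-/

namespace Vale.Agent.P356

open Finset

variable {ι : Type} [Fintype ι] [DecidableEq ι] {q G : ℕ} {γ : ℝ}

theorem exists_proj {X : Finset ι} {A : Op ι q} {c : ℝ} (hs : A.IsSymmetric) (hl : Loc X A)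
    (h0 : ∀ v, 0 ≤ (inner ℂ v (A v)).re) (hc : ∀ v, (inner ℂ v (A v)).re ≤ c * ‖v‖ ^ 2) :
    ∃ P : Op ι q, P.IsSymmetric ∧ P * P = P ∧ Loc X P ∧ (∀ v, A v = 0 → P v = 0) ∧
      ∀ v, (inner ℂ v (A v)).re ≤ c * ‖P v‖ ^ 2 := by
  classical
  have _ := h0
  set b := hs.eigenvectorBasis rfl with hb
  set l := hs.eigenvalues rfl with hl'
  have hA : ∀ i, A (b i) = (l i : ℂ) • b i := hs.apply_eigenvectorBasis rfl
  set r : ℂ → ℂ := fun x => if x = 0 then 0 else 1 with hr
  set f := Lagrange.interpolate (insert 0 (univ.image fun i => (l i : ℂ))) id r with hf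
  have he : ∀ x ∈ insert (0 : ℂ) (univ.image fun i => (l i : ℂ)), f.eval x = r x := fun x hx =>
    Lagrange.eval_interpolate_at_node (v := id) r (Set.injOn_id _) hx
  have hP : ∀ i, Polynomial.aeval A f (b i) = r (l i) • b i := fun i => by
    rw [Module.End.aeval_apply_of_mem_apply_eq_smul (hA i), he _ (by simp)]
  have hsym : (Polynomial.aeval A f : Op ι q).IsSymmetric := by
    refine ((LinearMap.eq_adjoint_iff _ _).1
      ((LinearMap.eq_adjoint_iff_basis b.toBasis b.toBasis _ _).2 fun i j => ?_) :)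
    simp only [OrthonormalBasis.coe_toBasis, hP, inner_smul_left, inner_smul_right]
    by_cases hij : i = j
    · subst hij
      simp only [hr]
      split_ifs <;> simp
    · simp [b.orthonormal.2 hij]
  have hPAP : Polynomial.aeval A f * A * Polynomial.aeval A f = A := b.toBasis.ext fun i => by
    simp only [OrthonormalBasis.coe_toBasis, Module.End.mul_apply, hP, map_smul, hA, smul_smul, hr]
    split_ifs with h <;> simp [h]
  refine ⟨Polynomial.aeval A f, hsym, b.toBasis.ext fun i => ?_, hl.aeval f, fun v hv => ?_,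
    fun v => ?_⟩
  · simp only [OrthonormalBasis.coe_toBasis, Module.End.mul_apply, hP, map_smul, smul_smul, hr]
    split_ifs with h <;> simp
  · rw [Module.End.aeval_apply_of_mem_apply_eq_smul (μ := 0) (by rw [hv, zero_smul]),
      he _ (mem_insert_self _ _)]
    simp [hr]
  · have h1 := hc (Polynomial.aeval A f v)
    rwa [hsym, ← Module.End.mul_apply, ← Module.End.mul_apply, hPAP] at h1

end Vale.Agent.P356
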