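import Vale.Agent.P356.Basic

/-!
Rank calculus. All lemmas are list bookkeeping: `SumOf` concatenates, maps and multiplies lists.
`SR.apply`: induct over the list of product vectors. `SR.trivial`: expand in the `q^|Y|`
restrictions `σ|Y` (term for `a : Y → Fin q` is the indicator of `σ|Y = a` times
`ψ (glue Y a σ|Yᶜ)`).
-/

namespace Vale.Agent.P356

open Finset

variable {ι : Type} [Fintype ι] [DecidableEq ι] {q G : ℕ} {γ : ℝ}

theorem SumOf.nonneg {α : Type} [AddMonoid α] {P : α → Prop} {N : ℝ} {x : α}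
    (h : SumOf P N x) : 0 ≤ N := by
  obtain ⟨l, -, h2, -⟩ := h
  exact (Nat.cast_nonneg _).trans h2

theorem SumOf.mono {α : Type} [AddMonoid α] {P P' : α → Prop} {N N' : ℝ} {x : α}
    (h : SumOf P N x) (hP : ∀ y, P y → P' y) (hN : N ≤ N') : SumOf P' N' x := by
  obtain ⟨l, h1, h2, h3⟩ := h
  exact ⟨l, fun y hy => hP y (h1 y hy), h2.trans hN, h3⟩

theorem SumOf.zero {α : Type} [AddMonoid α] (P : α → Prop) {N : ℝ} (hN : 0 ≤ N) :
    SumOf P N 0 := ⟨[], by simp, by simpa using hN, rfl⟩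

theorem SumOf.single {α : Type} [AddMonoid α] {P : α → Prop} {x : α} (h : P x) :
    SumOf P 1 x := ⟨[x], by simpa using h, by simp, by simp⟩

theorem SumOf.add {α : Type} [AddMonoid α] {P : α → Prop} {N N' : ℝ} {x y : α}
    (h : SumOf P N x) (h' : SumOf P N' y) : SumOf P (N + N') (x + y) := by
  obtain ⟨l, h1, h2, rfl⟩ := h
  obtain ⟨l', h1', h2', rfl⟩ := h'
  refine ⟨l ++ l', fun z hz => (List.mem_append.1 hz).elim (h1 z) (h1' z), ?_, List.sum_append⟩
  rw [List.length_append, Nat.cast_add]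
  exact add_le_add h2 h2'

theorem SumOf.sum {α κ : Type} [AddCommMonoid α] {P : α → Prop} (s : Finset κ) {N : κ → ℝ}
    {x : κ → α} (h : ∀ i ∈ s, SumOf P (N i) (x i)) :
    SumOf P (∑ i ∈ s, N i) (∑ i ∈ s, x i) := by
  classical
  induction s using Finset.induction_on with
  | empty => exact SumOf.zero P (by simp)
  | insert a s ha ih =>
    rw [sum_insert ha, sum_insert ha]
    exact (h a (mem_insert_self a s)).add (ih fun i hi => h i (mem_insert_of_mem hi))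

/-- Substitution: each summand is itself a sum of at most `N'` elements. -/
theorem SumOf.bind {α β : Type} [AddMonoid α] [AddMonoid β] {P : α → Prop} {Q : β → Prop}
    {N N' : ℝ} {x : α} (f : α →+ β) (h : SumOf P N x) (hN' : 0 ≤ N')
    (hf : ∀ y, P y → SumOf Q N' (f y)) : SumOf Q (N * N') (f x) := by
  obtain ⟨l, h1, h2, rfl⟩ := h
  have key : SumOf Q (l.length * N') (f l.sum) := by
    clear h2
    induction l with
    | nil =>
      rw [List.sum_nil, map_zero]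
      exact SumOf.zero Q (by simp)
    | cons a l ih =>
      rw [List.sum_cons, map_add, List.length_cons, Nat.cast_succ, add_mul, one_mul, add_comm]
      exact (hf a (h1 a (by simp))).add (ih fun y hy => h1 y (List.mem_cons_of_mem a hy))
  exact key.mono (fun _ h => h) (mul_le_mul_of_nonneg_right h2 hN')

theorem SumOf.mul {α : Type} [Semiring α] {P Q T : α → Prop} {N N' : ℝ} {x y : α}
    (h : SumOf P N x) (h' : SumOf Q N' y) (hT : ∀ a b, P a → Q b → T (a * b)) :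
    SumOf T (N * N') (x * y) := by
  refine SumOf.bind (AddMonoidHom.mulRight y) h h'.nonneg fun a ha => ?_
  have h1 := SumOf.bind (Q := T) (AddMonoidHom.mulLeft a) h' zero_le_one
    fun b hb => SumOf.single (hT a b ha hb)
  rw [mul_one] at h1
  exact h1

theorem Prd.smul {Y : Finset ι} {ψ : St ι q} (h : Prd Y ψ) (c : ℂ) : Prd Y (c • ψ) := by
  obtain ⟨a, b, ha, hb, e⟩ := h
  refine ⟨fun σ => c * a σ, b, fun σ σ' h => ?_, hb, fun σ => ?_⟩
  · simp only [ha σ σ' h]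
  · rw [PiLp.smul_apply, e, smul_eq_mul, mul_assoc]

theorem Prd.zero (Y : Finset ι) : Prd Y (0 : St ι q) := ⟨fun _ => 0, fun _ => 0, fun _ _ _ => rfl,
  fun _ _ _ => rfl, fun σ => by simp⟩

theorem Prd.compl {Y : Finset ι} {ψ : St ι q} (h : Prd Y ψ) : Prd Yᶜ ψ := by
  obtain ⟨a, b, ha, hb, e⟩ := h
  exact ⟨b, a, hb, by rwa [compl_compl], fun σ => (e σ).trans (mul_comm _ _)⟩

theorem SR.mono {Y : Finset ι} {ψ : St ι q} {N N' : ℝ} (h : SR Y ψ N) (hN : N ≤ N') :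
    SR Y ψ N' := SumOf.mono h (fun _ h => h) hN

theorem SR.smul {Y : Finset ι} {ψ : St ι q} {N : ℝ} (h : SR Y ψ N) (c : ℂ) :
    SR Y (c • ψ) N := by
  have h1 := SumOf.bind (Q := Prd Y) (DistribSMul.toAddMonoidHom (St ι q) c) h zero_le_one
    fun y hy => SumOf.single (hy.smul c)
  rw [mul_one] at h1
  exact h1

theorem SR.compl {Y : Finset ι} {ψ : St ι q} {N : ℝ} (h : SR Y ψ N) : SR Yᶜ ψ N := SumOf.mono h (fun _ h => h.compl) le_rfl

theorem SR.trivial (Y : Finset ι) (ψ : St ι q) : SR Y ψ ((q : ℝ) ^ Y.card) := by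
  have h1 := SumOf.sum (P := Prd Y) (univ : Finset (Y → Fin q)) (N := fun _ => 1)
    (x := fun a => (WithLp.toLp 2 fun σ : ι → Fin q =>
      (if (fun x : Y => σ x) = a then 1 else 0) * ψ (glue Y a fun x => σ x) : St ι q))
    fun a _ => SumOf.single ⟨fun σ => if (fun x : Y => σ x) = a then 1 else 0,
      fun σ => ψ (glue Y a fun x => σ x), fun σ σ' h => by
        have e : (fun x : Y => σ x) = fun x : Y => σ' x := funext fun x => h x x.2
        simp only [e], fun σ σ' h => by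
        have e : (fun x : {x // x ∉ Y} => σ x) = fun x : {x // x ∉ Y} => σ' x :=
          funext fun x => h x (mem_compl.2 x.2)
        simp only [e], fun _ => rfl⟩
  have e1 : ∑ a : Y → Fin q, (WithLp.toLp 2 fun σ : ι → Fin q =>
      (if (fun x : Y => σ x) = a then 1 else 0) * ψ (glue Y a fun x => σ x) : St ι q) = ψ := by
    ext σ
    rw [WithLp.ofLp_sum, Finset.sum_apply]
    simp only [ite_mul, one_mul, zero_mul, sum_ite_eq, mem_univ, if_true]
    refine congrArg ψ.ofLp (funext fun x => ?_)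
    simp [glue]
  rw [e1] at h1
  simpa [SR] using h1

theorem SR.apply {Y : Finset ι} {ψ : St ι q} {M : Op ι q} {N N' : ℝ} (h : SR Y ψ N)
    (hM : RK Y M N') : SR Y (M ψ) (N * N') := SumOf.bind M.toAddMonoidHom h (hM 0 (Prd.zero Y)).nonneg hM

theorem RK.nonneg {Y : Finset ι} {M : Op ι q} {N : ℝ} (h : RK Y M N) : 0 ≤ N := (h 0 (Prd.zero Y)).nonneg

theorem RK.mono {Y : Finset ι} {M : Op ι q} {N N' : ℝ} (h : RK Y M N) (hN : N ≤ N') :
    RK Y M N' := fun ψ hψ => (h ψ hψ).mono hN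

theorem RK.zero (Y : Finset ι) {N : ℝ} (hN : 0 ≤ N) : RK Y (0 : Op ι q) N := fun _ _ => SumOf.zero _ hN

theorem RK.one (Y : Finset ι) : RK Y (1 : Op ι q) 1 := fun _ hψ => SumOf.single hψ

theorem RK.add {Y : Finset ι} {M M' : Op ι q} {N N' : ℝ} (h : RK Y M N) (h' : RK Y M' N') :
    RK Y (M + M') (N + N') := fun ψ hψ => SumOf.add (h ψ hψ) (h' ψ hψ)

theorem RK.smul {Y : Finset ι} {M : Op ι q} {N : ℝ} (h : RK Y M N) (c : ℂ) :
    RK Y (c • M) N := fun ψ hψ => (h ψ hψ).smul c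

theorem RK.mul {Y : Finset ι} {M M' : Op ι q} {N N' : ℝ} (h : RK Y M N) (h' : RK Y M' N') :
    RK Y (M * M') (N * N') := fun ψ hψ => by
  rw [mul_comm N]
  exact (h' ψ hψ).apply h

theorem RK.pow {Y : Finset ι} {M : Op ι q} {N : ℝ} (h : RK Y M N) (n : ℕ) :
    RK Y (M ^ n) (N ^ n) := by
  induction n with
  | zero =>
    rw [pow_zero, pow_zero]
    exact RK.one Y
  | succ n ih =>
    rw [pow_succ, pow_succ]
    exact ih.mul h

theorem RK.compl {Y : Finset ι} {M : Op ι q} {N : ℝ} (h : RK Y M N) : RK Yᶜ M N := fun ψ hψ => by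
  have h1 := hψ.compl
  rw [compl_compl] at h1
  exact (h ψ h1).compl

theorem Apx.mono {Ω : St ι q} {Y : Finset ι} {d d' η η' : ℝ} (h : Apx Ω Y d η) (hd : d ≤ d')
    (hη : η ≤ η') : Apx Ω Y d' η' := by
  obtain ⟨χ, h1, h2⟩ := h
  exact ⟨χ, h1.mono hd, h2.trans hη⟩

theorem Apx.compl {Ω : St ι q} {Y : Finset ι} {d η : ℝ} (h : Apx Ω Y d η) :
    Apx Ω Yᶜ d η := by
  obtain ⟨χ, h1, h2⟩ := h
  exact ⟨χ, h1.compl, h2⟩

theorem Apx.trivial (Ω : St ι q) (Y : Finset ι) : Apx Ω Y ((q : ℝ) ^ Y.card) 0 := ⟨Ω, SR.trivial Y Ω, by simp⟩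

theorem Shr.mul {Ω : St ι q} {K K' : Op ι q} {δ δ' : ℝ} (h : Shr Ω K δ) (h' : Shr Ω K' δ')
    (hδ : 0 ≤ δ) : Shr Ω (K * K') (δ * δ') := by
  refine ⟨by rw [Module.End.mul_apply, h'.1, h.1], fun v hv => ?_⟩
  obtain ⟨h1, h2⟩ := h'.2 v hv
  obtain ⟨h3, h4⟩ := h.2 _ h1
  refine ⟨h3, h4.trans ?_⟩
  rw [mul_assoc]
  exact mul_le_mul_of_nonneg_left h2 hδ

theorem Shr.pow {Ω : St ι q} {K : Op ι q} {δ : ℝ} (h : Shr Ω K δ) (hδ : 0 ≤ δ) (n : ℕ) :
    Shr Ω (K ^ n) (δ ^ n) := by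
  induction n with
  | zero => exact ⟨rfl, fun v hv => ⟨hv, by simp⟩⟩
  | succ n ih =>
    rw [pow_succ, pow_succ]
    exact ih.mul h (pow_nonneg hδ n)

theorem Shr.mono {Ω : St ι q} {K : Op ι q} {δ δ' : ℝ} (h : Shr Ω K δ) (hδ : δ ≤ δ') :
    Shr Ω K δ' := ⟨h.1, fun v hv => ⟨(h.2 v hv).1,
  (h.2 v hv).2.trans (mul_le_mul_of_nonneg_right hδ (norm_nonneg v))⟩⟩

/-- `K φ` is close to the component of `φ` along the unit vector `Ω`. -/
theorem Shr.close {Ω : St ι q} {K : Op ι q} {δ : ℝ} (h : Shr Ω K δ) (hδ : 0 ≤ δ)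
    (hΩ : ‖Ω‖ = 1) (φ : St ι q) : ‖K φ - inner ℂ Ω φ • Ω‖ ≤ δ * ‖φ‖ := by
  have h0 : inner ℂ Ω (φ - inner ℂ Ω φ • Ω) = 0 := by
    rw [inner_sub_right, inner_smul_right, inner_self_eq_norm_sq_to_K, hΩ]
    simp
  have h1 := (h.2 _ h0).2
  rw [map_sub, map_smul, h.1] at h1
  refine h1.trans (mul_le_mul_of_nonneg_left ?_ hδ)
  have h2 : inner ℂ (inner ℂ Ω φ • Ω) (φ - inner ℂ Ω φ • Ω) = 0 := by
    rw [inner_smul_left, h0, mul_zero]
  have h3 := norm_add_sq_eq_norm_sq_add_norm_sq_of_inner_eq_zero _ _ h2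
  rw [add_sub_cancel] at h3
  refine (mul_self_le_mul_self_iff (norm_nonneg _) (norm_nonneg _)).2 ?_
  nlinarith [mul_self_nonneg ‖inner ℂ Ω φ • Ω‖]

end Vale.Agent.P356
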