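import Vale.Agent.P356.Step

/-!
Solving the recursion. `rec_solve`: `λ = M^2 - M/2 ≥ 2M`, `2 - γ' = log λ / log M`, so
`(M^t)^(2-γ') = λ^t`; `t+1 ≤ 2^t`; `C' = max a₀ C`. `rect`: by induction on `t`,
`Small (W M^t) (2^(C' (M^t)^(2-γ')))`; base `Apx.trivial`, `box_card`, `q^(W^2) ≤ 2^(q W^2)`;
for `l ≥ 1` take the least `t` with `l ≤ M^t`, so `M^t ≤ M l`.
-/

namespace Vale.Agent.P356

open Finset

theorem rec_solve {M C a₀ : ℝ} (hM : 8 ≤ M) (hC : 0 ≤ C) (ha : 0 ≤ a₀) :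
    ∃ γ' C' : ℝ, 0 < γ' ∧ γ' ≤ 1 ∧ a₀ ≤ C' ∧ ∀ t : ℕ,
      (M ^ 2 - M) * (C' * (M ^ t) ^ (2 - γ')) + C * (t + 1) * M ^ t ≤
        C' * (M ^ (t + 1)) ^ (2 - γ') := by
  have h1 : 1 < M := by linarith
  have h2 : 2 * M ≤ M ^ 2 - M / 2 := by nlinarith
  have h3 : 0 < M ^ 2 - M / 2 := by linarith
  have h4 : ∀ t : ℕ, (M ^ t) ^ (2 - (2 - Real.logb M (M ^ 2 - M / 2))) = (M ^ 2 - M / 2) ^ t :=
    fun t => by
      rw [sub_sub_cancel, ← Real.rpow_natCast, ← Real.rpow_mul (by linarith), mul_comm,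
        Real.rpow_mul (by linarith), Real.rpow_logb (by linarith) h1.ne' h3, Real.rpow_natCast]
  refine ⟨2 - Real.logb M (M ^ 2 - M / 2), max a₀ C, ?_, ?_, le_max_left _ _, fun t => ?_⟩
  · rw [sub_pos, Real.logb_lt_iff_lt_rpow h1 h3, Real.rpow_two]
    linarith
  · have h5 : 1 ≤ Real.logb M (M ^ 2 - M / 2) := by
      rw [Real.le_logb_iff_rpow_le h1 h3, Real.rpow_one]
      linarith
    linarith
  · rw [h4, h4, pow_succ _ t]
    have h5 : (t : ℝ) + 1 ≤ 2 ^ t := by exact_mod_cast Nat.lt_two_pow_self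
    have h6 : ((t : ℝ) + 1) * M ^ t ≤ (M ^ 2 - M / 2) ^ t :=
      calc ((t : ℝ) + 1) * M ^ t ≤ 2 ^ t * M ^ t := by gcongr
        _ = (2 * M) ^ t := (mul_pow _ _ _).symm
        _ ≤ _ := by gcongr
    have h7 : C * (((t : ℝ) + 1) * M ^ t) ≤ max a₀ C * (M ^ 2 - M / 2) ^ t :=
      mul_le_mul (le_max_right _ _) h6 (by positivity) (by positivity)
    have h8 : 0 ≤ max a₀ C * (M ^ 2 - M / 2) ^ t * (M / 2 - 1) :=
      mul_nonneg (by positivity) (by linarith)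
    linarith

theorem rect (q R G : ℕ) {γ : ℝ} (hγ : 0 < γ) : ∃ γ' C : ℝ, 0 < γ' ∧ γ' ≤ 1 ∧ 0 ≤ C ∧
    ∀ (L : ℕ) (S : Sys (Site L) q G γ), (∀ t, S.X t = ball R t) → ∀ l : ℕ, 1 ≤ l →
      Small S.Ω l (2 ^ (C * (l : ℝ) ^ (2 - γ'))) (1 / 2) := by
  obtain ⟨N, C, hN, hC, hs⟩ := step q R G hγ
  have hM : (8 : ℝ) ≤ 8 ^ N := le_self_pow₀ (by norm_num) (by omega)
  obtain ⟨γ', C', h0, h1, h2, h3⟩ := rec_solve hM hC
    (Nat.cast_nonneg (q * ((2 * R + 1) * (2 * R + 1))))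
  have hC' : 0 ≤ C' := (Nat.cast_nonneg _).trans h2
  refine ⟨γ', C' * ((8 : ℝ) ^ N) ^ (2 - γ'), h0, h1, by positivity, fun L S hS l hl => ?_⟩
  have key : ∀ t : ℕ, Small S.Ω ((2 * R + 1) * (8 ^ N) ^ t)
      (2 ^ (C' * (((8 : ℝ) ^ N) ^ t) ^ (2 - γ'))) (1 / 2) := by
    intro t
    induction t with
    | zero =>
      intro x0 x1 y0 y1 hx hy
      rw [pow_zero, mul_one] at hx hy
      refine (Apx.trivial _ _).mono ?_ (by norm_num)
      have h4 : (box L x0 x1 y0 y1).card ≤ (2 * R + 1) * (2 * R + 1) :=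
        (box_card L x0 x1 y0 y1).trans (Nat.mul_le_mul (by omega) (by omega))
      have h5 : q ^ (box L x0 x1 y0 y1).card ≤ 2 ^ (q * ((2 * R + 1) * (2 * R + 1))) := by
        rw [pow_mul]
        exact (Nat.pow_le_pow_right S.qpos h4).trans
          (Nat.pow_le_pow_left Nat.lt_two_pow_self.le _)
      rw [pow_zero, Real.one_rpow, mul_one]
      refine le_trans ?_ (Real.rpow_le_rpow_of_exponent_le one_le_two h2)
      rw [Real.rpow_natCast]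
      exact_mod_cast h5
    | succ t ih =>
      intro x0 x1 y0 y1 hx hy
      exact (hs L S hS t _ (by positivity) ih x0 x1 y0 y1 hx hy).mono
        (Real.rpow_le_rpow_of_exponent_le one_le_two (h3 t)) le_rfl
  obtain ⟨n, h4, h5⟩ := exists_nat_pow_near (y := 8 ^ N) hl (Nat.one_lt_pow (by omega) (by norm_num))
  have h6 : l ≤ (2 * R + 1) * (8 ^ N) ^ (n + 1) := h5.le.trans (Nat.le_mul_of_pos_left _ (by omega))
  intro x0 x1 y0 y1 hx hy
  refine (key (n + 1) x0 x1 y0 y1 (by omega) (by omega)).mono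
    (Real.rpow_le_rpow_of_exponent_le one_le_two ?_) le_rfl
  have h7 : ((8 : ℝ) ^ N) ^ n ≤ l := by exact_mod_cast h4
  rw [mul_assoc, ← Real.mul_rpow (by positivity) (by positivity), pow_succ']
  refine mul_le_mul_of_nonneg_left (Real.rpow_le_rpow (by positivity) ?_ (by linarith)) hC'
  gcongr

end Vale.Agent.P356
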