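import Vale.Agent.P356.Core
import Vale.Agent.P356.Agsp

/-!
`step`: take `T, C` from `agsp` (with `A = 8 (2R+1)^2`), `B` from `boost`, `N = 2T+5`,
`m = N t`; `Small.boost` with `u = 3(m+N) + 6N + 4`, `η = (1/2)^u`; `step_core`; bound
`B ≤ 2^β`, `16 C ≤ 2^β'` and collect the exponents: all extra terms are at most a constant times
`(t+1) M^t`.
-/

namespace Vale.Agent.P356

open Finset

private theorem step_nat (W N M E t P : ℕ) (hP : 1 ≤ P) (hM : 1 ≤ M) :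
    4 * W * (W * P + W) * (3 * (N * t + N) + 6 * N + 4 + 2) * E +
        4 * W * (W * (P * M) + W) * (3 * (N * t + N) + 3) ≤
      (8 * W ^ 2 * (9 * N + 6) * E + 8 * W ^ 2 * M * (3 * N + 3)) * ((t + 1) * P) := by
  have h1 : W * P + W ≤ 2 * (W * P) := by
    have := Nat.mul_le_mul_left W hP
    omega
  have h2 : 3 * (N * t + N) + 6 * N + 4 + 2 ≤ (9 * N + 6) * (t + 1) := by
    have e : (9 * N + 6) * (t + 1) = 9 * (N * t) + 9 * N + 6 * t + 6 := by ring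
    omega
  have h3 : W * (P * M) + W ≤ 2 * (W * (P * M)) := by
    have := Nat.mul_le_mul_left W (Nat.mul_le_mul hP hM)
    omega
  have h4 : 3 * (N * t + N) + 3 ≤ (3 * N + 3) * (t + 1) := by
    have e : (3 * N + 3) * (t + 1) = 3 * (N * t) + 3 * N + 3 * t + 3 := by ring
    omega
  calc _ ≤ 4 * W * (2 * (W * P)) * ((9 * N + 6) * (t + 1)) * E +
        4 * W * (2 * (W * (P * M))) * ((3 * N + 3) * (t + 1)) := by gcongr
    _ = _ := by ring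

private theorem step_eta (m N : ℕ) :
    ((8 : ℝ) ^ (m + N) + 1) * (2 * ((8 : ℝ) ^ N) ^ 2 * (1 / 2) ^ (3 * (m + N) + 6 * N + 4)) ≤
      1 / 4 := by
  have h1 : (1 : ℝ) ≤ 8 ^ (m + N) := one_le_pow₀ (by norm_num)
  have e1 : (8 : ℝ) ^ (m + N) * (1 / 2) ^ (3 * (m + N)) = 1 := by
    rw [pow_mul, ← mul_pow]
    norm_num
  have e2 : ((8 : ℝ) ^ N) ^ 2 * (1 / 2) ^ (6 * N) = 1 := by
    rw [← pow_mul, mul_comm N 2, pow_mul, pow_mul, ← mul_pow]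
    norm_num
  calc _ ≤ (2 * (8 : ℝ) ^ (m + N)) *
        (2 * ((8 : ℝ) ^ N) ^ 2 * (1 / 2) ^ (3 * (m + N) + 6 * N + 4)) := by
        gcongr
        linarith
    _ = 4 * ((8 : ℝ) ^ (m + N) * (1 / 2) ^ (3 * (m + N))) *
        (((8 : ℝ) ^ N) ^ 2 * (1 / 2) ^ (6 * N)) * (1 / 2) ^ 4 := by
        rw [pow_add (1 / 2 : ℝ) _ 4, pow_add (1 / 2 : ℝ) _ (6 * N)]
        ring
    _ = 1 / 4 := by
        rw [e1, e2]
        norm_num

private theorem step_real {a B C : ℝ} (hB : 1 ≤ B) (hC : 1 ≤ C) {e₁ e₂ E K n : ℕ} (hn : 1 ≤ n)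
    (h : e₁ * E + e₂ ≤ K * n) :
    ((2 : ℝ) ^ a * B ^ e₁) ^ E * (16 * C) * B ^ e₂ ≤
      2 ^ ((E : ℝ) * a + (Real.logb 2 B * K + Real.logb 2 (16 * C)) * n) := by
  have hβ : 0 ≤ Real.logb 2 B := Real.logb_nonneg (by norm_num) hB
  have hβ' : 0 ≤ Real.logb 2 (16 * C) := Real.logb_nonneg (by norm_num) (by linarith)
  have eB : (2 : ℝ) ^ Real.logb 2 B = B :=
    Real.rpow_logb (by norm_num) (by norm_num) (by linarith)
  have eC : (2 : ℝ) ^ Real.logb 2 (16 * C) = 16 * C :=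
    Real.rpow_logb (by norm_num) (by norm_num) (by linarith)
  have h1 : B ^ (e₁ * E + e₂) ≤ (2 : ℝ) ^ (Real.logb 2 B * ((K : ℝ) * n)) := by
    rw [Real.rpow_mul (by norm_num), eB, ← Nat.cast_mul, Real.rpow_natCast]
    exact pow_le_pow_right₀ hB h
  have h2 : 16 * C ≤ (2 : ℝ) ^ (Real.logb 2 (16 * C) * n) := by
    refine eC.symm.le.trans (Real.rpow_le_rpow_of_exponent_le (by norm_num) ?_)
    exact le_mul_of_one_le_right hβ' (by exact_mod_cast hn)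
  have h3 : ((2 : ℝ) ^ a) ^ E = 2 ^ ((E : ℝ) * a) := by
    rw [mul_comm, Real.rpow_mul (by norm_num), Real.rpow_natCast]
  have h0 : (0 : ℝ) ≤ B ^ (e₁ * E + e₂) := by positivity
  calc _ = (2 : ℝ) ^ ((E : ℝ) * a) * (B ^ (e₁ * E + e₂) * (16 * C)) := by
        rw [mul_pow, h3, ← pow_mul, pow_add]
        ring
    _ ≤ (2 : ℝ) ^ ((E : ℝ) * a) * ((2 : ℝ) ^ (Real.logb 2 B * ((K : ℝ) * n)) *
        (2 : ℝ) ^ (Real.logb 2 (16 * C) * n)) := by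
        gcongr
    _ = _ := by
        rw [← Real.rpow_add (by norm_num), ← Real.rpow_add (by norm_num)]
        congr 1
        ring

theorem step (q R G : ℕ) {γ : ℝ} (hγ : 0 < γ) : ∃ (N : ℕ) (C : ℝ), 1 ≤ N ∧ 0 ≤ C ∧
    ∀ (L : ℕ) (S : Sys (Site L) q G γ), (∀ t, S.X t = ball R t) → ∀ (t : ℕ) (a : ℝ), 0 ≤ a →
      Small S.Ω ((2 * R + 1) * (8 ^ N) ^ t) (2 ^ a) (1 / 2) →
      Small S.Ω ((2 * R + 1) * (8 ^ N) ^ (t + 1))
        (2 ^ ((((8 : ℝ) ^ N) ^ 2 - 8 ^ N) * a + C * (t + 1) * ((8 : ℝ) ^ N) ^ t)) (1 / 2) := by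
  obtain ⟨T, C, -, hC, hA⟩ := agsp q G (8 * (2 * R + 1) ^ 2) hγ
  obtain ⟨B, hB, hb⟩ := boost q G hγ
  obtain ⟨N, hN⟩ : ∃ N, N = 2 * T + 5 := ⟨_, rfl⟩
  obtain ⟨K, hK⟩ : ∃ K : ℕ, K = 8 * (2 * R + 1) ^ 2 * (9 * N + 6) * ((8 ^ N) ^ 2 - 8 ^ N) +
    8 * (2 * R + 1) ^ 2 * 8 ^ N * (3 * N + 3) := ⟨_, rfl⟩
  have hβ : 0 ≤ Real.logb 2 B := Real.logb_nonneg (by norm_num) hB
  have hβ' : 0 ≤ Real.logb 2 (16 * C) := Real.logb_nonneg (by norm_num) (by linarith)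
  refine ⟨N, Real.logb 2 B * K + Real.logb 2 (16 * C), by omega, by positivity,
    fun L S hS t a ha h => ?_⟩
  rw [← pow_mul] at h
  have h1 := Small.boost S hS hB (hb _ S) h (3 * (N * t + N) + 6 * N + 4)
  have hd : (1 : ℝ) ≤ 2 ^ a * B ^ (4 * (2 * R + 1) * ((2 * R + 1) * 8 ^ (N * t) + (2 * R + 1)) *
      (3 * (N * t + N) + 6 * N + 4 + 2)) :=
    one_le_mul_of_one_le_of_one_le (Real.one_le_rpow (by norm_num) ha) (one_le_pow₀ hB)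
  have h2 := step_core (T := T) (m := N * t) S hS hC hB (hA _ S) (hb _ S) hd (by positivity)
    (by rw [← hN]; exact step_eta (N * t) N) h1
  rw [← hN] at h2
  have hM : 1 ≤ 8 ^ N := Nat.one_le_pow _ _ (by norm_num)
  have hP : 1 ≤ 8 ^ (N * t) := Nat.one_le_pow _ _ (by norm_num)
  have h3 := step_nat (2 * R + 1) N (8 ^ N) ((8 ^ N) ^ 2 - 8 ^ N) t (8 ^ (N * t)) hP hM
  rw [← hK, ← pow_add] at h3
  have h4 := step_real (a := a) hB hC (Nat.mul_le_mul (Nat.le_add_left 1 t) hP) h3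
  have e1 : (8 ^ N) ^ (t + 1) = 8 ^ (N * t + N) := by rw [← pow_mul, mul_add, mul_one]
  rw [e1]
  intro x0 x1 y0 y1 hx hy
  refine (h2 x0 x1 y0 y1 hx hy).mono (h4.trans (le_of_eq ?_)) le_rfl
  congr 1
  have hle : 8 ^ N ≤ (8 ^ N) ^ 2 := Nat.le_self_pow (by norm_num) _
  rw [Nat.cast_sub hle]
  push_cast
  rw [pow_mul]
  ring

end Vale.Agent.P356
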