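import Vale.Agent.P356.Poly
import Vale.Agent.P356.Cap

/-!
Functions of the commuting projectors of one colour. Terms of the same colour commute
(`disj`, `Loc.commute`). `decomp`: by induction on a finset `C` of terms of colour `g`, every
vector is a sum of mutually orthogonal joint eigenvectors of the `p t`, `t ∈ C` (split each
piece `w` as `p t w + (w - p t w)`); equivalently use `E x = ∏ (p t or 1 - p t)`. Vectors with
different patterns inside `cls g` are orthogonal (symmetry of `p t`). Then for `Sym g f M`,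
`inner u (M v) = ∑ f x * inner (u x) (v x)`, which gives symmetry and the form bounds.
`Ω` has the empty pattern. `orOp C` is `Sym` with `f x = 1` if `x` meets `C` and `0` otherwise
(induct on the list).
-/

namespace Vale.Agent.P356

open Finset

variable {ι : Type} [Fintype ι] [DecidableEq ι] {q G : ℕ} {γ : ℝ}

theorem Sys.comm_Sym (S : Sys ι q G γ) {t t' : ι} (h : S.clr t = S.clr t') (v : St ι q) :
    S.p t (S.p t' v) = S.p t' (S.p t v) := by
  by_cases e : t = t'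
  · rw [e]
  · have := ((S.loc t).commute (S.loc t') (S.disj t t' e h)).eq
    exact congrArg (fun M : Op ι q => M v) this

theorem Sys.idem_Sym (S : Sys ι q G γ) (t : ι) (v : St ι q) : S.p t (S.p t v) = S.p t v :=
  congrArg (fun M : Op ι q => M v) (S.idem t)

theorem Sys.decomp_Sym (S : Sys ι q G γ) (g : ℕ) (v : St ι q) (C : Finset ι)
    (hC : ∀ t ∈ C, S.clr t = g) :
    ∃ w : Finset ι → St ι q, (∀ x, ∀ t ∈ C, S.p t (w x) = if t ∈ x then w x else 0) ∧
      ∑ x ∈ C.powerset, w x = v := by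
  induction C using Finset.induction_on with
  | empty => exact ⟨fun _ => v, by simp, by simp⟩
  | insert s C hs ih =>
    obtain ⟨w, hw, hv⟩ := ih fun t ht => hC t (mem_insert_of_mem ht)
    refine ⟨fun x => if s ∈ x then S.p s (w (x.erase s))
      else w (x.erase s) - S.p s (w (x.erase s)), fun x t ht => ?_, ?_⟩
    · rcases mem_insert.1 ht with rfl | ht'
      · by_cases hx : t ∈ x
        · simp only [if_pos hx, S.idem_Sym]
        · simp only [if_neg hx, map_sub, S.idem_Sym, sub_self]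
      · have hne : t ≠ s := fun e => hs (e ▸ ht')
        have hc : S.clr t = S.clr s := (hC t ht).trans (hC s (mem_insert_self _ _)).symm
        have h1 := hw (x.erase s) t ht'
        by_cases hx : t ∈ x
        · rw [if_pos (mem_erase.2 ⟨hne, hx⟩)] at h1
          rw [if_pos hx]
          by_cases hsx : s ∈ x
          · simp only [if_pos hsx]
            rw [S.comm_Sym hc, h1]
          · simp only [if_neg hsx]
            rw [map_sub, S.comm_Sym hc, h1]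
        · rw [if_neg (fun h => hx (mem_of_mem_erase h))] at h1
          rw [if_neg hx]
          by_cases hsx : s ∈ x
          · simp only [if_pos hsx]
            rw [S.comm_Sym hc, h1, map_zero]
          · simp only [if_neg hsx]
            rw [map_sub, S.comm_Sym hc, h1, map_zero, sub_zero]
    · rw [sum_powerset_insert hs, ← sum_add_distrib, ← hv]
      refine sum_congr rfl fun x hx => ?_
      have hsx : s ∉ x := fun h => hs (mem_powerset.1 hx h)
      simp only [if_neg hsx, if_pos (mem_insert_self s x), erase_insert hsx,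
        erase_eq_of_notMem hsx, sub_add_cancel]

theorem Sys.decomp (S : Sys ι q G γ) (g : ℕ) (v : St ι q) :
    ∃ w : Finset ι → St ι q, (∀ x, S.Pat g x (w x)) ∧ ∑ x ∈ (S.cls g).powerset, w x = v := by
  obtain ⟨w, hw, hv⟩ := S.decomp_Sym g v (S.cls g) fun t ht => (mem_filter.1 ht).2
  exact ⟨w, fun x t ht => hw x t (mem_filter.2 ⟨mem_univ _, ht⟩), hv⟩

theorem Sys.Pat.orth_Sym {S : Sys ι q G γ} {g : ℕ} {x y : Finset ι} {u v : St ι q}
    (hu : S.Pat g x u) (hv : S.Pat g y v) {t : ι} (ht : S.clr t = g) (hx : t ∈ x) (hy : t ∉ y) :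
    inner ℂ u v = 0 := by
  have h1 := hu t ht
  have h2 := hv t ht
  rw [if_pos hx] at h1
  rw [if_neg hy] at h2
  rw [← h1, S.symm t, h2, inner_zero_right]

theorem Sys.Pat.orth {S : Sys ι q G γ} {g : ℕ} {x y : Finset ι} {u v : St ι q}
    (hu : S.Pat g x u) (hv : S.Pat g y v) (hx : x ⊆ S.cls g) (hy : y ⊆ S.cls g) (hne : x ≠ y) :
    inner ℂ u v = 0 := by
  by_cases h : x ⊆ y
  · have h' : ¬ y ⊆ x := fun h' => hne (Subset.antisymm h h')
    obtain ⟨t, ht, ht'⟩ := not_subset.1 h'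
    exact inner_eq_zero_symm.1 (hv.orth_Sym hu (mem_filter.1 (hy ht)).2 ht ht')
  · obtain ⟨t, ht, ht'⟩ := not_subset.1 h
    exact hu.orth_Sym hv (mem_filter.1 (hx ht)).2 ht ht'

theorem Sys.Sym.inner_Sym {S : Sys ι q G γ} {g : ℕ} {f : Finset ι → ℝ} {M : Op ι q}
    (h : S.Sym g f M) {u v : Finset ι → St ι q} (hu : ∀ x, S.Pat g x (u x))
    (hv : ∀ x, S.Pat g x (v x)) :
    inner ℂ (∑ x ∈ (S.cls g).powerset, u x) (M (∑ x ∈ (S.cls g).powerset, v x)) =
      ∑ x ∈ (S.cls g).powerset, (f x : ℂ) * inner ℂ (u x) (v x) := by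
  rw [map_sum, inner_sum]
  refine sum_congr rfl fun y hy => ?_
  rw [h y _ (hv y), inner_smul_right, sum_inner, sum_eq_single y]
  · intro x hx hne
    exact (hu x).orth (hv y) (mem_powerset.1 hx) (mem_powerset.1 hy) hne
  · intro h'
    exact absurd hy h'

theorem Sys.Sym.re_Sym {S : Sys ι q G γ} {g : ℕ} {f : Finset ι → ℝ} {M : Op ι q}
    (h : S.Sym g f M) {w : Finset ι → St ι q} (hw : ∀ x, S.Pat g x (w x)) {v : St ι q}
    (hv : ∑ x ∈ (S.cls g).powerset, w x = v) :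
    (inner ℂ v (M v)).re = ∑ x ∈ (S.cls g).powerset, f x * ‖w x‖ ^ 2 := by
  rw [← hv, h.inner_Sym hw hw, Complex.re_sum]
  refine sum_congr rfl fun x _ => ?_
  rw [Complex.re_ofReal_mul, ← inner_self_eq_norm_sq (𝕜 := ℂ)]
  rfl

theorem Sys.Sym.symm_Sym {S : Sys ι q G γ} {g : ℕ} {f : Finset ι → ℝ} {M : Op ι q}
    (h : S.Sym g f M) : M.IsSymmetric := by
  intro u v
  obtain ⟨a, ha, rfl⟩ := S.decomp g u
  obtain ⟨b, hb, rfl⟩ := S.decomp g v
  rw [← inner_conj_symm, h.inner_Sym hb ha, h.inner_Sym ha hb, map_sum]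
  refine sum_congr rfl fun x _ => ?_
  rw [map_mul, Complex.conj_ofReal, inner_conj_symm]

theorem Sys.Sym.mul_Sym {S : Sys ι q G γ} {g : ℕ} {f f' : Finset ι → ℝ} {M M' : Op ι q}
    (h : S.Sym g f M) (h' : S.Sym g f' M') : S.Sym g (fun x => f x * f' x) (M * M') := by
  intro x v hv
  rw [Module.End.mul_apply, h' x v hv, map_smul, h x v hv, smul_smul, Complex.ofReal_mul, mul_comm]

theorem Sys.norm_Sym (S : Sys ι q G γ) {g : ℕ} {w : Finset ι → St ι q}
    (hw : ∀ x, S.Pat g x (w x)) {v : St ι q} (hv : ∑ x ∈ (S.cls g).powerset, w x = v) :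
    ‖v‖ ^ 2 = ∑ x ∈ (S.cls g).powerset, ‖w x‖ ^ 2 := by
  have h : S.Sym g (fun _ => 1) 1 := fun x v _ => by simp
  have h1 := h.re_Sym hw hv
  simp only [one_mul, Module.End.one_apply] at h1
  rw [← h1, ← inner_self_eq_norm_sq (𝕜 := ℂ)]
  rfl

theorem Sys.Gad.form {S : Sys ι q G γ} {g : ℕ} {Z : Finset ι} {θ : ℝ} {M : Op ι q}
    (h : S.Gad g Z θ M) : M.IsSymmetric ∧ M S.Ω = 0 ∧
      ∀ v, 0 ≤ (inner ℂ v (M v)).re ∧ (inner ℂ v (M v)).re ≤ ‖v‖ ^ 2 := by
  obtain ⟨f, hf, hb⟩ := h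
  refine ⟨hf.symm_Sym, ?_, fun v => ?_⟩
  · have h0 : S.Pat g ∅ S.Ω := fun t _ => by simp [S.kill t]
    rw [hf ∅ _ h0, (hb ∅).2.2.1 (by simp)]
    simp
  · obtain ⟨w, hw, hv⟩ := S.decomp g v
    rw [hf.re_Sym hw hv, S.norm_Sym hw hv]
    refine ⟨sum_nonneg fun x _ => mul_nonneg (hb x).1 (sq_nonneg _), sum_le_sum fun x _ => ?_⟩
    exact mul_le_of_le_one_left (sq_nonneg _) (hb x).2.1

theorem Sys.dl_Sym (S : Sys ι q G γ) {g : ℕ} {x : Finset ι} {v : St ι q} (hv : S.Pat g x v)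
    (l : List ι) (hl : ∀ t ∈ l, S.clr t = g) :
    S.dl l v = if ∃ t ∈ l, t ∈ x then 0 else v := by
  induction l with
  | nil => simp [Sys.dl]
  | cons s l ih =>
    have h1 := ih fun t ht => hl t (List.mem_cons_of_mem _ ht)
    have h2 : S.dl (s :: l) v = S.dl l v - S.p s (S.dl l v) := by
      simp [Sys.dl]
    have h3 := hv s (hl s List.mem_cons_self)
    rw [h2, h1]
    by_cases e : ∃ t ∈ l, t ∈ x
    · obtain ⟨t, ht, ht'⟩ := e
      rw [if_pos ⟨t, ht, ht'⟩, if_pos ⟨t, List.mem_cons_of_mem _ ht, ht'⟩]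
      simp
    · rw [if_neg e, h3]
      by_cases hs : s ∈ x
      · rw [if_pos hs, if_pos ⟨s, List.mem_cons_self, hs⟩, sub_self]
      · rw [if_neg hs, if_neg, sub_zero]
        rintro ⟨t, ht, ht'⟩
        rcases List.mem_cons.1 ht with rfl | ht
        exacts [hs ht', e ⟨t, ht, ht'⟩]

theorem Sys.gad_or (S : Sys ι q G γ) (g : ℕ) (Z : Finset ι) :
    S.Gad g Z 1 (S.orOp (Z ∩ S.cls g)) := by
  refine ⟨fun x => if ∃ t ∈ x, t ∈ Z ∧ S.clr t = g then 1 else 0, fun x v hv => ?_, fun x => ?_⟩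
  · have h1 := S.dl_Sym hv (Z ∩ S.cls g).toList fun t ht =>
      (mem_filter.1 (mem_inter.1 (mem_toList.1 ht)).2).2
    have h2 : (∃ t ∈ (Z ∩ S.cls g).toList, t ∈ x) ↔ ∃ t ∈ x, t ∈ Z ∧ S.clr t = g := by
      simp only [mem_toList, mem_inter, Sys.cls, mem_filter, mem_univ, true_and]
      exact ⟨fun ⟨t, a, b⟩ => ⟨t, b, a⟩, fun ⟨t, a, b⟩ => ⟨t, b, a⟩⟩
    have h3 : S.orOp (Z ∩ S.cls g) v = v - S.dl (Z ∩ S.cls g).toList v := rfl
    rw [h3, h1]
    by_cases e : ∃ t ∈ x, t ∈ Z ∧ S.clr t = g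
    · rw [if_pos (h2.2 e)]
      simp only [if_pos e]
      simp
    · rw [if_neg (fun h => e (h2.1 h))]
      simp only [if_neg e]
      simp
  · by_cases e : ∃ t ∈ x, t ∈ Z ∧ S.clr t = g
    · simp only [if_pos e]
      exact ⟨zero_le_one, le_rfl, fun h => absurd e h, fun _ => by norm_num⟩
    · simp only [if_neg e]
      exact ⟨le_rfl, zero_le_one, fun _ => trivial, fun h => absurd h e⟩

theorem Sys.gad_cover (S : Sys ι q G γ) (g : ℕ) {κ : Type} (s : Finset κ) (Z : κ → Finset ι)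
    (M : κ → Op ι q) {θ : ℝ} (hθ : 0 < θ) (h : ∀ a ∈ s, S.Gad g (Z a) θ (M a))
    (hc : ∀ t, ∃ a ∈ s, t ∈ Z a) (v : St ι q) :
    ‖S.orOp (S.cls g) v‖ ^ 2 / θ ≤ ∑ a ∈ s, (inner ℂ v (M a v)).re := by
  obtain ⟨w, hw, hv⟩ := S.decomp g v
  obtain ⟨f, hf, hb⟩ := S.gad_or g univ
  rw [univ_inter] at hf
  choose! F hF hB using h
  have h1 : ‖S.orOp (S.cls g) v‖ ^ 2 =
      ∑ x ∈ (S.cls g).powerset, (f x * f x) * ‖w x‖ ^ 2 := by
    rw [← (hf.mul_Sym hf).re_Sym hw hv, Module.End.mul_apply, ← hf.symm_Sym,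
      ← inner_self_eq_norm_sq (𝕜 := ℂ)]
    rfl
  rw [h1, sum_congr rfl fun a ha => (hF a ha).re_Sym hw hv, sum_comm, sum_div]
  refine sum_le_sum fun x _ => ?_
  rw [← sum_mul, mul_div_right_comm]
  refine mul_le_mul_of_nonneg_right ?_ (sq_nonneg _)
  by_cases e : ∃ t ∈ x, t ∈ univ ∧ S.clr t = g
  · obtain ⟨t, ht, -, hg⟩ := e
    obtain ⟨a, ha, hZ⟩ := hc t
    have h2 := (hB a ha x).2.2.2 ⟨t, ht, hZ, hg⟩
    have h3 : F a x ≤ ∑ a ∈ s, F a x :=
      single_le_sum (f := fun a => F a x) (fun b hb => (hB b hb x).1) ha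
    have h4 : f x * f x ≤ 1 := mul_le_one₀ (hb x).2.1 (hb x).1 (hb x).2.1
    exact (div_le_div_of_nonneg_right h4 hθ.le).trans (h2.trans h3)
  · rw [(hb x).2.2.1 e, mul_zero, zero_div]
    exact sum_nonneg fun b hb => (hB b hb x).1

theorem Sys.Gad.mono {S : Sys ι q G γ} {g : ℕ} {Z : Finset ι} {θ θ' : ℝ} {M : Op ι q}
    (h : S.Gad g Z θ M) (h0 : 0 < θ) (hθ : θ ≤ θ') : S.Gad g Z θ' M := by
  obtain ⟨f, hf, hb⟩ := h
  exact ⟨f, hf, fun x => ⟨(hb x).1, (hb x).2.1, (hb x).2.2.1, fun e =>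
    (one_div_le_one_div_of_le h0 hθ).trans ((hb x).2.2.2 e)⟩⟩

theorem Sys.Gad.avg {S : Sys ι q G γ} {g : ℕ} {Z Z' : Finset ι} {θ : ℝ} {M M' : Op ι q}
    (h : S.Gad g Z θ M) (h' : S.Gad g Z' θ M') :
    S.Gad g (Z ∪ Z') (2 * θ) ((1 / 2 : ℂ) • M + (1 / 2 : ℂ) • M') := by
  obtain ⟨f, hf, hb⟩ := h
  obtain ⟨f', hf', hb'⟩ := h'
  refine ⟨fun x => (f x + f' x) / 2, fun x v hv => ?_, fun x => ?_⟩
  · rw [LinearMap.add_apply, LinearMap.smul_apply, LinearMap.smul_apply, hf x v hv, hf' x v hv,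
      smul_smul, smul_smul, ← add_smul]
    congr 1
    push_cast
    ring
  · obtain ⟨a1, a2, a3, a4⟩ := hb x
    obtain ⟨b1, b2, b3, b4⟩ := hb' x
    refine ⟨by linarith, by linarith, fun e => ?_, fun e => ?_⟩
    · change (f x + f' x) / 2 = 0
      rw [a3 fun ⟨t, ht, hZ, hg⟩ => e ⟨t, ht, mem_union_left _ hZ, hg⟩,
        b3 fun ⟨t, ht, hZ, hg⟩ => e ⟨t, ht, mem_union_right _ hZ, hg⟩]
      norm_num
    · obtain ⟨t, ht, hZ, hg⟩ := e
      have h2 : 1 / (2 * θ) = 1 / θ / 2 := by rw [div_div, mul_comm]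
      rw [h2]
      rcases mem_union.1 hZ with hZ | hZ
      · have := a4 ⟨t, ht, hZ, hg⟩
        linarith
      · have := b4 ⟨t, ht, hZ, hg⟩
        linarith

/-- Gentle amplification (`amp_scalar`). -/
theorem Sys.Gad.amp {S : Sys ι q G γ} {g : ℕ} {Z : Finset ι} {θ : ℝ} {M : Op ι q}
    (h : S.Gad g Z θ M) (hθ : 1 ≤ θ) :
    S.Gad g Z (θ / 4 + 3 / 4)
      (((4 / (1 + 1 / θ) : ℝ) : ℂ) • M + ((-(4 / (1 + 1 / θ) ^ 2) : ℝ) : ℂ) • (M * M)) := by
  obtain ⟨f, hf, hb⟩ := h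
  refine ⟨fun x => 4 / (1 + 1 / θ) * f x - 4 / (1 + 1 / θ) ^ 2 * (f x * f x),
    fun x v hv => ?_, fun x => ?_⟩
  · rw [LinearMap.add_apply, LinearMap.smul_apply, LinearMap.smul_apply, hf x v hv,
      hf.mul_Sym hf x v hv, smul_smul, smul_smul, ← add_smul, ← Complex.ofReal_mul,
      ← Complex.ofReal_mul, ← Complex.ofReal_add, neg_mul, ← sub_eq_add_neg]
  · obtain ⟨a1, a2, a3, a4⟩ := hb x
    obtain ⟨c1, c2, c3⟩ := amp_scalar hθ a1 a2
    refine ⟨c1, c2, fun e => ?_, fun e => c3 (a4 e)⟩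
    simp only [a3 e, mul_zero, sub_zero]

end Vale.Agent.P356
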