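import Vale.Agent.P356.Words

/-!
Word calculus. `cost_expand`: by induction on the word, a word with `j` letters from `𝒢'` is a
sum of at most `n^j` words with `r j` letters from `𝒢` (`SumOf.mul`); then `Cost.sumOf`.
`cost_split`: by induction a word with `j` letters from `𝒢₁ ∪ 𝒢₂` is, for some
`j₁ + j₂ ≤ j`, both a word on `I₁` with `j₁` letters from `𝒢₁` and a word on `I₂` with `j₂`
letters from `𝒢₂`; one of `j₁, j₂` is at most `j/2`.
`trunc_count`: `TR U W e 0 = U^e` and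
`TR U W e (τ+1) = U^e + ∑_{a<e} U^a * W * TR U W (e-a-1) τ`; `U^a = (L+R)^a` is a sum of
`a+1` free terms (`Commute.add_pow`); with `β = 2/(1-x)^2 ≥ 1` use
`∑ (a+1) x^a ≤ 1/(1-x)^2`, so `e+1 ≤ x⁻¹^e/(1-x)^2`.
-/

namespace Vale.Agent.P356

open Finset

variable {ι : Type} [Fintype ι] [DecidableEq ι] {q G : ℕ} {γ : ℝ}

theorem trc_zero {𝒜 : Type} [Ring 𝒜] (U W : 𝒜) (e : ℕ) : TR U W e 0 = U ^ e := by
  induction e with
  | zero => simp [TR]
  | succ e ih => rw [TR, ih, pow_succ']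

theorem trc_succ {𝒜 : Type} [Ring 𝒜] (U W : 𝒜) (e τ : ℕ) :
    TR U W e (τ + 1) = U ^ e + ∑ a ∈ range e, U ^ a * W * TR U W (e - 1 - a) τ := by
  induction e with
  | zero => simp [TR]
  | succ e ih =>
    rw [TR, ih, sum_range_succ', mul_add, mul_sum, ← pow_succ', add_assoc]
    congr 2
    · refine sum_congr rfl fun a _ => ?_
      have h : e + 1 - 1 - (a + 1) = e - 1 - a := by omega
      rw [h, pow_succ']
      simp only [mul_assoc]
    · simp

theorem trc_free_pow {Y : ℕ → Finset ι} {I : Finset ℕ} {L : Op ι q} (hL : Free Y I L) (n : ℕ) :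
    Free Y I (L ^ n) := by
  induction n with
  | zero => rw [pow_zero]; exact Free.one Y I
  | succ n ih => rw [pow_succ]; exact ih.mul hL

theorem trc_pow {Y : ℕ → Finset ι} {I : Finset ℕ} {L R : Op ι q}
    (hc : Commute L R) (hL : Free Y I L) (hR : Free Y I R) (n : ℕ) :
    SumOf (Free Y I) ((n : ℝ) + 1) ((L + R) ^ n) := by
  rw [hc.add_pow]
  have h := SumOf.sum (P := Free Y I) (range (n + 1)) (N := fun _ => (1 : ℝ))
    (x := fun m => L ^ m * R ^ (n - m) * (n.choose m : Op ι q)) fun m _ => by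
      refine SumOf.single (((trc_free_pow hL m).mul (trc_free_pow hR (n - m))).mul ?_)
      have h1 : ((n.choose m : ℕ) : Op ι q) = ((n.choose m : ℕ) : ℂ) • (1 : Op ι q) := by
        rw [Nat.cast_smul_eq_nsmul, nsmul_one]
      rw [h1]
      exact (Free.one Y I).smul _
  refine h.mono (fun _ hy => hy) ?_
  simp

theorem trc_geo {x : ℝ} (h0 : 0 < x) (h1 : x < 1) (n : ℕ) :
    ∑ a ∈ range n, ((a : ℝ) + 1) * x ^ a ≤ 1 / (1 - x) ^ 2 := by
  have key : (∑ a ∈ range n, ((a : ℝ) + 1) * x ^ a) * (1 - x) ^ 2 =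
      1 - x ^ n * (n + 1 - n * x) := by
    induction n with
    | zero => simp
    | succ n ih =>
      rw [sum_range_succ, add_mul, ih]
      push_cast
      ring
  have hp : 0 < (1 - x) ^ 2 := pow_pos (sub_pos.2 h1) 2
  rw [le_div_iff₀ hp, key]
  have h2 : 0 ≤ (n : ℝ) + 1 - n * x := by
    have : (n : ℝ) * x ≤ n := mul_le_of_le_one_right (Nat.cast_nonneg n) h1.le
    linarith
  have h3 := mul_nonneg (pow_pos h0 n).le h2
  linarith

theorem trc_lin {x : ℝ} (h0 : 0 < x) (h1 : x < 1) (e : ℕ) :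
    (e : ℝ) + 1 ≤ x⁻¹ ^ e * (1 / (1 - x) ^ 2) := by
  have h2 := trc_geo h0 h1 (e + 1)
  rw [sum_range_succ] at h2
  have h3 : 0 ≤ ∑ a ∈ range e, ((a : ℝ) + 1) * x ^ a :=
    sum_nonneg fun a _ => by positivity
  have h4 : ((e : ℝ) + 1) * x ^ e ≤ 1 / (1 - x) ^ 2 := by linarith
  have h5 : 0 < x⁻¹ ^ e := by positivity
  have h6 := mul_le_mul_of_nonneg_left h4 h5.le
  have h7 : x⁻¹ ^ e * (((e : ℝ) + 1) * x ^ e) = e + 1 := by
    rw [inv_pow]
    field_simp
  rwa [h7] at h6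

theorem trunc_count {Y : ℕ → Finset ι} {I : Finset ℕ} {𝒢 : Set (Op ι q)} {L R W : Op ι q}
    (hc : Commute L R) (hL : Free Y I L) (hR : Free Y I R) (hW : W ∈ 𝒢) {x : ℝ} (h0 : 0 < x)
    (h1 : x < 1) (e τ : ℕ) :
    SumOf (Wd (Free Y I) 𝒢 τ) (x⁻¹ ^ e * (2 / (1 - x) ^ 2) ^ (τ + 1)) (TR (L + R) W e τ) := by
  have hp : 0 < (1 - x) ^ 2 := pow_pos (sub_pos.2 h1) 2
  have hs : 1 ≤ 1 / (1 - x) ^ 2 := by
    rw [le_div_iff₀ hp]
    nlinarith
  have hβ : 2 / (1 - x) ^ 2 = 2 * (1 / (1 - x) ^ 2) := by ring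
  have hgeo := trc_geo h0 h1
  have hlin := trc_lin h0 h1
  rw [hβ]
  generalize 1 / (1 - x) ^ 2 = s at hs hgeo hlin
  induction τ generalizing e with
  | zero =>
    rw [trc_zero]
    refine (trc_pow hc hL hR e).mono (fun y hy => Wd.free hy) ((hlin e).trans ?_)
    have h5 : 0 < x⁻¹ ^ e := by positivity
    refine mul_le_mul_of_nonneg_left ?_ h5.le
    rw [zero_add, pow_one]
    linarith
  | succ τ ih =>
    rw [trc_succ]
    have h5 : 0 < x⁻¹ ^ e := by positivity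
    have hb : 1 ≤ (2 * s) ^ (τ + 1) := one_le_pow₀ (by linarith)
    have hA : SumOf (Wd (Free Y I) 𝒢 (τ + 1)) ((e : ℝ) + 1) ((L + R) ^ e) :=
      (trc_pow hc hL hR e).mono (fun y hy => Wd.free hy) le_rfl
    have hB := SumOf.sum (P := Wd (Free Y I) 𝒢 (τ + 1)) (range e)
      (N := fun a => x⁻¹ ^ e * (2 * s) ^ (τ + 1) * (((a : ℝ) + 1) * x ^ a))
      (x := fun a => (L + R) ^ a * W * TR (L + R) W (e - 1 - a) τ) fun a ha => by
        have ha' : a < e := mem_range.1 ha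
        have k1 : SumOf (Wd (Free Y I) 𝒢 1) (((a : ℝ) + 1) * 1) ((L + R) ^ a * W) :=
          (trc_pow hc hL hR a).mul (SumOf.single (P := Wd (Free Y I) 𝒢 1) (Wd.letter hW))
            fun u v hu hv => ((Wd.free (j := 0) hu).mul hv).mono (by omega)
        have k2 := k1.mul (T := Wd (Free Y I) 𝒢 (τ + 1)) (ih (e - 1 - a))
          fun u v hu hv => (hu.mul hv).mono (by omega)
        refine k2.mono (fun _ hy => hy) ?_
        have k3 : x⁻¹ ^ (e - 1 - a) ≤ x⁻¹ ^ e * x ^ a := by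
          have k4 : e = (e - 1 - a) + 1 + a := by omega
          have k5 : x⁻¹ ^ e * x ^ a = x⁻¹ ^ (e - 1 - a) * x⁻¹ := by
            conv_lhs => rw [k4]
            rw [pow_add, pow_add, pow_one, mul_assoc, ← mul_pow, inv_mul_cancel₀ h0.ne', one_pow,
              mul_one]
          rw [k5]
          exact le_mul_of_one_le_right (by positivity) (one_le_inv₀ h0 |>.2 h1.le)
        have k6 : 0 ≤ ((a : ℝ) + 1) * (2 * s) ^ (τ + 1) :=
          mul_nonneg (by positivity) (by linarith)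
        have k7 := mul_le_mul_of_nonneg_left k3 k6
        calc ((a : ℝ) + 1) * 1 * (x⁻¹ ^ (e - 1 - a) * (2 * s) ^ (τ + 1))
            = ((a : ℝ) + 1) * (2 * s) ^ (τ + 1) * x⁻¹ ^ (e - 1 - a) := by ring
          _ ≤ ((a : ℝ) + 1) * (2 * s) ^ (τ + 1) * (x⁻¹ ^ e * x ^ a) := k7
          _ = _ := by ring
    refine (hA.add hB).mono (fun _ hy => hy) ?_
    rw [← mul_sum]
    have k8 : 0 ≤ x⁻¹ ^ e * (2 * s) ^ (τ + 1) := mul_nonneg h5.le (by linarith)
    have k9 := mul_le_mul_of_nonneg_left (hgeo e) k8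
    have k10 : x⁻¹ ^ e * s ≤ x⁻¹ ^ e * (2 * s) ^ (τ + 1) * s := by
      refine mul_le_mul_of_nonneg_right (le_mul_of_one_le_right h5.le hb) (by linarith)
    have k11 := hlin e
    have k12 : x⁻¹ ^ e * (2 * s) ^ (τ + 1 + 1) = 2 * (x⁻¹ ^ e * (2 * s) ^ (τ + 1) * s) := by ring
    rw [k12]
    linarith

end Vale.Agent.P356
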